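import Vale.Agent.Lib.P243.Fiber

open MeasureTheory Module Set
open scoped ENNReal RealInnerProductSpace Pointwise

namespace Vale.Agent.Lib.P243

set_option linter.unusedSectionVars false

variable {V : Type*} [NormedAddCommGroup V] [InnerProductSpace ℝ V] [FiniteDimensional ℝ V]
  [MeasurableSpace V] [BorelSpace V]

/-- The plane orthogonal to `u`. -/
noncomputable abbrev Pl (u : V) := ((ℝ ∙ u)ᗮ : Submodule ℝ V)

/-- The fibre of `K` over `y` in direction `u`. -/
def fib (K : Set V) (u : V) (y : Pl u) : Set ℝ := {t : ℝ | (y : V) + t • u ∈ K}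

/-- The length of the fibre of `K` over `y` in direction `u`. -/
noncomputable def len (K : Set V) (u : V) (y : Pl u) : ℝ := (volume (fib K u y)).toReal

theorem inner_y_u (u : V) (y : Pl u) : ⟪u, (y : V)⟫ = 0 := by
  have := y.2
  rw [Submodule.mem_orthogonal_singleton_iff_inner_right] at this
  exact this

theorem isCompact_fib {K : Set V} (hK : IsCompact K) (u : V) (hu : ‖u‖ = 1) (y : Pl u) :
    IsCompact (fib K u y) := by
  have hcl : IsClosed (fib K u y) := by
    have hc : Continuous (fun t : ℝ => (y : V) + t • u) := by fun_prop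
    exact hK.isClosed.preimage hc
  have hsub : fib K u y ⊆ (fun x : V => ⟪u, x⟫) '' K := by
    intro t ht
    refine ⟨_, ht, ?_⟩
    simp only [inner_add_right, inner_y_u, inner_smul_right, real_inner_self_eq_norm_sq, hu]
    ring
  have hc2 : IsCompact ((fun x : V => ⟪u, x⟫) '' K) := by
    apply hK.image
    fun_prop
  exact hc2.of_isClosed_subset hcl hsub

theorem comb_aux (y u : V) (a b s t : ℝ) (hab : a + b = 1) :
    y + (a * s + b * t) • u = a • (y + s • u) + b • (y + t • u) := by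
  have h : y = (a + b) • y := by rw [hab, one_smul]
  nth_rewrite 1 [h]
  simp only [add_smul, smul_add, mul_smul]
  abel

theorem convex_fib {K : Set V} (hK : Convex ℝ K) (u : V) (y : Pl u) :
    Convex ℝ (fib K u y) := by
  intro s hs t ht a b ha hb hab
  have h := hK hs ht ha hb hab
  show (y : V) + (a • s + b • t) • u ∈ K
  rw [smul_eq_mul, smul_eq_mul, comb_aux _ _ _ _ _ _ hab]
  exact h

theorem fib_eq_Icc {K : Set V} (hKc : IsCompact K) (hK : Convex ℝ K) (u : V) (hu : ‖u‖ = 1)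
    (y : Pl u) (hne : (fib K u y).Nonempty) :
    ∃ a b : ℝ, a ≤ b ∧ fib K u y = Icc a b := by
  have hcomp := isCompact_fib hKc u hu y
  have hconn : IsConnected (fib K u y) :=
    ⟨hne, (convex_fib hK u y).isPreconnected⟩
  refine ⟨sInf (fib K u y), sSup (fib K u y), ?_, eq_Icc_of_connected_compact hconn hcomp⟩
  exact csInf_le_csSup hne hcomp.bddBelow hcomp.bddAbove |> fun h => h

theorem len_of_Icc {K : Set V} {u : V} {y : Pl u} {a b : ℝ} (hab : a ≤ b)
    (h : fib K u y = Icc a b) : len K u y = b - a := by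
  unfold len
  rw [h, Real.volume_Icc, ENNReal.toReal_ofReal (sub_nonneg.mpr hab)]

theorem len_nonneg (K : Set V) (u : V) (y : Pl u) : 0 ≤ len K u y := ENNReal.toReal_nonneg

theorem volume_fib_eq {K : Set V} (hK : IsCompact K) (u : V) (hu : ‖u‖ = 1) (y : Pl u) :
    volume (fib K u y) = ENNReal.ofReal (len K u y) := by
  unfold len
  rw [ENNReal.ofReal_toReal (isCompact_fib hK u hu y).measure_lt_top.ne]

theorem mem_image_iff_fib (K : Set V) (u : V) (hu : ‖u‖ = 1) (y : Pl u) :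
    y ∈ (ℝ ∙ u)ᗮ.orthogonalProjectionOnto '' K ↔ (fib K u y).Nonempty := by
  constructor
  · rintro ⟨x, hx, rfl⟩
    refine ⟨⟪u, x⟫, ?_⟩
    show _ ∈ K
    rw [fiber_decomp u hu x]
    exact hx
  · rintro ⟨t, ht⟩
    exact ⟨_, ht, proj_fiber u y t⟩

/-- Fibres of a convex combination contain the combination of the fibres. -/
theorem len_concave {K : Set V} (hKc : IsCompact K) (hK : Convex ℝ K) (u : V) (hu : ‖u‖ = 1)
    (y₁ y₂ : Pl u) (h₁ : (fib K u y₁).Nonempty) (h₂ : (fib K u y₂).Nonempty)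
    {a b : ℝ} (ha : 0 ≤ a) (hb : 0 ≤ b) (hab : a + b = 1) :
    a * len K u y₁ + b * len K u y₂ ≤ len K u (a • y₁ + b • y₂) := by
  obtain ⟨s₁, t₁, hst₁, e₁⟩ := fib_eq_Icc hKc hK u hu y₁ h₁
  obtain ⟨s₂, t₂, hst₂, e₂⟩ := fib_eq_Icc hKc hK u hu y₂ h₂
  rw [len_of_Icc hst₁ e₁, len_of_Icc hst₂ e₂]
  have key : ∀ p q, p ∈ fib K u y₁ → q ∈ fib K u y₂ → a * p + b * q ∈ fib K u (a • y₁ + b • y₂) := by
    intro p q hp hq
    have h := hK hp hq ha hb hab
    show _ ∈ K
    convert h using 1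
    simp only [Submodule.coe_add, Submodule.coe_smul, smul_add, add_smul, mul_smul]
    abel
  have hl : a * s₁ + b * s₂ ∈ fib K u (a • y₁ + b • y₂) :=
    key _ _ (by rw [e₁]; exact left_mem_Icc.mpr hst₁) (by rw [e₂]; exact left_mem_Icc.mpr hst₂)
  have hr : a * t₁ + b * t₂ ∈ fib K u (a • y₁ + b • y₂) :=
    key _ _ (by rw [e₁]; exact right_mem_Icc.mpr hst₁) (by rw [e₂]; exact right_mem_Icc.mpr hst₂)
  obtain ⟨s, t, hst, e⟩ := fib_eq_Icc hKc hK u hu _ ⟨_, hl⟩
  rw [len_of_Icc hst e]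
  rw [e] at hl hr
  have := hl.1
  have := hr.2
  linarith [hl.1, hr.2, hl.2, hr.1]

theorem fib_neg {K : Set V} (hs : ∀ x ∈ K, -x ∈ K) (u : V) (y : Pl u) :
    fib K u (-y) = (fun t => -t) ⁻¹' fib K u y := by
  ext t
  simp only [fib, mem_ofPred_eq, mem_preimage, Submodule.coe_neg]
  constructor
  · intro h
    have := hs _ h
    convert this using 1
    simp [neg_smul]
    abel
  · intro h
    have := hs _ h
    convert this using 1
    simp [neg_smul]
    abel

theorem len_neg {K : Set V} (hs : ∀ x ∈ K, -x ∈ K) (u : V) (y : Pl u) :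
    len K u (-y) = len K u y := by
  unfold len
  rw [fib_neg hs]
  congr 1
  exact Measure.measure_preimage_neg volume (fib K u y)

theorem fib_nonempty_neg {K : Set V} (hs : ∀ x ∈ K, -x ∈ K) (u : V) (y : Pl u)
    (h : (fib K u y).Nonempty) : (fib K u (-y)).Nonempty := by
  obtain ⟨t, ht⟩ := h
  refine ⟨-t, ?_⟩
  rw [fib_neg hs]
  simpa using ht

/-- `τ y` has a fibre at least as long as that of `y`. -/
theorem len_smul_ge {K : Set V} (hKc : IsCompact K) (hK : Convex ℝ K) (hs : ∀ x ∈ K, -x ∈ K)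
    (u : V) (hu : ‖u‖ = 1) (y : Pl u) (h : (fib K u y).Nonempty) {τ : ℝ} (hτ : τ ∈ Icc (-1 : ℝ) 1) :
    len K u y ≤ len K u (τ • y) := by
  have h1 := len_concave hKc hK u hu y (-y) h (fib_nonempty_neg hs u y h)
    (a := (1 + τ) / 2) (b := (1 - τ) / 2) (by linarith [hτ.1]) (by linarith [hτ.2]) (by ring)
  rw [len_neg hs] at h1
  have h2 : ((1 + τ) / 2) • y + ((1 - τ) / 2) • (-y) = τ • y := by
    rw [smul_neg, ← sub_eq_add_neg, ← sub_smul]
    congr 1
    ring
  rw [h2] at h1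
  linarith

/-- The fibre over `p τ y + (1-p) x` has length at least `p len y`. -/
theorem len_level {K : Set V} (hKc : IsCompact K) (hK : Convex ℝ K) (hs : ∀ x ∈ K, -x ∈ K)
    (u : V) (hu : ‖u‖ = 1) (y : Pl u) (h : (fib K u y).Nonempty) {τ p : ℝ} (hτ : τ ∈ Icc (-1 : ℝ) 1)
    (hp : p ∈ Icc (0 : ℝ) 1) (x : Pl u) (hx : (fib K u x).Nonempty) :
    p * len K u y ≤ len K u (p • (τ • y) + (1 - p) • x) := by
  have h0 := len_smul_ge hKc hK hs u hu y h hτ
  have hτne : (fib K u (τ • y)).Nonempty := by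
    obtain ⟨t₁, ht₁⟩ := h
    obtain ⟨t₂, ht₂⟩ := fib_nonempty_neg hs u y ⟨t₁, ht₁⟩
    refine ⟨((1 + τ) / 2) * t₁ + ((1 - τ) / 2) * t₂, ?_⟩
    have h3 := hK ht₁ ht₂ (a := (1 + τ) / 2) (b := (1 - τ) / 2) (by linarith [hτ.1]) (by linarith [hτ.2]) (by ring)
    show _ ∈ K
    convert h3 using 1
    have h4 : (y : V) = ((1 + τ) / 2 + (1 - τ) / 2) • (y : V) := by
      have : (1 + τ) / 2 + (1 - τ) / 2 = 1 := by ring
      rw [this, one_smul]
    simp only [Submodule.coe_smul, Submodule.coe_neg, smul_add, add_smul, mul_smul, smul_neg]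
    have h5 : τ • (y : V) = ((1 + τ) / 2) • (y : V) - ((1 - τ) / 2) • (y : V) := by
      rw [← sub_smul]
      congr 1
      ring
    rw [h5]
    abel
  have h1 := len_concave hKc hK u hu (τ • y) x hτne hx (a := p) (b := 1 - p) hp.1 (by linarith [hp.2]) (by ring)
  have hlen := len_nonneg K u x
  have hp1 : 0 ≤ 1 - p := by linarith [hp.2]
  have : p * len K u y ≤ p * len K u (τ • y) := mul_le_mul_of_nonneg_left h0 hp.1
  nlinarith [mul_nonneg hp1 hlen]

end Vale.Agent.Lib.P243
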