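import Vale.Agent.Lib.P243.SymmMain

open MeasureTheory Set
open scoped ENNReal RealInnerProductSpace

namespace Vale.Agent.Lib.P243

/-- Euclidean three-space. -/
abbrev E3 : Type := EuclideanSpace ℝ (Fin 3)

/-- A convex body: compact, convex, with nonempty interior. -/
def IsBody (K : Set E3) : Prop := IsCompact K ∧ Convex ℝ K ∧ (interior K).Nonempty

/-- Orthogonal projection of `x` onto the plane orthogonal to the unit vector `u`. -/
noncomputable def perpProj (u x : E3) : E3 := x - ⟪u, x⟫ • u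

/-- The cylinder with direction `u` over the base `B`: all points projecting into `B`. -/
def cyl (u : E3) (B : Set E3) : Set E3 := {x | perpProj u x ∈ B}

/-- Lebesgue (outer) measure, on a linear subspace `S` with its induced Euclidean structure, of
the part of `B` that lies in `S`. -/
noncomputable def subspaceArea {V : Type} [NormedAddCommGroup V] [InnerProductSpace ℝ V]
    [FiniteDimensional ℝ V] [MeasurableSpace V] [BorelSpace V] (S : Submodule ℝ V) (B : Set V) :
    ℝ≥0∞ := volume {y : S | (y : V) ∈ B}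

/-- Planar area in `u^⊥`: Lebesgue (outer) measure on the plane `u^⊥` of the part of `B` in it. -/
noncomputable def area (u : E3) (B : Set E3) : ℝ≥0∞ := subspaceArea (ℝ ∙ u)ᗮ B

/-- The family of cylinders with unit directions `u i` and bases `B i` covers `K`. -/
def Covers {ι : Type} (K : Set E3) (u : ι → E3) (B : ι → Set E3) : Prop :=
  (∀ i, ‖u i‖ = 1) ∧ K ⊆ ⋃ i, cyl (u i) (B i)

/-- Directionwise relative area of a cylinder family with respect to `K`. -/
noncomputable def relArea {ι : Type} [Fintype ι] (K : Set E3) (u : ι → E3) (B : ι → Set E3) :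
    ℝ≥0∞ :=
  ∑ i, area (u i) (B i) / area (u i) (perpProj (u i) '' K)

/-- Total base area of a cylinder family. -/
noncomputable def totalArea {ι : Type} [Fintype ι] (u : ι → E3) (B : ι → Set E3) : ℝ≥0∞ :=
  ∑ i, area (u i) (B i)

/-- The minimal area of an orthogonal projection of `K` onto a plane. -/
noncomputable def minShadow (K : Set E3) : ℝ≥0∞ :=
  ⨅ u : {u : E3 // ‖u‖ = 1}, area u (perpProj u '' K)

theorem coe_proj_eq {u : E3} (hu : ‖u‖ = 1) (x : E3) :
    (((ℝ ∙ u)ᗮ.orthogonalProjectionOnto x : (ℝ ∙ u)ᗮ) : E3) = perpProj u x := by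
  have h1 : (((ℝ ∙ u)ᗮ.orthogonalProjectionOnto x : (ℝ ∙ u)ᗮ) : E3)
      = x - (ℝ ∙ u).starProjection x := by
    have := Submodule.starProjection_orthogonal_val (K := ℝ ∙ u) x
    simp
  rw [h1, Submodule.starProjection_unit_singleton _ hu]
  rfl

theorem preimage_shadow {u : E3} (hu : ‖u‖ = 1) (K : Set E3) :
    {y : (ℝ ∙ u)ᗮ | (y : E3) ∈ perpProj u '' K} = (ℝ ∙ u)ᗮ.orthogonalProjectionOnto '' K := by
  ext y
  constructor
  · rintro ⟨x, hx, hxy⟩
    refine ⟨x, hx, ?_⟩
    apply Subtype.ext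
    rw [coe_proj_eq hu, hxy]
  · rintro ⟨x, hx, rfl⟩
    exact ⟨x, hx, (coe_proj_eq hu x).symm⟩

/-- Rewriting a cover in the language of `symm_main`. -/
theorem cover_translate {ι : Type} {K : Set E3} {u : ι → E3} {B : ι → Set E3}
    (h : Covers K u B) :
    K ⊆ ⋃ i, {x | (ℝ ∙ u i)ᗮ.orthogonalProjectionOnto x ∈ {y : (ℝ ∙ u i)ᗮ | (y : E3) ∈ B i}} := by
  intro x hx
  obtain ⟨i, hi⟩ := mem_iUnion.1 (h.2 hx)
  refine mem_iUnion.2 ⟨i, ?_⟩
  change (((ℝ ∙ u i)ᗮ.orthogonalProjectionOnto x : (ℝ ∙ u i)ᗮ) : E3) ∈ B i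
  rw [coe_proj_eq (h.1 i)]
  exact hi

theorem div_mul_le_aux {a s m : ℝ≥0∞} (hm : m ≤ s) : a / s * m ≤ a := by
  rcases eq_or_ne s 0 with rfl | hs0
  · have : m = 0 := le_antisymm hm zero_le
    simp [this]
  rcases eq_or_ne s ⊤ with rfl | hst
  · simp
  calc a / s * m ≤ a / s * s := by gcongr
    _ = a := ENNReal.div_mul_cancel hs0 hst

/-- A lower bound on the relative area always yields the same bound for total base area against
the minimal shadow. -/
theorem total_of_rel {ι : Type} [Fintype ι] {K : Set E3} {u : ι → E3} {B : ι → Set E3} {c : ℝ≥0∞}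
    (hu : ∀ i, ‖u i‖ = 1) (h : c ≤ relArea K u B) : c * minShadow K ≤ totalArea u B := by
  calc c * minShadow K ≤ relArea K u B * minShadow K := by gcongr
    _ = ∑ i, area (u i) (B i) / area (u i) (perpProj (u i) '' K) * minShadow K := by
        rw [relArea, Finset.sum_mul]
    _ ≤ ∑ i, area (u i) (B i) := by
        apply Finset.sum_le_sum
        intro i _
        apply div_mul_le_aux
        exact iInf_le (fun v : {u : E3 // ‖u‖ = 1} => area v (perpProj v '' K)) ⟨u i, hu i⟩

theorem symm_rel {ι : Type} [Fintype ι] {K : Set E3} (hK : IsBody K) (hs : ∀ x ∈ K, -x ∈ K)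
    {u : ι → E3} {B : ι → Set E3} (h : Covers K u B) : (5 / 12 : ℝ≥0∞) ≤ relArea K u B := by
  have := symm_main hK.1 hK.2.1 hK.2.2 hs (by simp) u h.1
    (fun i => {y : (ℝ ∙ u i)ᗮ | (y : E3) ∈ B i}) (cover_translate h)
  refine this.trans (le_of_eq ?_)
  refine Finset.sum_congr rfl fun i _ => ?_
  rw [area, area, subspaceArea, subspaceArea, preimage_shadow (h.1 i)]

end Vale.Agent.Lib.P243
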