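import Vale.Agent.Lib.P243.Normal

open MeasureTheory Module Set Metric Filter
open scoped ENNReal RealInnerProductSpace Pointwise Topology

namespace Vale.Agent.Lib.P243

set_option linter.unusedSectionVars false

variable {V : Type*} [NormedAddCommGroup V] [InnerProductSpace ℝ V] [FiniteDimensional ℝ V]
  [MeasurableSpace V] [BorelSpace V]

theorem nhds_of_ball {K : Set V} {r₀ : ℝ} (hr : 0 < r₀) (hin : closedBall 0 r₀ ⊆ K) :
    K ∈ 𝓝 (0 : V) :=
  Filter.mem_of_superset (closedBall_mem_nhds _ hr) hin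

theorem gauge_le_norm_div {K : Set V} {r₀ : ℝ} (hr : 0 < r₀) (hin : closedBall 0 r₀ ⊆ K) (v : V) :
    gauge K v ≤ ‖v‖ / r₀ := by
  by_cases hv : v = 0
  · rw [hv, gauge_zero, norm_zero, zero_div]
  have hn : 0 < ‖v‖ := norm_pos_iff.mpr hv
  have hne : ‖v‖ / r₀ ≠ 0 := by positivity
  apply gauge_le_of_mem (by positivity)
  refine ⟨(‖v‖ / r₀)⁻¹ • v, hin ?_, smul_inv_smul₀ hne v⟩
  rw [mem_closedBall_zero_iff, norm_smul, norm_inv, norm_div, norm_norm,
    Real.norm_of_nonneg hr.le]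
  field_simp
  exact le_refl _

theorem gauge_lipschitz {K : Set V} (hK : Convex ℝ K) {r₀ : ℝ} (hr : 0 < r₀)
    (hin : closedBall 0 r₀ ⊆ K) (x y : V) : gauge K x - gauge K y ≤ ‖x - y‖ / r₀ := by
  have h0 := nhds_of_ball hr hin
  have h1 := gauge_add_le hK (absorbent_nhds_zero h0) y (x - y)
  rw [add_sub_cancel] at h1
  have h2 := gauge_le_norm_div hr hin (x - y)
  linarith

theorem inner_le_mul_gauge {K : Set V} (hK : Convex ℝ K) (h0 : K ∈ 𝓝 (0 : V)) {f z : V}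
    (hn : IsNormal K f z) (hM : 0 ≤ ⟪f, z⟫) (v : V) : ⟪f, v⟫ ≤ ⟪f, z⟫ * gauge K v := by
  apply le_of_forall_gt_imp_ge_of_dense
  intro a ha
  -- reformulate with `r`
  by_cases hM0 : ⟪f, z⟫ = 0
  · rw [hM0, zero_mul] at ha
    obtain ⟨b, hb0, hb1, w, hw, rfl⟩ := exists_lt_of_gauge_lt (absorbent_nhds_zero h0)
      (lt_add_one (gauge K v))
    simp only [smul_eq_mul, inner_smul_right]
    have := hn.2.2 w hw
    rw [hM0] at this
    have h2 : b * ⟪f, w⟫ ≤ 0 := mul_nonpos_of_nonneg_of_nonpos hb0.le this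
    linarith
  have hMpos : 0 < ⟪f, z⟫ := lt_of_le_of_ne hM (Ne.symm hM0)
  have hlt : gauge K v < a / ⟪f, z⟫ := by
    rw [lt_div_iff₀ hMpos]
    linarith
  obtain ⟨b, hb0, hb1, w, hw, rfl⟩ := exists_lt_of_gauge_lt (absorbent_nhds_zero h0) hlt
  simp only [smul_eq_mul, inner_smul_right]
  have h3 := hn.2.2 w hw
  have h4 : b * ⟪f, w⟫ ≤ b * ⟪f, z⟫ := mul_le_mul_of_nonneg_left h3 hb0.le
  rw [lt_div_iff₀ hMpos] at hb1
  linarith

/-- Second difference of the gauge in direction `e` at scale `T`. -/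
noncomputable def psi (K : Set V) (e : V) (T : ℝ) (x : V) : ℝ :=
  gauge K (x + T • e) + gauge K (x - T • e) - 2 * gauge K x

theorem psi_nonneg {K : Set V} (hK : Convex ℝ K) (h0 : K ∈ 𝓝 (0 : V)) (e : V) (T : ℝ) (x : V) :
    0 ≤ psi K e T x := by
  have h1 := gauge_add_le hK (absorbent_nhds_zero h0) ((1 / 2 : ℝ) • (x + T • e))
    ((1 / 2 : ℝ) • (x - T • e))
  have h2 : (1 / 2 : ℝ) • (x + T • e) + (1 / 2 : ℝ) • (x - T • e) = x := by
    module
  rw [h2, gauge_smul_of_nonneg (by norm_num), gauge_smul_of_nonneg (by norm_num)] at h1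
  simp only [smul_eq_mul] at h1
  unfold psi
  linarith

theorem continuous_psi {K : Set V} (hK : Convex ℝ K) (h0 : K ∈ 𝓝 (0 : V)) (e : V) (T : ℝ) :
    Continuous (psi K e T) := by
  have hc := continuous_gauge hK h0
  unfold psi
  fun_prop

/-- Telescoping of second differences. -/
theorem psi_sum_le {K : Set V} (hK : Convex ℝ K) {r₀ : ℝ} (hr : 0 < r₀)
    (hin : closedBall 0 r₀ ⊆ K) {e : V} (he : ‖e‖ = 1) {T : ℝ} (hT : 0 < T) (y : V) (m : ℕ) :
    ∑ k ∈ Finset.range m, psi K e T (y + ((k : ℝ) * T) • e) ≤ 2 * (T / r₀) := by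
  set F : ℕ → ℝ := fun n => gauge K (y + ((n : ℝ) * T) • e) - gauge K (y + (((n : ℝ) - 1) * T) • e)
    with hF
  have hterm : ∀ k : ℕ, psi K e T (y + ((k : ℝ) * T) • e) = F (k + 1) - F k := by
    intro k
    simp only [hF, psi]
    have e1 : y + ((k : ℝ) * T) • e + T • e = y + (((k + 1 : ℕ) : ℝ) * T) • e := by
      push_cast
      module
    have e2 : y + ((k : ℝ) * T) • e - T • e = y + (((k : ℝ) - 1) * T) • e := by
      module
    have e3 : y + ((((k + 1 : ℕ) : ℝ) - 1) * T) • e = y + ((k : ℝ) * T) • e := by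
      push_cast
      congr 2
      ring
    rw [e1, e2, e3]
    ring
  have hsum : ∑ k ∈ Finset.range m, psi K e T (y + ((k : ℝ) * T) • e) = F m - F 0 := by
    simp_rw [hterm]
    exact Finset.sum_range_sub F m
  rw [hsum]
  have hbd : ∀ n : ℕ, F n ≤ T / r₀ ∧ -(T / r₀) ≤ F n := by
    intro n
    have e1 : (y + ((n : ℝ) * T) • e) - (y + (((n : ℝ) - 1) * T) • e) = T • e := by
      module
    have hnorm : ‖T • e‖ = T := by
      rw [norm_smul, he, mul_one, Real.norm_of_nonneg hT.le]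
    constructor
    · have := gauge_lipschitz hK hr hin (y + ((n : ℝ) * T) • e) (y + (((n : ℝ) - 1) * T) • e)
      rw [e1, hnorm] at this
      exact this
    · have := gauge_lipschitz hK hr hin (y + (((n : ℝ) - 1) * T) • e) (y + ((n : ℝ) * T) • e)
      rw [← norm_neg, neg_sub, e1, hnorm] at this
      simp only [hF]
      linarith
  have h1 := (hbd m).1
  have h2 := (hbd 0).2
  linarith

/-- The super-level set of the second difference. -/
def Dset (K : Set V) (e : V) (T β : ℝ) : Set V := {x | β * T ≤ psi K e T x}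

theorem isClosed_Dset {K : Set V} (hK : Convex ℝ K) (h0 : K ∈ 𝓝 (0 : V)) (e : V) (T β : ℝ) :
    IsClosed (Dset K e T β) :=
  isClosed_le continuous_const (continuous_psi hK h0 e T)

/-- Along a line, the points `y + k T e` hit `Dset` a bounded number of times. -/
theorem count_le {K : Set V} (hK : Convex ℝ K) {r₀ : ℝ} (hr : 0 < r₀)
    (hin : closedBall 0 r₀ ⊆ K) {e : V} (he : ‖e‖ = 1) {T β : ℝ} (hT : 0 < T) (hβ : 0 < β)
    (y : V) (m : ℕ) :
    ∑ k ∈ Finset.range m, (Dset K e T β).indicator (fun _ => (1 : ℝ≥0∞)) (y + ((k : ℝ) * T) • e) ≤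
      ENNReal.ofReal (2 / (r₀ * β)) := by
  classical
  have h0 := nhds_of_ball hr hin
  have hconv : ∀ k : ℕ, (Dset K e T β).indicator (fun _ => (1 : ℝ≥0∞)) (y + ((k : ℝ) * T) • e) =
      ENNReal.ofReal (if y + ((k : ℝ) * T) • e ∈ Dset K e T β then 1 else 0) := by
    intro k
    by_cases h : y + ((k : ℝ) * T) • e ∈ Dset K e T β <;> simp [h]
  simp_rw [hconv]
  rw [← ENNReal.ofReal_sum_of_nonneg (by intro k _; split_ifs <;> norm_num)]
  apply ENNReal.ofReal_le_ofReal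
  have h1 : (β * T) * ∑ k ∈ Finset.range m, (if y + ((k : ℝ) * T) • e ∈ Dset K e T β then (1 : ℝ) else 0)
      ≤ ∑ k ∈ Finset.range m, psi K e T (y + ((k : ℝ) * T) • e) := by
    rw [Finset.mul_sum]
    apply Finset.sum_le_sum
    intro k _
    split_ifs with h
    · rw [mul_one]; exact h
    · rw [mul_zero]; exact psi_nonneg hK h0 e T _
  have h2 := psi_sum_le hK hr hin he hT y m
  have h3 : 0 < β * T := by positivity
  rw [le_div_iff₀ (by positivity)]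
  have h4 : (β * T) * ((∑ k ∈ Finset.range m, (if y + ((k : ℝ) * T) • e ∈ Dset K e T β then (1 : ℝ) else 0)) * (r₀ * β))
      ≤ (β * T) * 2 := by
    have h5 : (β * T) * ∑ k ∈ Finset.range m, (if y + ((k : ℝ) * T) • e ∈ Dset K e T β then (1 : ℝ) else 0)
        ≤ 2 * (T / r₀) := h1.trans h2
    calc (β * T) * ((∑ k ∈ Finset.range m, (if y + ((k : ℝ) * T) • e ∈ Dset K e T β then (1 : ℝ) else 0)) * (r₀ * β))
        = ((β * T) * ∑ k ∈ Finset.range m, (if y + ((k : ℝ) * T) • e ∈ Dset K e T β then (1 : ℝ) else 0)) * (r₀ * β) := by ring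
      _ ≤ (2 * (T / r₀)) * (r₀ * β) := by
          apply mul_le_mul_of_nonneg_right h5 (by positivity)
      _ = (β * T) * 2 := by field_simp
  exact le_of_mul_le_mul_left h4 h3

theorem volume_inter_le_lintegral {D Q Q' : Set V} (hD : MeasurableSet D) (v : V)
    (h : ∀ x ∈ Q, x - v ∈ Q') :
    volume (D ∩ Q) ≤ ∫⁻ y in Q', D.indicator (fun _ => (1 : ℝ≥0∞)) (y + v) := by
  have hm : MeasurableSet ((fun y => y + v) ⁻¹' D) := (measurable_add_const v) hD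
  have h1 : (fun y => D.indicator (fun _ => (1 : ℝ≥0∞)) (y + v)) =
      ((fun y => y + v) ⁻¹' D).indicator (fun _ => (1 : ℝ≥0∞)) := by
    funext y
    by_cases hy : y + v ∈ D <;> simp [hy]
  rw [h1, lintegral_indicator_const hm, one_mul, Measure.restrict_apply hm]
  rw [← measure_preimage_add_right volume v (D ∩ Q)]
  apply measure_mono
  rintro y ⟨hy1, hy2⟩
  refine ⟨hy1, ?_⟩
  have := h _ hy2
  simpa using this

/-- The translation-counting bound on `Dset`. -/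
theorem volume_Dset_le {K : Set V} (hK : Convex ℝ K) {r₀ : ℝ} (hr : 0 < r₀)
    (hin : closedBall 0 r₀ ⊆ K) {e : V} (he : ‖e‖ = 1) {T β R : ℝ} (hT : 0 < T) (hβ : 0 < β)
    (m : ℕ) :
    (m : ℝ≥0∞) * volume (Dset K e T β ∩ closedBall 0 R) ≤
      ENNReal.ofReal (2 / (r₀ * β)) * volume (closedBall (0 : V) (R + m * T)) := by
  have h0 := nhds_of_ball hr hin
  set D := Dset K e T β with hD
  have hDm : MeasurableSet D := (isClosed_Dset hK h0 e T β).measurableSet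
  set Qp := closedBall (0 : V) (R + m * T) with hQ
  have hk : ∀ k ∈ Finset.range m, volume (D ∩ closedBall 0 R) ≤
      ∫⁻ y in Qp, D.indicator (fun _ => (1 : ℝ≥0∞)) (y + ((k : ℝ) * T) • e) := by
    intro k hk
    apply volume_inter_le_lintegral hDm
    intro x hx
    rw [hQ, mem_closedBall_zero_iff]
    rw [mem_closedBall_zero_iff] at hx
    refine (norm_sub_le _ _).trans ?_
    rw [norm_smul, he, mul_one, Real.norm_of_nonneg (by positivity)]
    have hkm : (k : ℝ) ≤ m := by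
      exact_mod_cast (Finset.mem_range.mp hk).le
    have : (k : ℝ) * T ≤ m * T := mul_le_mul_of_nonneg_right hkm hT.le
    linarith
  calc (m : ℝ≥0∞) * volume (D ∩ closedBall 0 R)
      = ∑ _k ∈ Finset.range m, volume (D ∩ closedBall 0 R) := by
        simp
    _ ≤ ∑ k ∈ Finset.range m, ∫⁻ y in Qp, D.indicator (fun _ => (1 : ℝ≥0∞)) (y + ((k : ℝ) * T) • e) :=
        Finset.sum_le_sum hk
    _ = ∫⁻ y in Qp, ∑ k ∈ Finset.range m, D.indicator (fun _ => (1 : ℝ≥0∞)) (y + ((k : ℝ) * T) • e) := by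
        rw [lintegral_finset_sum]
        intro k _
        exact (measurable_const.indicator hDm).comp (measurable_add_const _)
    _ ≤ ∫⁻ _y in Qp, ENNReal.ofReal (2 / (r₀ * β)) := by
        apply lintegral_mono
        intro y
        exact count_le hK hr hin he hT hβ y m
    _ = ENNReal.ofReal (2 / (r₀ * β)) * volume Qp := by
        rw [lintegral_const, Measure.restrict_apply MeasurableSet.univ, univ_inter]

/-- The radial thickening of `Dset`. -/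
def Wset (K D : Set V) (τ : ℝ) : Set V :=
  {x | x ∈ K ∧ 1 - τ ≤ gauge K x ∧ ∀ t ∈ Icc (1 / 2 : ℝ) 1, t • x ∈ D}

theorem isClosed_Wset {K D : Set V} (hKc : IsCompact K) (hK : Convex ℝ K) (h0 : K ∈ 𝓝 (0 : V))
    (hD : IsClosed D) (τ : ℝ) : IsClosed (Wset K D τ) := by
  have h1 : Wset K D τ = K ∩ ({x | 1 - τ ≤ gauge K x} ∩ ⋂ t ∈ Icc (1 / 2 : ℝ) 1, {x | t • x ∈ D}) := by
    ext x
    exact ⟨fun h => ⟨h.1, h.2.1, mem_iInter₂.mpr h.2.2⟩, fun h => ⟨h.1, h.2.1, mem_iInter₂.mp h.2.2⟩⟩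
  rw [h1]
  refine hKc.isClosed.inter ((isClosed_le continuous_const (continuous_gauge hK h0)).inter ?_)
  refine isClosed_biInter fun t _ => ?_
  exact hD.preimage (continuous_const_smul t)

/-- Disjoint dilates: `N/8 |W| ≤ |D ∩ Q|`. -/
theorem volume_Wset_le {K D : Set V} (hKc : IsCompact K) (hK : Convex ℝ K) (h0 : K ∈ 𝓝 (0 : V))
    (hD : IsClosed D) (hdim : finrank ℝ V = 3) {R : ℝ} (hout : ∀ x ∈ K, ‖x‖ ≤ R) {N : ℕ}
    (hN : 0 < N) :
    (N : ℝ≥0∞) * (ENNReal.ofReal (1 / 8) * volume (Wset K D (1 / (4 * N)))) ≤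
      volume (D ∩ closedBall 0 R) := by
  classical
  set W := Wset K D (1 / (4 * N)) with hW
  have hNr : (0 : ℝ) < N := by exact_mod_cast hN
  set tt : ℕ → ℝ := fun i => 1 - (i : ℝ) / (2 * N) with htt
  have htt1 : ∀ i ∈ Finset.range N, tt i ∈ Icc (1 / 2 : ℝ) 1 := by
    intro i hi
    have hi' : (i : ℝ) ≤ N := by exact_mod_cast (Finset.mem_range.mp hi).le
    constructor
    · simp only [htt]
      have : (i : ℝ) / (2 * N) ≤ 1 / 2 := by
        rw [div_le_div_iff₀ (by positivity) (by norm_num)]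
        linarith
      linarith
    · simp only [htt]
      have : 0 ≤ (i : ℝ) / (2 * N) := by positivity
      linarith
  have hWc : IsCompact W := hKc.of_isClosed_subset (isClosed_Wset hKc hK h0 hD _) (fun x hx => hx.1)
  have hGm : ∀ i ∈ Finset.range N, MeasurableSet (tt i • W) := fun i _ => (hWc.smul _).measurableSet
  have hdisj : (↑(Finset.range N) : Set ℕ).PairwiseDisjoint (fun i => tt i • W) := by
    -- separate by gauge values
    have key : ∀ i ∈ Finset.range N, ∀ j ∈ Finset.range N, i < j → Disjoint (tt i • W) (tt j • W) := by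
      intro i hi j hj hij
      rw [Set.disjoint_left]
      rintro _ ⟨x, hx, rfl⟩ ⟨y, hy, hyx⟩
      simp only at hyx
      have hti := htt1 i hi
      have htj := htt1 j hj
      have hti0 : 0 < tt i := by linarith [hti.1]
      have htj0 : 0 < tt j := by linarith [htj.1]
      have h1 : gauge K (tt i • x) = tt i * gauge K x := by
        rw [gauge_smul_of_nonneg hti0.le, smul_eq_mul]
      have h2 : gauge K (tt j • y) = tt j * gauge K y := by
        rw [gauge_smul_of_nonneg htj0.le, smul_eq_mul]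
      have h3 : gauge K y ≤ 1 := gauge_le_one_of_mem hy.1
      have h4 := hx.2.1
      have h5 : tt i * (1 - 1 / (4 * N)) ≤ tt j * 1 := by
        calc tt i * (1 - 1 / (4 * N)) ≤ tt i * gauge K x :=
              mul_le_mul_of_nonneg_left h4 hti0.le
          _ = tt j * gauge K y := by rw [← h1, ← h2, hyx]
          _ ≤ tt j * 1 := mul_le_mul_of_nonneg_left h3 htj0.le
      have hijr : (i : ℝ) + 1 ≤ j := by exact_mod_cast hij
      have h6 : tt j ≤ tt i - 1 / (2 * N) := by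
        simp only [htt]
        have : ((i : ℝ) + 1) / (2 * N) ≤ (j : ℝ) / (2 * N) := by
          apply div_le_div_of_nonneg_right hijr (by positivity)
        have e : ((i : ℝ) + 1) / (2 * N) = (i : ℝ) / (2 * N) + 1 / (2 * N) := by
          rw [add_div]
        linarith
      have h7 : tt i * (1 / (4 * N)) ≤ 1 * (1 / (4 * N)) :=
        mul_le_mul_of_nonneg_right hti.2 (by positivity)
      have h8 : (1 : ℝ) / (4 * N) < 1 / (2 * N) := by
        apply one_div_lt_one_div_of_lt (by positivity)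
        linarith
      nlinarith
    intro i hi j hj hne
    rcases lt_or_gt_of_ne hne with h | h
    · exact key i hi j hj h
    · exact (key j hj i hi h).symm
  have hsub : (⋃ i ∈ Finset.range N, tt i • W) ⊆ D ∩ closedBall 0 R := by
    intro x hx
    simp only [mem_iUnion] at hx
    obtain ⟨i, hi, y, hy, rfl⟩ := hx
    have hti := htt1 i hi
    refine ⟨hy.2.2 _ hti, ?_⟩
    rw [mem_closedBall_zero_iff, norm_smul, Real.norm_of_nonneg (by linarith [hti.1])]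
    have h1 := hout y hy.1
    have hR : 0 ≤ R := (norm_nonneg _).trans h1
    calc tt i * ‖y‖ ≤ 1 * R := mul_le_mul hti.2 h1 (norm_nonneg _) (by norm_num)
      _ = R := one_mul _
  have hle : ∑ i ∈ Finset.range N, volume (tt i • W) ≤ volume (D ∩ closedBall 0 R) := by
    rw [← measure_biUnion_finset hdisj hGm]
    exact measure_mono hsub
  refine le_trans ?_ hle
  have hlow : ∀ i ∈ Finset.range N, ENNReal.ofReal (1 / 8) * volume W ≤ volume (tt i • W) := by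
    intro i hi
    have hti := htt1 i hi
    rw [Measure.addHaar_smul, hdim]
    gcongr
    rw [abs_of_nonneg (by have := hti.1; positivity)]
    have h1 := hti.1
    calc (1 / 8 : ℝ) = (1 / 2) ^ 3 := by norm_num
      _ ≤ tt i ^ 3 := pow_le_pow_left₀ (by norm_num) h1 3
  calc (N : ℝ≥0∞) * (ENNReal.ofReal (1 / 8) * volume W)
      = ∑ _i ∈ Finset.range N, ENNReal.ofReal (1 / 8) * volume W := by
        simp
    _ ≤ _ := Finset.sum_le_sum hlow

/-- The set of points of `K` near two contact points with separated normals. -/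
def Sing (K : Set V) (κ ε : ℝ) : Set V :=
  {x | x ∈ K ∧ ∃ z₁ z₂ f₁ f₂, IsNormal K f₁ z₁ ∧ IsNormal K f₂ z₂ ∧ ‖z₁ - x‖ < ε ∧ ‖z₂ - x‖ < ε ∧
    κ ≤ ‖f₁ - f₂‖}

/-- The subgradient computation. -/
theorem psi_lower {K : Set V} (hK : Convex ℝ K) {r₀ : ℝ} (hr : 0 < r₀) (hin : closedBall 0 r₀ ⊆ K)
    {x e ξ₁ ξ₂ z₁ z₂ : V} {T t ε κ' : ℝ} (hT : 0 ≤ T) (ht0 : 0 ≤ t) (ht1 : t ≤ 1) (hε : 0 ≤ ε)
    (hxK : x ∈ K) (h₁ : ∀ v, ⟪ξ₁, v⟫ ≤ gauge K v) (h₂ : ∀ v, ⟪ξ₂, v⟫ ≤ gauge K v)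
    (hz₁ : ⟪ξ₁, z₁⟫ = 1) (hz₂ : ⟪ξ₂, z₂⟫ = 1)
    (hn₁ : ‖ξ₁‖ ≤ 1 / r₀) (hn₂ : ‖ξ₂‖ ≤ 1 / r₀) (hd₁ : ‖z₁ - x‖ < ε) (hd₂ : ‖z₂ - x‖ < ε)
    (hsep : κ' ≤ ⟪ξ₁ - ξ₂, e⟫) :
    T * κ' - 2 * (ε / r₀) ≤ psi K e T (t • x) := by
  have hg : gauge K (t • x) ≤ t := by
    rw [gauge_smul_of_nonneg ht0, smul_eq_mul]
    have := gauge_le_one_of_mem hxK
    nlinarith
  have hbd : ∀ ξ z : V, ⟪ξ, z⟫ = 1 → ‖ξ‖ ≤ 1 / r₀ → ‖z - x‖ < ε → t - t * (ε / r₀) ≤ ⟪ξ, t • x⟫ := by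
    intro ξ z hz hn hd
    have h1 : ⟪ξ, z - x⟫ ≤ ε / r₀ := by
      calc ⟪ξ, z - x⟫ ≤ ‖ξ‖ * ‖z - x‖ := real_inner_le_norm _ _
        _ ≤ (1 / r₀) * ε := mul_le_mul hn hd.le (norm_nonneg _) (by positivity)
        _ = ε / r₀ := by ring
    rw [inner_sub_right, hz] at h1
    rw [inner_smul_right]
    have : t * (1 - ε / r₀) ≤ t * ⟪ξ, x⟫ := mul_le_mul_of_nonneg_left (by linarith) ht0
    linarith
  have h3 := h₁ (t • x + T • e)
  have h4 := h₂ (t • x - T • e)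
  simp only [inner_add_right, inner_sub_right, inner_smul_right] at h3 h4
  have h5 := hbd ξ₁ z₁ hz₁ hn₁ hd₁
  have h6 := hbd ξ₂ z₂ hz₂ hn₂ hd₂
  simp only [inner_smul_right] at h5 h6
  have h7 : T * κ' ≤ T * ⟪ξ₁ - ξ₂, e⟫ := mul_le_mul_of_nonneg_left hsep hT
  rw [inner_sub_left] at h7
  have h8 : 0 ≤ ε / r₀ := by positivity
  have h9 : t * (ε / r₀) ≤ 1 * (ε / r₀) := mul_le_mul_of_nonneg_right ht1 h8
  unfold psi
  linarith

/-- Each singular point lies in one of the three sets `W`. -/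
theorem sing_subset {K : Set V} (hK : Convex ℝ K) {r₀ R₀ κ ε T τ β : ℝ}
    (hr : 0 < r₀) (hR₀ : 0 < R₀) (hε : 0 ≤ ε) (hT : 0 ≤ T) (hτ : ε / r₀ ≤ τ) (hκ : 0 ≤ κ)
    (hβ : T * (κ / (2 * R₀)) - 2 * (ε / r₀) ≥ β * T)
    (hin : closedBall 0 r₀ ⊆ K) (hout : ∀ x ∈ K, ‖x‖ ≤ R₀)
    (b : OrthonormalBasis (Fin 3) ℝ V) :
    Sing K κ ε ⊆ ⋃ j, Wset K (Dset K (b j) T β) τ := by
  have h0 := nhds_of_ball hr hin
  rintro x ⟨hxK, z₁, z₂, f₁, f₂, hn₁, hn₂, hd₁, hd₂, hsep⟩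
  -- normalized subgradients
  have hM : ∀ f z : V, IsNormal K f z → r₀ ≤ ⟪f, z⟫ ∧ ⟪f, z⟫ ≤ R₀ := by
    intro f z hn
    constructor
    · have h4 : r₀ • f ∈ K := by
        apply hin
        rw [mem_closedBall_zero_iff, norm_smul, hn.2.1, mul_one, Real.norm_of_nonneg hr.le]
      have h5 := hn.2.2 _ h4
      rw [inner_smul_right, real_inner_self_eq_norm_sq, hn.2.1] at h5
      linarith
    · have h1 := real_inner_le_norm f z
      rw [hn.2.1, one_mul] at h1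
      exact h1.trans (hout z hn.1)
  obtain ⟨hM₁, hM₁'⟩ := hM f₁ z₁ hn₁
  obtain ⟨hM₂, hM₂'⟩ := hM f₂ z₂ hn₂
  set M₁ := ⟪f₁, z₁⟫ with hM₁d
  set M₂ := ⟪f₂, z₂⟫ with hM₂d
  have hM₁0 : 0 < M₁ := by linarith
  have hM₂0 : 0 < M₂ := by linarith
  set ξ₁ := (1 / M₁) • f₁ with hξ₁
  set ξ₂ := (1 / M₂) • f₂ with hξ₂
  have hsub : ∀ (f z : V) (M : ℝ), IsNormal K f z → M = ⟪f, z⟫ → 0 < M → ∀ v, ⟪(1 / M) • f, v⟫ ≤ gauge K v := by
    intro f z M hn hMe hM0 v
    have h1 := inner_le_mul_gauge hK h0 hn (by rw [← hMe]; exact hM0.le) v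
    rw [← hMe] at h1
    rw [inner_smul_left]
    simp only [conj_trivial]
    rw [div_mul_eq_mul_div, one_mul, div_le_iff₀ hM0]
    linarith
  have hξ₁g := hsub f₁ z₁ M₁ hn₁ rfl hM₁0
  have hξ₂g := hsub f₂ z₂ M₂ hn₂ rfl hM₂0
  have hzz : ∀ (f z : V) (M : ℝ), M = ⟪f, z⟫ → 0 < M → ⟪(1 / M) • f, z⟫ = 1 := by
    intro f z M hMe hM0
    rw [inner_smul_left]
    simp only [conj_trivial]
    rw [← hMe]
    field_simp
  have hz₁ := hzz f₁ z₁ M₁ rfl hM₁0
  have hz₂ := hzz f₂ z₂ M₂ rfl hM₂0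
  have hnn : ∀ (f z : V) (M : ℝ), IsNormal K f z → r₀ ≤ M → ‖(1 / M) • f‖ ≤ 1 / r₀ := by
    intro f z M hn hMr
    have hM0 : 0 < M := by linarith
    rw [norm_smul, hn.2.1, mul_one, Real.norm_of_nonneg (by positivity)]
    exact one_div_le_one_div_of_le hr hMr
  have hn₁' := hnn f₁ z₁ M₁ hn₁ hM₁
  have hn₂' := hnn f₂ z₂ M₂ hn₂ hM₂
  -- separation of subgradients
  have hξsep : κ / R₀ ≤ ‖ξ₁ - ξ₂‖ := by
    have h1 : ‖ξ₁ - ξ₂‖ ^ 2 = (1 / M₁ - 1 / M₂) ^ 2 + (1 / M₁) * (1 / M₂) * ‖f₁ - f₂‖ ^ 2 := by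
      rw [norm_sub_sq_real, norm_sub_sq_real, hξ₁, hξ₂, norm_smul, norm_smul, hn₁.2.1, hn₂.2.1,
        inner_smul_left, inner_smul_right, Real.norm_of_nonneg (by positivity),
        Real.norm_of_nonneg (by positivity)]
      simp only [conj_trivial]
      ring
    have h2 : (κ / R₀) ^ 2 ≤ ‖ξ₁ - ξ₂‖ ^ 2 := by
      rw [h1]
      have h3 : (1 / R₀) * (1 / R₀) ≤ (1 / M₁) * (1 / M₂) := by
        apply mul_le_mul (one_div_le_one_div_of_le hM₁0 hM₁') (one_div_le_one_div_of_le hM₂0 hM₂')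
          (by positivity) (by positivity)
      have h4 : κ ^ 2 ≤ ‖f₁ - f₂‖ ^ 2 := pow_le_pow_left₀ hκ hsep 2
      have h5 : (κ / R₀) ^ 2 = (1 / R₀) * (1 / R₀) * κ ^ 2 := by
        field_simp
      have h6 : (1 / R₀) * (1 / R₀) * κ ^ 2 ≤ (1 / M₁) * (1 / M₂) * ‖f₁ - f₂‖ ^ 2 :=
        mul_le_mul h3 h4 (by positivity) (by positivity)
      nlinarith [sq_nonneg (1 / M₁ - 1 / M₂)]
    exact (abs_le_of_sq_le_sq' h2 (norm_nonneg _)).2
  -- a good coordinate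
  have hcoord : ∃ j, κ / (2 * R₀) ≤ |⟪ξ₁ - ξ₂, b j⟫| := by
    by_contra hcon
    push Not at hcon
    have h1 : ‖ξ₁ - ξ₂‖ ^ 2 = ∑ j, ⟪b j, ξ₁ - ξ₂⟫ ^ 2 := by
      have := b.sum_sq_norm_inner_right (ξ₁ - ξ₂)
      simp only [Real.norm_eq_abs, sq_abs] at this
      exact this.symm
    have hκ2 : 0 ≤ κ / (2 * R₀) := by positivity
    have h2 : ∀ j, ⟪b j, ξ₁ - ξ₂⟫ ^ 2 ≤ (κ / (2 * R₀)) ^ 2 := by
      intro j
      rw [real_inner_comm, ← sq_abs]
      exact pow_le_pow_left₀ (abs_nonneg _) (hcon j).le 2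
    have h3 : ‖ξ₁ - ξ₂‖ ^ 2 ≤ 3 * (κ / (2 * R₀)) ^ 2 := by
      rw [h1]
      calc ∑ j, ⟪b j, ξ₁ - ξ₂⟫ ^ 2 ≤ ∑ _j : Fin 3, (κ / (2 * R₀)) ^ 2 :=
            Finset.sum_le_sum fun j _ => h2 j
        _ = 3 * (κ / (2 * R₀)) ^ 2 := by simp
    have h4 : (κ / R₀) ^ 2 ≤ ‖ξ₁ - ξ₂‖ ^ 2 := pow_le_pow_left₀ (by positivity) hξsep 2
    have h5 : (κ / R₀) = 2 * (κ / (2 * R₀)) := by
      field_simp
    rw [h5] at h4
    have h6 : (κ / (2 * R₀)) ^ 2 ≤ 0 := by nlinarith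
    have h7 : κ / (2 * R₀) = 0 := by
      have := sq_nonneg (κ / (2 * R₀))
      exact pow_eq_zero_iff (two_ne_zero) |>.mp (le_antisymm h6 this)
    have h8 := hcon (0 : Fin 3)
    rw [h7] at h8
    linarith [abs_nonneg ⟪ξ₁ - ξ₂, b 0⟫]
  obtain ⟨j, hj⟩ := hcoord
  have hgx : 1 - τ ≤ gauge K x := by
    have h1 := hξ₁g x
    have h2 : ⟪ξ₁, z₁ - x⟫ ≤ ε / r₀ := by
      calc ⟪ξ₁, z₁ - x⟫ ≤ ‖ξ₁‖ * ‖z₁ - x‖ := real_inner_le_norm _ _
        _ ≤ (1 / r₀) * ε := mul_le_mul hn₁' hd₁.le (norm_nonneg _) (by positivity)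
        _ = ε / r₀ := by ring
    rw [inner_sub_right, hz₁] at h2
    linarith
  refine mem_iUnion.mpr ⟨j, hxK, hgx, ?_⟩
  intro t ht
  show β * T ≤ psi K (b j) T (t • x)
  have ht0 : 0 ≤ t := by linarith [ht.1]
  rcases le_or_gt 0 ⟪ξ₁ - ξ₂, b j⟫ with hs | hs
  · rw [abs_of_nonneg hs] at hj
    have := psi_lower hK hr hin hT ht0 ht.2 hε hxK hξ₁g hξ₂g hz₁ hz₂ hn₁' hn₂' hd₁ hd₂ hj
    linarith
  · rw [abs_of_neg hs] at hj
    have hj' : κ / (2 * R₀) ≤ ⟪ξ₂ - ξ₁, b j⟫ := by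
      rw [inner_sub_left]
      rw [inner_sub_left] at hj
      linarith
    have := psi_lower hK hr hin hT ht0 ht.2 hε hxK hξ₂g hξ₁g hz₂ hz₁ hn₂' hn₁' hd₂ hd₁ hj'
    linarith

end Vale.Agent.Lib.P243
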