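import Vale.Agent.Lib.P243.KeyChord
import Vale.Agent.Lib.P243.Sing

open MeasureTheory Module Set Metric Filter
open scoped ENNReal RealInnerProductSpace Pointwise Topology

namespace Vale.Agent.Lib.P243

set_option linter.unusedSectionVars false

variable {V : Type*} [NormedAddCommGroup V] [InnerProductSpace ℝ V] [FiniteDimensional ℝ V]
  [MeasurableSpace V] [BorelSpace V]

/-- Per-cylinder bound of the mass of a density, from a bound on all its line integrals. -/
theorem cyl_mass {K : Set V} (hKc : IsCompact K) (u : V) (hu : ‖u‖ = 1)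
    {W : V → ℝ≥0∞} (hW : Measurable W) {C : ℝ≥0∞}
    (hline : ∀ y : Pl u, ∫⁻ t in fib K u y, W ((y : V) + t • u) ≤ C)
    {B' : Set (Pl u)} (hB' : MeasurableSet B') :
    ∫⁻ x in K ∩ (ℝ ∙ u)ᗮ.orthogonalProjectionOnto ⁻¹' B', W x ≤ volume B' * C := by
  have hmeasA : MeasurableSet (K ∩ (ℝ ∙ u)ᗮ.orthogonalProjectionOnto ⁻¹' B') :=
    hKc.measurableSet.inter ((ContinuousLinearMap.continuous _).measurable hB')
  have hinner : ∀ y : Pl u, (∫⁻ t : ℝ, (K ∩ (ℝ ∙ u)ᗮ.orthogonalProjectionOnto ⁻¹' B').indicator W ((y : V) + t • u)) ≤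
      B'.indicator (fun _ => C) y := by
    intro y
    by_cases hyB : y ∈ B'
    · rw [Set.indicator_of_mem hyB]
      have hEq : (fun t : ℝ => (K ∩ (ℝ ∙ u)ᗮ.orthogonalProjectionOnto ⁻¹' B').indicator W ((y : V) + t • u)) =
          (fib K u y).indicator (fun t => W ((y : V) + t • u)) := by
        funext t
        by_cases ht : (y : V) + t • u ∈ K
        · have h1 : (y : V) + t • u ∈ K ∩ (ℝ ∙ u)ᗮ.orthogonalProjectionOnto ⁻¹' B' :=
            ⟨ht, by
              show (ℝ ∙ u)ᗮ.orthogonalProjectionOnto ((y : V) + t • u) ∈ B'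
              rw [proj_fiber]; exact hyB⟩
          have h2 : t ∈ fib K u y := ht
          rw [Set.indicator_of_mem h1, Set.indicator_of_mem h2]
        · have h1 : (y : V) + t • u ∉ K ∩ (ℝ ∙ u)ᗮ.orthogonalProjectionOnto ⁻¹' B' := fun h => ht h.1
          have h2 : t ∉ fib K u y := ht
          rw [Set.indicator_of_notMem h1, Set.indicator_of_notMem h2]
      rw [hEq, lintegral_indicator (isCompact_fib hKc u hu y).measurableSet]
      exact hline y
    · rw [Set.indicator_of_notMem hyB]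
      have hEq : (fun t : ℝ => (K ∩ (ℝ ∙ u)ᗮ.orthogonalProjectionOnto ⁻¹' B').indicator W ((y : V) + t • u)) = fun _ => 0 := by
        funext t
        apply Set.indicator_of_notMem
        intro h
        have := h.2
        simp only [mem_preimage] at this
        rw [proj_fiber] at this
        exact hyB this
      rw [hEq]
      simp
  rw [← lintegral_indicator hmeasA, lintegral_fiber u hu _ (hW.indicator hmeasA)]
  calc _ ≤ ∫⁻ y : Pl u, B'.indicator (fun _ => C) y := lintegral_mono hinner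
    _ = C * volume B' := by
        rw [lintegral_indicator_const hB']
    _ = volume B' * C := mul_comm _ _

/-- Weak duality: a density with all line integrals at most `Λ/|shadow|` has mass at most
`R * Λ`. -/
theorem weak_dual {ι : Type*} [Fintype ι] {K : Set V} (hKc : IsCompact K) (u : ι → V)
    (hu : ∀ i, ‖u i‖ = 1) (B : ∀ i, Set (Pl (u i)))
    (hcover : K ⊆ ⋃ i, {x | (ℝ ∙ u i)ᗮ.orthogonalProjectionOnto x ∈ B i})
    {W : V → ℝ≥0∞} (hW : Measurable W) {Λ : ℝ≥0∞}
    (hline : ∀ i (y : Pl (u i)), ∫⁻ t in fib K (u i) y, W ((y : V) + t • u i) ≤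
      Λ / volume (Shadow K (u i))) :
    ∫⁻ x in K, W x ≤ (∑ i, volume (B i) / volume (Shadow K (u i))) * Λ := by
  classical
  have hcov' : K ⊆ ⋃ i, K ∩ (ℝ ∙ u i)ᗮ.orthogonalProjectionOnto ⁻¹' (toMeasurable volume (B i)) := by
    intro x hx
    obtain ⟨i, hi⟩ := mem_iUnion.mp (hcover hx)
    exact mem_iUnion.mpr ⟨i, hx, subset_toMeasurable _ _ hi⟩
  calc ∫⁻ x in K, W x
      ≤ ∫⁻ x in ⋃ i, K ∩ (ℝ ∙ u i)ᗮ.orthogonalProjectionOnto ⁻¹' (toMeasurable volume (B i)), W x :=
        lintegral_mono_set hcov'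
    _ ≤ ∑' i, ∫⁻ x in K ∩ (ℝ ∙ u i)ᗮ.orthogonalProjectionOnto ⁻¹' (toMeasurable volume (B i)), W x :=
        lintegral_iUnion_le _ _
    _ = ∑ i, ∫⁻ x in K ∩ (ℝ ∙ u i)ᗮ.orthogonalProjectionOnto ⁻¹' (toMeasurable volume (B i)), W x :=
        tsum_fintype _
    _ ≤ ∑ i, volume (toMeasurable volume (B i)) * (Λ / volume (Shadow K (u i))) := by
        apply Finset.sum_le_sum
        intro i _
        exact cyl_mass hKc (u i) (hu i) hW (hline i) (measurableSet_toMeasurable _ _)
    _ = (∑ i, volume (B i) / volume (Shadow K (u i))) * Λ := by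
        rw [Finset.sum_mul]
        apply Finset.sum_congr rfl
        intro i _
        rw [measure_toMeasurable]
        simp only [div_eq_mul_inv]
        ring

open Classical in
/-- The two-level weight. -/
noncomputable def wt (E : Set V) (c : ℝ) (x : V) : ℝ≥0∞ :=
  if x ∈ E then ENNReal.ofReal (1 - c) else 1

theorem measurable_wt {E : Set V} (hE : MeasurableSet E) (c : ℝ) : Measurable (wt E c) := by
  classical
  unfold wt
  exact Measurable.ite hE measurable_const measurable_const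

theorem wt_le_one {E : Set V} {c : ℝ} (hc : 0 ≤ c) (x : V) : wt E c x ≤ 1 := by
  classical
  unfold wt
  split_ifs
  · rw [← ENNReal.ofReal_one]
    exact ENNReal.ofReal_le_ofReal (by linarith)
  · exact le_refl _

theorem lintegral_two_level {f : ℝ → ℝ≥0∞} {b t j₁ j₂ c : ℝ} (hj1 : b ≤ j₁) (hj2 : j₁ ≤ j₂)
    (hj3 : j₂ ≤ t) (hc1 : c ≤ 1) (h1 : ∀ x, f x ≤ 1)
    (h2 : ∀ x ∈ Icc j₁ j₂, f x ≤ ENNReal.ofReal (1 - c)) :
    ∫⁻ x in Icc b t, f x ≤ ENNReal.ofReal ((t - b) - c * (j₂ - j₁)) := by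
  have hJ : MeasurableSet (Icc j₁ j₂) := measurableSet_Icc
  have hsub : Icc j₁ j₂ ⊆ Icc b t := Icc_subset_Icc hj1 hj3
  rw [← lintegral_inter_add_diff f (Icc b t) hJ, inter_eq_right.mpr hsub]
  have h3 : ∫⁻ x in Icc j₁ j₂, f x ≤ ENNReal.ofReal (1 - c) * ENNReal.ofReal (j₂ - j₁) := by
    calc ∫⁻ x in Icc j₁ j₂, f x ≤ ∫⁻ _x in Icc j₁ j₂, ENNReal.ofReal (1 - c) :=
          setLIntegral_mono' hJ h2
      _ = _ := by
          rw [lintegral_const, Measure.restrict_apply MeasurableSet.univ, univ_inter,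
            Real.volume_Icc]
  have h4 : ∫⁻ x in Icc b t \ Icc j₁ j₂, f x ≤ ENNReal.ofReal ((t - b) - (j₂ - j₁)) := by
    calc ∫⁻ x in Icc b t \ Icc j₁ j₂, f x ≤ ∫⁻ _x in Icc b t \ Icc j₁ j₂, 1 :=
          lintegral_mono fun x => h1 x
      _ = volume (Icc b t \ Icc j₁ j₂) := by
          rw [lintegral_const, Measure.restrict_apply MeasurableSet.univ, univ_inter, one_mul]
      _ = _ := by
          rw [measure_diff hsub hJ.nullMeasurableSet isCompact_Icc.measure_lt_top.ne,
            Real.volume_Icc, Real.volume_Icc, ← ENNReal.ofReal_sub _ (by linarith)]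
  calc _ ≤ ENNReal.ofReal (1 - c) * ENNReal.ofReal (j₂ - j₁) + ENNReal.ofReal ((t - b) - (j₂ - j₁)) :=
        add_le_add h3 h4
    _ = _ := by
        rw [← ENNReal.ofReal_mul (by linarith), ← ENNReal.ofReal_add
          (mul_nonneg (by linarith) (by linarith)) (by linarith)]
        congr 1
        ring

end Vale.Agent.Lib.P243
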