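import Vale.Agent.Lib.P243.Planar

open MeasureTheory Module Set
open scoped ENNReal RealInnerProductSpace Pointwise

namespace Vale.Agent.Lib.P243

set_option linter.unusedSectionVars false

variable {V : Type*} [NormedAddCommGroup V] [InnerProductSpace ℝ V] [FiniteDimensional ℝ V]
  [MeasurableSpace V] [BorelSpace V]

theorem lintegral_Icc_ofReal {g : ℝ → ℝ} (hg : Continuous g) {a b : ℝ} (hab : a ≤ b)
    (h0 : ∀ p ∈ Icc a b, 0 ≤ g p) :
    ∫⁻ p in Icc a b, ENNReal.ofReal (g p) = ENNReal.ofReal (∫ p in a..b, g p) := by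
  rw [intervalIntegral.integral_of_le hab, ← integral_Icc_eq_integral_Ioc,
    ofReal_integral_eq_lintegral_ofReal (hg.continuousOn.integrableOn_compact isCompact_Icc)]
  exact (ae_restrict_iff' measurableSet_Icc).mpr (Filter.Eventually.of_forall h0)

theorem integral_g (r : ℝ) :
    ∫ p in (0 : ℝ)..1, ((1 - p) ^ 2 + p * (1 - p) * r) = 1 / 3 + r / 6 := by
  have h : (fun p : ℝ => (1 - p) ^ 2 + p * (1 - p) * r) =
      (fun p : ℝ => (1 + (r - 2) * p) + (1 - r) * p ^ 2) := by
    funext p
    ring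
  rw [h, intervalIntegral.integral_add (by apply Continuous.intervalIntegrable; fun_prop)
    (by apply Continuous.intervalIntegrable; fun_prop),
    intervalIntegral.integral_add (by apply Continuous.intervalIntegrable; fun_prop)
    (by apply Continuous.intervalIntegrable; fun_prop),
    intervalIntegral.integral_const_mul, intervalIntegral.integral_const_mul, integral_id,
    integral_pow]
  simp
  ring

/-- The parameter set `D ⊆ ℝ × plane`. -/
def setD {W : Type*} [AddCommGroup W] [Module ℝ W] (S : Set W) (y : W) : Set (ℝ × W) :=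
  (fun q : ℝ × ℝ × W => (q.1, q.1 • (q.2.1 • y) + (1 - q.1) • q.2.2)) ''
    (Icc (0 : ℝ) 1 ×ˢ Icc (-1 : ℝ) 1 ×ˢ S)

theorem volume_K_ge {K : Set V} (hKc : IsCompact K) (hK : Convex ℝ K) (hs : ∀ x ∈ K, -x ∈ K)
    (u : V) (hu : ‖u‖ = 1) (hdim : finrank ℝ (Pl u) = 2)
    {y ω : Pl u} {r : ℝ} (hy : y = r • ω) (hr0 : 0 ≤ r)
    (hωS : ω ∈ (ℝ ∙ u)ᗮ.orthogonalProjectionOnto '' K)
    (hyS : y ∈ (ℝ ∙ u)ᗮ.orthogonalProjectionOnto '' K)
    (hbd : ∀ c : ℝ, 1 < c → c • ω ∉ (ℝ ∙ u)ᗮ.orthogonalProjectionOnto '' K) :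
    ENNReal.ofReal (len K u y * (1 / 3 + r / 6)) *
      volume ((ℝ ∙ u)ᗮ.orthogonalProjectionOnto '' K) ≤ volume K := by
  set S : Set (Pl u) := (ℝ ∙ u)ᗮ.orthogonalProjectionOnto '' K with hSdef
  have hSc : IsCompact S := hKc.image (ContinuousLinearMap.continuous _)
  have hSconv : Convex ℝ S := hK.linear_image (ContinuousLinearMap.toLinearMap _) 
  have hSsym : ∀ x ∈ S, -x ∈ S := by
    rintro _ ⟨x, hx, rfl⟩
    exact ⟨-x, hs x hx, by simp⟩
  have hDc : IsCompact (setD S y) := by
    apply (isCompact_Icc.prod (isCompact_Icc.prod hSc)).image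
    fun_prop
  have hDm : MeasurableSet (setD S y) := hDc.measurableSet
  -- fibres over `S` are nonempty
  have hne : ∀ x ∈ S, (fib K u x).Nonempty := fun x hx => (mem_image_iff_fib K u hu x).mp hx
  set a := len K u y with hadef
  have ha0 : 0 ≤ a := len_nonneg K u y
  -- volume of K as integral of lengths
  have hvolK : volume K = ∫⁻ y' : Pl u, ENNReal.ofReal (len K u y') := by
    rw [volume_fiber u hu hKc.measurableSet]
    congr 1
    ext y'
    exact volume_fib_eq hKc u hu y'
  -- upper bound through the slices in `y'`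
  have hupper : ENNReal.ofReal a * (volume.prod volume) (setD S y) ≤ volume K := by
    rw [Measure.prod_apply_symm hDm, hvolK, ← lintegral_const_mul' _ _ ENNReal.ofReal_ne_top]
    apply lintegral_mono
    intro y'
    beta_reduce
    rcases ha0.eq_or_lt with ha | ha
    · rw [← ha]; simp
    have hsub : (fun p : ℝ => (p, y')) ⁻¹' setD S y ⊆ Icc 0 (len K u y' / a) := by
      rintro p ⟨⟨p', τ, x⟩, ⟨hp, hτ, hx⟩, heq⟩
      simp only [Prod.mk.injEq] at heq
      obtain ⟨rfl, rfl⟩ := heq
      have h1 := len_level hKc hK hs u hu y (hne y hyS) hτ hp x (hne x hx)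
      refine ⟨hp.1, ?_⟩
      rw [le_div_iff₀ ha]
      linarith
    calc ENNReal.ofReal a * volume ((fun p : ℝ => (p, y')) ⁻¹' setD S y)
        ≤ ENNReal.ofReal a * volume (Icc 0 (len K u y' / a)) := by gcongr
      _ = ENNReal.ofReal (a * (len K u y' / a - 0)) := by
          rw [Real.volume_Icc, ENNReal.ofReal_mul ha0]
      _ = ENNReal.ofReal (len K u y') := by
          congr 1
          field_simp
          ring
  -- lower bound through the slices in `p`
  have hlower : ENNReal.ofReal (1 / 3 + r / 6) * volume S ≤ (volume.prod volume) (setD S y) := by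
    rw [Measure.prod_apply hDm]
    have hg : Continuous (fun p : ℝ => (1 - p) ^ 2 + p * (1 - p) * r) := by fun_prop
    have h0 : ∀ p ∈ Icc (0 : ℝ) 1, 0 ≤ (1 - p) ^ 2 + p * (1 - p) * r := by
      intro p hp
      have := hp.1
      have := hp.2
      have : 0 ≤ 1 - p := by linarith
      positivity
    calc ENNReal.ofReal (1 / 3 + r / 6) * volume S
        = (∫⁻ p in Icc (0 : ℝ) 1, ENNReal.ofReal ((1 - p) ^ 2 + p * (1 - p) * r)) * volume S := by
          rw [lintegral_Icc_ofReal hg zero_le_one h0, integral_g]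
      _ = ∫⁻ p in Icc (0 : ℝ) 1, ENNReal.ofReal ((1 - p) ^ 2 + p * (1 - p) * r) * volume S := by
          rw [lintegral_mul_const _ (by fun_prop)]
      _ ≤ ∫⁻ p in Icc (0 : ℝ) 1, volume (Prod.mk p ⁻¹' setD S y) := by
          apply setLIntegral_mono' measurableSet_Icc
          intro p hp
          refine le_trans (volume_setAp_ge hSc hSconv hSsym hdim hωS hy hr0 hbd hp) (measure_mono ?_)
          rintro _ ⟨⟨τ, x⟩, ⟨hτ, hx⟩, rfl⟩
          exact ⟨(p, τ, x), ⟨hp, hτ, hx⟩, rfl⟩
      _ ≤ ∫⁻ p, volume (Prod.mk p ⁻¹' setD S y) := setLIntegral_le_lintegral _ _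
  calc ENNReal.ofReal (a * (1 / 3 + r / 6)) * volume S
      = ENNReal.ofReal a * (ENNReal.ofReal (1 / 3 + r / 6) * volume S) := by
        rw [ENNReal.ofReal_mul ha0, mul_assoc]
    _ ≤ ENNReal.ofReal a * (volume.prod volume) (setD S y) := by gcongr
    _ ≤ volume K := hupper

end Vale.Agent.Lib.P243
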