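import Vale.Agent.Lib.P243.KeyDet
import Vale.Agent.Lib.P243.Level

open MeasureTheory Module Set Metric
open scoped ENNReal RealInnerProductSpace Pointwise

namespace Vale.Agent.Lib.P243

set_option linter.unusedSectionVars false

variable {V : Type*} [NormedAddCommGroup V] [InnerProductSpace ℝ V] [FiniteDimensional ℝ V]
  [MeasurableSpace V] [BorelSpace V]

/-- If all slices of a measurable set `D ⊆ ℝ × plane` lie under the chord-length function, then
`a |D| ≤ |K|`. -/
theorem volume_ge_of_slices {K : Set V} (hKc : IsCompact K) (u : V) (hu : ‖u‖ = 1)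
    {D : Set (ℝ × Pl u)} (hD : MeasurableSet D) {a : ℝ} (ha : 0 < a)
    (hslice : ∀ σ y, (σ, y) ∈ D → 0 ≤ σ ∧ a * σ ≤ len K u y) :
    ENNReal.ofReal a * (volume.prod volume) D ≤ volume K := by
  have hvolK : volume K = ∫⁻ y' : Pl u, ENNReal.ofReal (len K u y') := by
    rw [volume_fiber u hu hKc.measurableSet]
    congr 1
    ext y'
    exact volume_fib_eq hKc u hu y'
  rw [Measure.prod_apply_symm hD, hvolK, ← lintegral_const_mul' _ _ ENNReal.ofReal_ne_top]
  apply lintegral_mono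
  intro y'
  beta_reduce
  have hsub : (fun p : ℝ => (p, y')) ⁻¹' D ⊆ Icc 0 (len K u y' / a) := by
    intro σ hσ
    obtain ⟨h1, h2⟩ := hslice σ y' hσ
    refine ⟨h1, ?_⟩
    rw [le_div_iff₀ ha]
    linarith
  calc ENNReal.ofReal a * volume ((fun p : ℝ => (p, y')) ⁻¹' D)
      ≤ ENNReal.ofReal a * volume (Icc 0 (len K u y' / a)) := by gcongr
    _ = ENNReal.ofReal (a * (len K u y' / a - 0)) := by
        rw [Real.volume_Icc, ENNReal.ofReal_mul ha.le]
    _ = ENNReal.ofReal (len K u y') := by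
        congr 1
        field_simp
        ring

/-- The cone part of the hypograph. -/
def coneD {W : Type*} [AddCommGroup W] [Module ℝ W] (S : Set W) (p : W) : Set (ℝ × W) :=
  (fun q : ℝ × W => (q.1, (1 - q.1) • q.2 + q.1 • p)) '' (Icc (0 : ℝ) 1 ×ˢ S)

theorem integral_one_sub_sq : ∫ σ in (0 : ℝ)..1, (1 - σ) ^ 2 = 1 / 3 := by
  have := integral_g 0
  simpa using this

/-- The cone part of the hypograph has measure at least `|S|/3`. -/
theorem volume_coneD_ge {W : Type*} [NormedAddCommGroup W] [InnerProductSpace ℝ W]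
    [FiniteDimensional ℝ W] [MeasurableSpace W] [BorelSpace W] (hdim : finrank ℝ W = 2)
    {S : Set W} (hSc : IsCompact S) (p : W) :
    volume S / 3 ≤ (volume.prod volume) (coneD S p) := by
  have hDc : IsCompact (coneD S p) := by
    apply (isCompact_Icc.prod hSc).image
    fun_prop
  rw [Measure.prod_apply hDc.measurableSet]
  have hg : Continuous (fun σ : ℝ => (1 - σ) ^ 2) := by fun_prop
  have h0 : ∀ σ ∈ Icc (0 : ℝ) 1, 0 ≤ (1 - σ) ^ 2 := fun σ _ => sq_nonneg _
  calc volume S / 3 = (∫⁻ σ in Icc (0 : ℝ) 1, ENNReal.ofReal ((1 - σ) ^ 2)) * volume S := by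
        rw [lintegral_Icc_ofReal hg zero_le_one h0, integral_one_sub_sq]
        rw [ENNReal.ofReal_div_of_pos (by norm_num), ENNReal.ofReal_one, div_eq_mul_inv,
          div_eq_mul_inv, one_mul, mul_comm]
        simp
    _ = ∫⁻ σ in Icc (0 : ℝ) 1, ENNReal.ofReal ((1 - σ) ^ 2) * volume S := by
        rw [lintegral_mul_const _ (by fun_prop)]
    _ ≤ ∫⁻ σ in Icc (0 : ℝ) 1, volume (Prod.mk σ ⁻¹' coneD S p) := by
        apply setLIntegral_mono' measurableSet_Icc
        intro σ hσ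
        have hsub : (fun w : W => w + σ • p) '' ((1 - σ) • S) ⊆ Prod.mk σ ⁻¹' coneD S p := by
          rintro _ ⟨_, ⟨w, hw, rfl⟩, rfl⟩
          exact ⟨(σ, w), ⟨hσ, hw⟩, rfl⟩
        refine le_trans (le_of_eq ?_) (measure_mono hsub)
        rw [Set.image_add_right, measure_preimage_add_right, Measure.addHaar_smul, hdim]
        congr 2
        rw [abs_of_nonneg (sq_nonneg _)]
    _ ≤ ∫⁻ σ, volume (Prod.mk σ ⁻¹' coneD S p) := setLIntegral_le_lintegral _ _

/-- The disjointness of the extra cylinder from the cone. -/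
theorem disc_not_in_cone {W : Type*} [NormedAddCommGroup W] [InnerProductSpace ℝ W]
    {S : Set W} (hS : Convex ℝ S) {p y₀ y w : W} {r₁ η τ σ : ℝ}
    (hrim : ∀ c : ℝ, 1 < c → p + c • (y₀ - p) ∉ S)
    (hdisc : closedBall ((1 / 2 : ℝ) • p + (1 / 2 : ℝ) • y₀) r₁ ⊆ S) (hr₁ : 0 < r₁)
    (hη0 : 0 < η) (hη1 : η ≤ 1 / 8) (hτ : τ ≤ r₁ * η / 2)
    (hσ1 : 1 / 2 + η ≤ σ) (hσ2 : σ ≤ 1 / 2 + 2 * η)
    (hy : y ∈ closedBall ((1 / 2 : ℝ) • p + (1 / 2 : ℝ) • y₀) τ)
    (hw : w ∈ S) (hyw : y = (1 - σ) • w + σ • p) : False := by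
  set y' : W := (1 / 2 : ℝ) • p + (1 / 2 : ℝ) • y₀ with hy'
  set s := 1 - σ with hs
  have hs1 : 1 / 4 ≤ s := by rw [hs]; linarith
  have hs2 : s ≤ 1 / 2 - η := by rw [hs]; linarith
  have hs0 : 0 < s := by linarith
  set μ := 1 / (1 + 2 * η) with hμ
  have hd : 0 < 1 + 2 * η := by linarith
  have hμ0 : 0 < μ := by positivity
  have hμ1 : μ ≤ 1 := by
    rw [hμ, div_le_one hd]
    linarith
  set β := 1 / (2 * η * s) with hβ
  have hβ0 : 0 < β := by positivity
  have hβ1 : β * τ ≤ r₁ := by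
    have h1 : β ≤ 2 / η := by
      rw [hβ, div_le_div_iff₀ (by positivity) hη0]
      nlinarith
    by_cases hτ0 : 0 ≤ τ
    · calc β * τ ≤ (2 / η) * (r₁ * η / 2) := mul_le_mul h1 hτ hτ0 (by positivity)
        _ = r₁ := by field_simp
    · push Not at hτ0
      have : β * τ ≤ 0 := mul_nonpos_of_nonneg_of_nonpos hβ0.le hτ0.le
      linarith
  set e := y - y' with he
  set d := y' - β • e with hd'
  have hdS : d ∈ S := by
    apply hdisc
    rw [mem_closedBall, dist_eq_norm, hd', sub_sub_cancel_left, norm_neg, norm_smul,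
      Real.norm_of_nonneg hβ0.le]
    have h2 : ‖e‖ ≤ τ := by
      rw [he, ← dist_eq_norm]
      exact hy
    calc β * ‖e‖ ≤ β * τ := mul_le_mul_of_nonneg_left h2 hβ0.le
      _ ≤ r₁ := hβ1
  have hc : μ • w + (1 - μ) • d ∈ S := hS hw hdS hμ0.le (by linarith) (by ring)
  set k := μ / s with hk
  have hk1 : k * s = μ := by
    rw [hk]; field_simp
  have hk2 : k = (1 - μ) * β := by
    rw [hk, hβ, hμ]
    field_simp
    ring
  set lam := (k + 1 - μ) / 2 with hlam
  have hlam1 : 1 < lam := by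
    have h1 : s * (2 + 2 * η) < 1 := by nlinarith
    have h2 : 1 + μ < k := by
      rw [hk, lt_div_iff₀ hs0]
      have h3 : μ * (1 + 2 * η) = 1 := by
        rw [hμ]; field_simp
      nlinarith
    rw [hlam]
    linarith
  have hweq : w = s⁻¹ • (y - (1 - s) • p) := by
    have h1 : y - (1 - s) • p = s • w := by
      rw [hyw, hs]
      have : (1 - (1 - σ)) = σ := by ring
      rw [this]
      abel
    rw [h1, inv_smul_smul₀ hs0.ne']
  have hkey : μ • w + (1 - μ) • d = p + lam • (y₀ - p) := by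
    have hμw : μ • w = k • (y - (1 - s) • p) := by
      rw [hweq, smul_smul]
      congr 1
    have hy2 : y = y' + e := by rw [he]; abel
    rw [hμw, hd', hy2, hy']
    have h3 : k • ((1 / 2 : ℝ) • p + (1 / 2 : ℝ) • y₀ + e - (1 - s) • p) +
        (1 - μ) • ((1 / 2 : ℝ) • p + (1 / 2 : ℝ) • y₀ - β • e) - (p + lam • (y₀ - p)) =
        (k * s - μ) • p + (k - (1 - μ) * β) • e := by
      rw [hlam]
      module
    rw [hk1, ← hk2, sub_self, sub_self, zero_smul, zero_smul, add_zero] at h3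
    exact sub_eq_zero.mp h3
  rw [hkey] at hc
  exact hrim lam hlam1 hc

theorem comb_eq_of_inv {W : Type*} [AddCommGroup W] [Module ℝ W] {y y' : W} {l : ℝ} (hl : l ≠ 0) :
    (1 - l) • y' + l • (y' + l⁻¹ • (y - y')) = y := by
  rw [smul_add, smul_smul, mul_inv_cancel₀ hl, one_smul, sub_smul, one_smul]
  abel

/-- Volume lower bound without excess. -/
theorem volume_K_ge_cone {K : Set V} (hKc : IsCompact K) (hK : Convex ℝ K) (u : V) (hu : ‖u‖ = 1)
    (hdim : finrank ℝ (Pl u) = 2) {p : Pl u} (hpS : p ∈ Shadow K u) (ha0 : 0 < len K u p) :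
    ENNReal.ofReal (len K u p) * (volume (Shadow K u) / 3) ≤ volume K := by
  set S := Shadow K u with hS
  set a := len K u p with ha
  have hSc : IsCompact S := isCompact_shadow hKc u
  have hD₁c : IsCompact (coneD S p) := by
    apply (isCompact_Icc.prod hSc).image
    fun_prop
  have hne : ∀ x ∈ S, (fib K u x).Nonempty := fun x hx => (mem_image_iff_fib K u hu x).mp hx
  have h := volume_ge_of_slices hKc u hu hD₁c.measurableSet ha0 (by
    rintro σ y ⟨⟨σ', w⟩, ⟨hσ', hw⟩, he⟩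
    simp only [Prod.mk.injEq] at he
    obtain ⟨rfl, rfl⟩ := he
    refine ⟨hσ'.1, ?_⟩
    have h1 := len_concave hKc hK u hu w p (hne w hw) (hne p hpS) (a := 1 - σ') (b := σ')
      (by linarith [hσ'.2]) hσ'.1 (by ring)
    have h2 := len_nonneg K u w
    have h3 : 0 ≤ 1 - σ' := by linarith [hσ'.2]
    nlinarith [mul_nonneg h3 h2])
  refine le_trans ?_ h
  gcongr
  exact volume_coneD_ge hdim hSc p

/-- Volume lower bound with excess. -/
theorem excess_volume {K : Set V} (hKc : IsCompact K) (hK : Convex ℝ K) (u : V) (hu : ‖u‖ = 1)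
    (hdim : finrank ℝ (Pl u) = 2) {p y₀ : Pl u} {r₁ δ τ : ℝ}
    (hpS : p ∈ Shadow K u) (ha0 : 0 < len K u p)
    (hrim : ∀ c : ℝ, 1 < c → p + c • (y₀ - p) ∉ Shadow K u)
    (hdisc : closedBall ((1 / 2 : ℝ) • p + (1 / 2 : ℝ) • y₀) r₁ ⊆ Shadow K u)
    (hr₁ : 0 < r₁) (hδ0 : 0 < δ) (hδa : δ ≤ len K u p / 2)
    (hτ0 : 0 < τ) (hτ : τ ≤ r₁ * δ / (8 * len K u p))
    (hlen : len K u p / 2 + δ ≤ len K u ((1 / 2 : ℝ) • p + (1 / 2 : ℝ) • y₀)) :
    ENNReal.ofReal (len K u p) * (volume (Shadow K u) / 3 +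
      ENNReal.ofReal (δ / (4 * len K u p)) *
        volume (closedBall ((1 / 2 : ℝ) • p + (1 / 2 : ℝ) • y₀) τ)) ≤ volume K := by
  set S := Shadow K u with hS
  set a := len K u p with ha
  set y' : Pl u := (1 / 2 : ℝ) • p + (1 / 2 : ℝ) • y₀ with hy'
  set η := δ / (4 * a) with hη
  have hη0 : 0 < η := by positivity
  have hη1 : η ≤ 1 / 8 := by
    rw [hη, div_le_iff₀ (by positivity)]
    linarith
  have hSc : IsCompact S := isCompact_shadow hKc u
  have hSconv : Convex ℝ S := convex_shadow hK u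
  have hne : ∀ x ∈ S, (fib K u x).Nonempty := fun x hx => (mem_image_iff_fib K u hu x).mp hx
  have hD₁c : IsCompact (coneD S p) := by
    apply (isCompact_Icc.prod hSc).image
    fun_prop
  set D₂ : Set (ℝ × Pl u) := Icc (1 / 2 + η) (1 / 2 + 2 * η) ×ˢ closedBall y' τ with hD₂
  have hD₂c : IsCompact D₂ := isCompact_Icc.prod (isCompact_closedBall _ _)
  have hτη : τ ≤ r₁ * η / 2 := by
    have : r₁ * δ / (8 * a) = r₁ * η / 2 := by
      rw [hη]; field_simp; ring
    linarith
  have hdisj : Disjoint (coneD S p) D₂ := by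
    rw [Set.disjoint_left]
    rintro ⟨σ, y⟩ ⟨⟨σ', w⟩, ⟨hσ', hw⟩, he⟩ ⟨h1, h2⟩
    simp only [Prod.mk.injEq] at he
    obtain ⟨rfl, rfl⟩ := he
    exact disc_not_in_cone hSconv hrim hdisc hr₁ hη0 hη1 hτη h1.1 h1.2 h2 hw rfl
  have hunion := measure_union (μ := (volume : Measure ℝ).prod (volume : Measure (Pl u))) hdisj
    hD₂c.measurableSet
  have hvolD₂ : (volume.prod volume) D₂ = ENNReal.ofReal η * volume (closedBall y' τ) := by
    rw [hD₂, Measure.prod_prod, Real.volume_Icc]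
    congr 2
    ring
  have hlam0 : 0 < τ / r₁ := by positivity
  have hlam : τ / r₁ ≤ η / 2 := by
    rw [div_le_iff₀ hr₁]
    linarith
  have hmain := volume_ge_of_slices hKc u hu (hD₁c.union hD₂c).measurableSet ha0 (D := coneD S p ∪ D₂) (by
    rintro σ y (⟨⟨σ', w⟩, ⟨hσ', hw⟩, he⟩ | ⟨h1, h2⟩)
    · simp only [Prod.mk.injEq] at he
      obtain ⟨rfl, rfl⟩ := he
      refine ⟨hσ'.1, ?_⟩
      have h1 := len_concave hKc hK u hu w p (hne w hw) (hne p hpS) (a := 1 - σ') (b := σ')
        (by linarith [hσ'.2]) hσ'.1 (by ring)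
      have h2 := len_nonneg K u w
      have h3 : 0 ≤ 1 - σ' := by linarith [hσ'.2]
      nlinarith [mul_nonneg h3 h2]
    · simp only at h1 h2
      refine ⟨by linarith [h1.1], ?_⟩
      set l := τ / r₁ with hl
      set w : Pl u := y' + l⁻¹ • (y - y') with hw
      have hwS : w ∈ S := by
        apply hdisc
        rw [mem_closedBall, dist_eq_norm, hw, add_sub_cancel_left, norm_smul, norm_inv,
          Real.norm_of_nonneg hlam0.le, hl]
        have h3 : ‖y - y'‖ ≤ τ := by
          rw [← dist_eq_norm]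
          exact h2
        rw [inv_mul_le_iff₀ hlam0]
        calc ‖y - y'‖ ≤ τ := h3
          _ = τ / r₁ * r₁ := by field_simp
      have hy'S : y' ∈ S := hdisc (mem_closedBall_self hr₁.le)
      have hl1 : l ≤ 1 := by linarith
      have hyeq : (1 - l) • y' + l • w = y := comb_eq_of_inv hlam0.ne'
      have h4 := len_concave hKc hK u hu y' w (hne y' hy'S) (hne w hwS) (a := 1 - l) (b := l)
        (by linarith) hlam0.le (by ring)
      rw [hyeq] at h4
      have h5 := len_nonneg K u w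
      have h6 : 0 ≤ l * len K u w := mul_nonneg hlam0.le h5
      have h7 : (1 - l) * (a / 2 + δ) ≤ (1 - l) * len K u y' :=
        mul_le_mul_of_nonneg_left hlen (by linarith)
      have h8 : a * σ ≤ a * (1 / 2 + 2 * η) := mul_le_mul_of_nonneg_left h1.2 ha0.le
      have h9 : a * (1 / 2 + 2 * η) = a / 2 + δ / 2 := by
        rw [hη]; field_simp; ring
      have h10 : l * (a / 2 + δ) ≤ (η / 2) * a :=
        mul_le_mul hlam (by linarith) (by positivity) (by positivity)
      have h11 : (η / 2) * a = δ / 8 := by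
        rw [hη]; field_simp; ring
      nlinarith)
  refine le_trans ?_ hmain
  gcongr
  rw [hunion, hvolD₂]
  gcongr
  exact volume_coneD_ge hdim hSc p

end Vale.Agent.Lib.P243
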