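import Mathlib

open MeasureTheory Module Set
open scoped ENNReal RealInnerProductSpace

namespace Vale.Agent.Lib.P243

set_option linter.unusedSectionVars false

variable {V : Type*} [NormedAddCommGroup V] [InnerProductSpace ℝ V] [FiniteDimensional ℝ V]
  [MeasurableSpace V] [BorelSpace V]

/-- The map `(y,t) ↦ y + t u` from `uᗮ × ℝ` to `V`. -/
noncomputable def fiberMap (u : V) (y : ((ℝ ∙ u)ᗮ : Submodule ℝ V)) (t : ℝ) : V := (y : V) + t • u

theorem measurePreserving_fiberMap (u : V) (hu : ‖u‖ = 1) :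
    MeasurePreserving (fun p : ((ℝ ∙ u)ᗮ : Submodule ℝ V) × ℝ => fiberMap u p.1 p.2)
      ((volume : Measure ((ℝ ∙ u)ᗮ : Submodule ℝ V)).prod (volume : Measure ℝ)) (volume : Measure V) := by
  set s : Submodule ℝ V := ℝ ∙ u with hs
  have h1 : MeasurePreserving (s.orthogonalDecomposition.symm) :=
    LinearIsometryEquiv.measurePreserving _
  have h2 : MeasurePreserving (@WithLp.toLp 2 (s × (sᗮ : Submodule ℝ V))) :=
    WithLp.volume_preserving_toLp _ _
  have h3 : MeasurePreserving (LinearIsometryEquiv.toSpanUnitSingleton (𝕜 := ℝ) u hu) :=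
    LinearIsometryEquiv.measurePreserving _
  have h4 : MeasurePreserving (Prod.map (LinearIsometryEquiv.toSpanUnitSingleton (𝕜 := ℝ) u hu)
      (id : (sᗮ : Submodule ℝ V) → (sᗮ : Submodule ℝ V)))
      ((volume : Measure ℝ).prod (volume : Measure (sᗮ : Submodule ℝ V))) := h3.prod (MeasurePreserving.id _)
  have h5 : MeasurePreserving (Prod.swap : (sᗮ : Submodule ℝ V) × ℝ → ℝ × (sᗮ : Submodule ℝ V))
      ((volume : Measure (sᗮ : Submodule ℝ V)).prod (volume : Measure ℝ)) ((volume : Measure ℝ).prod (volume : Measure (sᗮ : Submodule ℝ V))) :=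
    Measure.measurePreserving_swap
  have hc := h1.comp (h2.comp (h4.comp h5))
  have heq : (fun p : ((ℝ ∙ u)ᗮ : Submodule ℝ V) × ℝ => fiberMap u p.1 p.2) =
      ⇑s.orthogonalDecomposition.symm ∘ (@WithLp.toLp 2 (s × (sᗮ : Submodule ℝ V))) ∘
      (Prod.map (LinearIsometryEquiv.toSpanUnitSingleton (𝕜 := ℝ) u hu)
      (id : (sᗮ : Submodule ℝ V) → (sᗮ : Submodule ℝ V))) ∘ Prod.swap := by
    funext p
    simp only [fiberMap, Function.comp_apply, Prod.map, Prod.swap, id]
    rw [Submodule.orthogonalDecomposition_symm_apply]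
    simp [add_comm]
  rw [heq]
  exact hc

theorem measurable_fiberMap (u : V) :
    Continuous (fun p : ((ℝ ∙ u)ᗮ : Submodule ℝ V) × ℝ => fiberMap u p.1 p.2) := by
  unfold fiberMap
  fun_prop

/-- Fubini along a unit vector. -/
theorem lintegral_fiber (u : V) (hu : ‖u‖ = 1) (f : V → ℝ≥0∞) (hf : Measurable f) :
    ∫⁻ x, f x = ∫⁻ y : ((ℝ ∙ u)ᗮ : Submodule ℝ V), ∫⁻ t : ℝ, f ((y : V) + t • u) := by
  have hmp := measurePreserving_fiberMap u hu
  have hG := (measurable_fiberMap u).measurable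
  rw [← hmp.lintegral_comp hf]
  exact MeasureTheory.lintegral_prod (fun a => f (fiberMap u a.1 a.2)) (hf.comp hG).aemeasurable

/-- Volume via fibres along a unit vector. -/
theorem volume_fiber (u : V) (hu : ‖u‖ = 1) {A : Set V} (hA : MeasurableSet A) :
    volume A = ∫⁻ y : ((ℝ ∙ u)ᗮ : Submodule ℝ V), volume {t : ℝ | (y : V) + t • u ∈ A} := by
  rw [← lintegral_indicator_one hA, lintegral_fiber u hu _ (measurable_one.indicator hA)]
  congr 1
  ext y
  have hm : MeasurableSet {t : ℝ | (y : V) + t • u ∈ A} := by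
    have : Continuous (fun t : ℝ => (y : V) + t • u) := by fun_prop
    exact this.measurable hA
  rw [← lintegral_indicator_one hm]
  rfl

/-- Orthogonal projection of `y + t u`. -/
theorem proj_fiber (u : V) (y : ((ℝ ∙ u)ᗮ : Submodule ℝ V)) (t : ℝ) :
    (ℝ ∙ u)ᗮ.orthogonalProjectionOnto ((y : V) + t • u) = y := by
  have h0 : (ℝ ∙ u)ᗮ.orthogonalProjectionOnto (t • u) = 0 := by
    rw [Submodule.orthogonalProjectionOnto_eq_zero_iff]
    rw [Submodule.orthogonal_orthogonal]
    exact Submodule.smul_mem _ _ (Submodule.mem_span_singleton_self u)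
  rw [map_add, h0, add_zero]
  exact Submodule.orthogonalProjectionOnto_mem_subspace_eq_self y

/-- Decomposition `x = π x + ⟨u,x⟩ u`. -/
theorem fiber_decomp (u : V) (hu : ‖u‖ = 1) (x : V) :
    (((ℝ ∙ u)ᗮ.orthogonalProjectionOnto x : ((ℝ ∙ u)ᗮ : Submodule ℝ V)) : V) + (⟪u, x⟫ : ℝ) • u = x := by
  have h2 := (ℝ ∙ u).starProjection_add_starProjection_orthogonal x
  rw [Submodule.starProjection_unit_singleton ℝ hu] at h2
  rw [add_comm]
  exact h2

end Vale.Agent.Lib.P243
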