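import Vale.Agent.Lib.P243.KeyMain
import Vale.Agent.Lib.P243.Excess

open MeasureTheory Module Set Metric
open scoped ENNReal RealInnerProductSpace Pointwise

namespace Vale.Agent.Lib.P243

set_option linter.unusedSectionVars false

variable {V : Type*} [NormedAddCommGroup V] [InnerProductSpace ℝ V] [FiniteDimensional ℝ V]
  [MeasurableSpace V] [BorelSpace V]

theorem volume_disc {W : Type*} [NormedAddCommGroup W] [InnerProductSpace ℝ W]
    [FiniteDimensional ℝ W] [MeasurableSpace W] [BorelSpace W] (hdim : finrank ℝ W = 2) (y : W)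
    {τ : ℝ} (hτ : 0 ≤ τ) : volume (closedBall y τ) = ENNReal.ofReal (τ ^ 2 * Real.pi) := by
  have : Nontrivial W := by
    apply Module.nontrivial_of_finrank_pos (R := ℝ)
    omega
  rw [InnerProductSpace.volume_closedBall_of_dim_even (k := 1) (by omega) y τ, hdim,
    ← ENNReal.ofReal_pow hτ, ← ENNReal.ofReal_mul (by positivity)]
  simp

/-- A small deficit forces the midpoint bound. -/
theorem midBound_of_deficit {K : Set V} (hKc : IsCompact K) (hK : Convex ℝ K) (u : V)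
    (hu : ‖u‖ = 1) (hdim : finrank ℝ (Pl u) = 2) {p : Pl u} {r₁ δ τ θ : ℝ}
    (hpS : p ∈ Shadow K u) (ha0 : 0 < len K u p) (hr₁ : 0 < r₁) (hδ0 : 0 < δ)
    (hδa : δ ≤ len K u p / 2) (hτ0 : 0 < τ) (hτ : τ ≤ r₁ * δ / (8 * len K u p))
    (hdef : (3 - θ) * (volume K).toReal ≤ len K u p * (volume (Shadow K u)).toReal)
    (hθ : θ / 3 * (volume K).toReal < δ / 4 * (τ ^ 2 * Real.pi)) :
    MidBound K u p r₁ (len K u p) δ := by
  intro y₀ hy₀ hrim hdisc t₁ t₂ h₁ h₂
  by_contra hcon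
  push Not at hcon
  have hlen := sub_le_len hKc hK u hu h₁ h₂
  have hex := excess_volume hKc hK u hu hdim hpS ha0 hrim hdisc hr₁ hδ0 hδa hτ0 hτ (hcon.trans hlen)
  set S := Shadow K u with hS
  set a := len K u p with ha
  have hKtop : volume K ≠ ⊤ := hKc.measure_lt_top.ne
  have hStop : volume S ≠ ⊤ := (isCompact_shadow hKc u).measure_lt_top.ne
  rw [volume_disc hdim _ hτ0.le] at hex
  set vS := (volume S).toReal with hvS
  set vK := (volume K).toReal with hvK
  have hvS0 : 0 ≤ vS := ENNReal.toReal_nonneg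
  have e1 : volume S / 3 = ENNReal.ofReal (vS / 3) := by
    rw [ENNReal.ofReal_div_of_pos (by norm_num), hvS, ENNReal.ofReal_toReal hStop]
    simp
  rw [e1, ← ENNReal.ofReal_mul (by positivity), ← ENNReal.ofReal_add (by positivity) (by positivity),
    ← ENNReal.ofReal_mul ha0.le, ENNReal.ofReal_le_iff_le_toReal hKtop] at hex
  have e2 : a * (δ / (4 * a) * (τ ^ 2 * Real.pi)) = δ / 4 * (τ ^ 2 * Real.pi) := by
    field_simp
  have e3 : a * (vS / 3 + δ / (4 * a) * (τ ^ 2 * Real.pi)) =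
      a * vS / 3 + δ / 4 * (τ ^ 2 * Real.pi) := by
    rw [mul_add, e2]; ring
  rw [e3] at hex
  linarith

/-- The key lemma: a chord that is almost extremal for the volume bound has an end at which the
normals of `K` oscillate. -/
theorem key_chord {K : Set V} (hc : IsCompact K) (hK : Convex ℝ K) {r₀ R₀ κ ρ δ s₀ ζ r₁ τ θ : ℝ}
    (hr₀ : 0 < r₀) (hκ : 0 ≤ κ) (hδ : 0 < δ) (hs₀ : 0 < s₀) (hs₁ : s₀ ≤ 1)
    (hnear : 4 * δ + s₀ * (2 * R₀) < ρ)
    (hε : 4 * δ / s₀ + 2 * (κ * R₀) < r₀ / 2) (hδr : 2 * δ ≤ r₀ / 2)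
    (hζ0 : 0 < ζ) (hζ1 : ζ < 1) (hζρ : 2 * ζ ^ 2 < ρ) (hζr : ζ ^ 4 + 2 * ((κ + 2 * ζ) * R₀) < r₀)
    (hr₁0 : 0 < r₁) (hr₁4 : r₁ ≤ r₀ / 4) (hr₁η : r₁ ≤ ζ ^ 4 / 2)
    (hτ0 : 0 < τ) (hτ : τ ≤ r₁ * δ / (16 * R₀))
    (hin : closedBall 0 r₀ ⊆ K) (hout : ∀ x ∈ K, ‖x‖ ≤ R₀) (u : V) (hu : ‖u‖ = 1)
    (hdim : finrank ℝ (Pl u) = 2)
    (p : Pl u) {b t : ℝ} (hfib : fib K u p = Icc b t) (hbt : 2 * δ ≤ t - b)
    (hdef : (3 - θ) * (volume K).toReal ≤ (t - b) * (volume (Shadow K u)).toReal)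
    (hθ : θ / 3 * (volume K).toReal < δ / 4 * (τ ^ 2 * Real.pi))
    (hRegA : Reg K κ ρ ((p : V) + t • u)) (hRegB : Reg K κ ρ ((p : V) + b • u)) : False := by
  have hbt' : b < t := by linarith
  have hlen : len K u p = t - b := len_of_Icc hbt'.le hfib
  have ha0 : 0 < t - b := by linarith
  have htf : t ∈ fib K u p := by rw [hfib]; exact right_mem_Icc.mpr hbt'.le
  have hbf : b ∈ fib K u p := by rw [hfib]; exact left_mem_Icc.mpr hbt'.le
  have hAK : (p : V) + t • u ∈ K := htf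
  have hBK : (p : V) + b • u ∈ K := hbf
  have hR₀ : 0 < R₀ := by
    have h1 := hout _ hAK
    have h2 := hout _ hBK
    have h3 : t - b ≤ ‖(p : V) + t • u‖ + ‖(p : V) + b • u‖ := by
      have h4 : (t - b) • u = ((p : V) + t • u) - ((p : V) + b • u) := by
        rw [sub_smul]; abel
      have h5 : ‖(t - b) • u‖ = t - b := by
        rw [norm_smul, hu, mul_one, Real.norm_of_nonneg ha0.le]
      rw [← h5, h4]
      exact norm_sub_le _ _
    linarith
  have ha2 : t - b ≤ 2 * R₀ := by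
    have h1 := hout _ hAK
    have h2 := hout _ hBK
    have h4 : (t - b) • u = ((p : V) + t • u) - ((p : V) + b • u) := by
      rw [sub_smul]; abel
    have h5 : ‖(t - b) • u‖ = t - b := by
      rw [norm_smul, hu, mul_one, Real.norm_of_nonneg ha0.le]
    rw [← h5, h4]
    refine (norm_sub_le _ _).trans ?_
    linarith
  have hpS : p ∈ Shadow K u := by
    rw [mem_image_iff_fib K u hu]
    exact ⟨b, hbf⟩
  have hW : ∃ v : Pl u, v ≠ 0 := by
    have : Nontrivial (Pl u) := by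
      apply Module.nontrivial_of_finrank_pos (R := ℝ)
      omega
    exact exists_ne 0
  have hτ' : τ ≤ r₁ * δ / (8 * len K u p) := by
    rw [hlen]
    refine hτ.trans ?_
    apply div_le_div_of_nonneg_left (by positivity) (by positivity)
    linarith
  have hX : MidBound K u p r₁ (t - b) δ := by
    rw [← hlen]
    apply midBound_of_deficit hc hK u hu hdim hpS (by rw [hlen]; exact ha0) hr₁0 hδ
      (by rw [hlen]; linarith) hτ0 hτ' (by rw [hlen]; exact hdef) hθ
  exact key_det hc hK hr₀ hκ hδ hs₀ hs₁ hnear hε hδr hζ0 hζ1 hζρ hζr hr₁4 hr₁η hin hout u hu hW p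
    hfib hbt' hX hRegA hRegB

end Vale.Agent.Lib.P243
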