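import Vale.Agent.Lib.P243.Normal

open MeasureTheory Module Set Metric
open scoped ENNReal RealInnerProductSpace

namespace Vale.Agent.Lib.P243

set_option linter.unusedSectionVars false

variable {V : Type*} [NormedAddCommGroup V] [InnerProductSpace ℝ V] [FiniteDimensional ℝ V]
  [MeasurableSpace V] [BorelSpace V]

theorem fib_comb {K : Set V} (hK : Convex ℝ K) (u : V) {y₁ y₂ : Pl u} {t₁ t₂ a b : ℝ}
    (h₁ : t₁ ∈ fib K u y₁) (h₂ : t₂ ∈ fib K u y₂) (ha : 0 ≤ a) (hb : 0 ≤ b) (hab : a + b = 1) :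
    a * t₁ + b * t₂ ∈ fib K u (a • y₁ + b • y₂) := by
  have h := hK h₁ h₂ ha hb hab
  show _ ∈ K
  convert h using 1
  simp only [Submodule.coe_add, Submodule.coe_smul]
  module

theorem sub_le_len {K : Set V} (hc : IsCompact K) (hK : Convex ℝ K) (u : V) (hu : ‖u‖ = 1)
    {y : Pl u} {t₁ t₂ : ℝ} (h₁ : t₁ ∈ fib K u y) (h₂ : t₂ ∈ fib K u y) : t₂ - t₁ ≤ len K u y := by
  obtain ⟨a, b, hab, e⟩ := fib_eq_Icc hc hK u hu y ⟨_, h₁⟩
  rw [len_of_Icc hab e]
  rw [e] at h₁ h₂
  linarith [h₁.1, h₂.2]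

/-- The point of `fib` over the midpoint coming from a point over `y_s`, `s ≤ 1/2`. -/
theorem comb_mid₁ {K : Set V} (hK : Convex ℝ K) (u : V) {p y₀ : Pl u} {s q c : ℝ} (hs0 : 0 ≤ s)
    (hs1 : s ≤ 1 / 2) (hq : q ∈ fib K u ((1 - s) • p + s • y₀)) (hc : c ∈ fib K u y₀) :
    (1 / (2 * (1 - s))) * q + (1 - 1 / (2 * (1 - s))) * c ∈
      fib K u ((1 / 2 : ℝ) • p + (1 / 2 : ℝ) • y₀) := by
  have hs' : 0 < 1 - s := by linarith
  set α := 1 / (2 * (1 - s)) with hα
  have hα0 : 0 ≤ α := by positivity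
  have hα1 : α ≤ 1 := by
    rw [hα, div_le_one (by positivity)]
    linarith
  have h := fib_comb hK u hq hc hα0 (sub_nonneg.mpr hα1) (by ring)
  have e : α • ((1 - s) • p + s • y₀) + (1 - α) • y₀ = (1 / 2 : ℝ) • p + (1 / 2 : ℝ) • y₀ := by
    have e1 : α * (1 - s) = 1 / 2 := by
      rw [hα]; field_simp
    have e2 : α * s + (1 - α) = 1 / 2 := by linarith
    rw [smul_add, smul_smul, smul_smul, add_assoc, ← add_smul, e1, e2]
  rwa [e] at h

/-- The point of `fib` over the midpoint coming from a point over `y_s`, `s ≥ 1/2`. -/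
theorem comb_mid₂ {K : Set V} (hK : Convex ℝ K) (u : V) {p y₀ : Pl u} {s q c : ℝ} (hs0 : 1 / 2 ≤ s)
    (hs1 : s ≤ 1) (hq : q ∈ fib K u ((1 - s) • p + s • y₀)) (hc : c ∈ fib K u p) :
    (1 / (2 * s)) * q + (1 - 1 / (2 * s)) * c ∈
      fib K u ((1 / 2 : ℝ) • p + (1 / 2 : ℝ) • y₀) := by
  have hs' : 0 < s := by linarith
  set α := 1 / (2 * s) with hα
  have hα0 : 0 ≤ α := by positivity
  have hα1 : α ≤ 1 := by
    rw [hα, div_le_one (by positivity)]
    linarith
  have h := fib_comb hK u hq hc hα0 (sub_nonneg.mpr hα1) (by ring)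
  have e : α • ((1 - s) • p + s • y₀) + (1 - α) • p = (1 / 2 : ℝ) • p + (1 / 2 : ℝ) • y₀ := by
    have e1 : α * s = 1 / 2 := by
      rw [hα]; field_simp
    have e2 : α * (1 - s) + (1 - α) = 1 / 2 := by linarith
    rw [smul_add, smul_smul, smul_smul, add_right_comm, ← add_smul, e1, e2]
  rwa [e] at h

/-- Near-extremality at the midpoint of a rim ray bounds all fibres along the ray. -/
theorem rim_fiber_bound {K : Set V} (hK : Convex ℝ K) (u : V) {p y₀ : Pl u} {t b c δ : ℝ}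
    (ht : t ∈ fib K u p) (hb : b ∈ fib K u p) (hc : c ∈ fib K u y₀)
    (hmid : ∀ t₁ t₂, t₁ ∈ fib K u ((1 / 2 : ℝ) • p + (1 / 2 : ℝ) • y₀) →
      t₂ ∈ fib K u ((1 / 2 : ℝ) • p + (1 / 2 : ℝ) • y₀) → t₂ - t₁ < (t - b) / 2 + δ)
    {s e : ℝ} (hs0 : 0 ≤ s) (hs1 : s ≤ 1) (he : 2 * δ ≤ e) (hδ : 0 ≤ δ) :
    (1 - s) * t + s * c + e ∉ fib K u ((1 - s) • p + s • y₀) ∧
      (1 - s) * b + s * c - e ∉ fib K u ((1 - s) • p + s • y₀) := by
  have hlow : (1 / 2 : ℝ) * b + (1 / 2 : ℝ) * c ∈ fib K u ((1 / 2 : ℝ) • p + (1 / 2 : ℝ) • y₀) :=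
    fib_comb hK u hb hc (by norm_num) (by norm_num) (by norm_num)
  have hupp : (1 / 2 : ℝ) * t + (1 / 2 : ℝ) * c ∈ fib K u ((1 / 2 : ℝ) • p + (1 / 2 : ℝ) • y₀) :=
    fib_comb hK u ht hc (by norm_num) (by norm_num) (by norm_num)
  constructor
  · intro hq
    rcases le_total s (1 / 2) with h | h
    · have h1 := comb_mid₁ hK u hs0 h hq hc
      have hs' : 0 < 1 - s := by linarith
      set α := 1 / (2 * (1 - s)) with hα
      have e1 : α * (1 - s) = 1 / 2 := by
        rw [hα]; field_simp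
      have hα2 : 1 / 2 ≤ α := by
        rw [hα, div_le_div_iff₀ (by norm_num) (by positivity)]
        linarith
      have h2 := hmid _ _ hlow h1
      have h3 : α * ((1 - s) * t + s * c + e) + (1 - α) * c = (1 / 2) * t + (1 / 2) * c + α * e := by
        linear_combination (t - c) * e1
      rw [h3] at h2
      nlinarith
    · have h1 := comb_mid₂ hK u h hs1 hq ht
      have hs' : 0 < s := by linarith
      set α := 1 / (2 * s) with hα
      have e1 : α * s = 1 / 2 := by
        rw [hα]; field_simp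
      have hα2 : 1 / 2 ≤ α := by
        rw [hα, div_le_div_iff₀ (by norm_num) (by positivity)]
        linarith
      have h2 := hmid _ _ hlow h1
      have h3 : α * ((1 - s) * t + s * c + e) + (1 - α) * t = (1 / 2) * t + (1 / 2) * c + α * e := by
        linear_combination (c - t) * e1
      rw [h3] at h2
      nlinarith
  · intro hq
    rcases le_total s (1 / 2) with h | h
    · have h1 := comb_mid₁ hK u hs0 h hq hc
      have hs' : 0 < 1 - s := by linarith
      set α := 1 / (2 * (1 - s)) with hα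
      have e1 : α * (1 - s) = 1 / 2 := by
        rw [hα]; field_simp
      have hα2 : 1 / 2 ≤ α := by
        rw [hα, div_le_div_iff₀ (by norm_num) (by positivity)]
        linarith
      have h2 := hmid _ _ h1 hupp
      have h3 : α * ((1 - s) * b + s * c - e) + (1 - α) * c = (1 / 2) * b + (1 / 2) * c - α * e := by
        linear_combination (b - c) * e1
      rw [h3] at h2
      nlinarith
    · have h1 := comb_mid₂ hK u h hs1 hq hb
      have hs' : 0 < s := by linarith
      set α := 1 / (2 * s) with hα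
      have e1 : α * s = 1 / 2 := by
        rw [hα]; field_simp
      have hα2 : 1 / 2 ≤ α := by
        rw [hα, div_le_div_iff₀ (by norm_num) (by positivity)]
        linarith
      have h2 := hmid _ _ h1 hupp
      have h3 : α * ((1 - s) * b + s * c - e) + (1 - α) * b = (1 / 2) * b + (1 / 2) * c - α * e := by
        linear_combination (c - b) * e1
      rw [h3] at h2
      nlinarith

/-- The shadow of `K` on `uᗮ`. -/
noncomputable abbrev Shadow (K : Set V) (u : V) : Set (Pl u) :=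
  (ℝ ∙ u)ᗮ.orthogonalProjectionOnto '' K

theorem isCompact_shadow {K : Set V} (hc : IsCompact K) (u : V) : IsCompact (Shadow K u) :=
  hc.image (ContinuousLinearMap.continuous _)

theorem convex_shadow {K : Set V} (hK : Convex ℝ K) (u : V) : Convex ℝ (Shadow K u) :=
  hK.linear_image (ContinuousLinearMap.toLinearMap _)

/-- The rim data with the bound from the midpoint (hypothesis form used below). -/
def MidBound (K : Set V) (u : V) (p : Pl u) (r₁ a δ : ℝ) : Prop :=
  ∀ y₀ : Pl u, y₀ ∈ Shadow K u → (∀ c : ℝ, 1 < c → p + c • (y₀ - p) ∉ Shadow K u) →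
    closedBall ((1 / 2 : ℝ) • p + (1 / 2 : ℝ) • y₀) r₁ ⊆ Shadow K u →
    ∀ t₁ t₂, t₁ ∈ fib K u ((1 / 2 : ℝ) • p + (1 / 2 : ℝ) • y₀) →
      t₂ ∈ fib K u ((1 / 2 : ℝ) • p + (1 / 2 : ℝ) • y₀) → t₂ - t₁ < a / 2 + δ

/-- Lower bound of a linear functional over a central ball from bounds at the chord ends and at
the rim. -/
theorem ball_bound {K : Set V} (hc : IsCompact K) (hK : Convex ℝ K) {r₀ r₁ δ : ℝ} (hδ : 0 ≤ δ)
    (hr₀ : 0 ≤ r₀) (hr₁ : r₁ ≤ r₀ / 4)
    (hin : closedBall 0 r₀ ⊆ K) (u : V) (hu : ‖u‖ = 1) (p : Pl u) {b t : ℝ}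
    (hfib : fib K u p = Icc b t) (hbt : b ≤ t) (hX : MidBound K u p r₁ (t - b) δ)
    {f : V} (hf : ‖f‖ = 1) {m : ℝ}
    (hA : m ≤ ⟪f, (p : V) + t • u⟫) (hB : m ≤ ⟪f, (p : V) + b • u⟫)
    (hZ : ∀ y₀ : Pl u, y₀ ∈ Shadow K u → (∀ c : ℝ, 1 < c → p + c • (y₀ - p) ∉ Shadow K u) →
      closedBall ((1 / 2 : ℝ) • p + (1 / 2 : ℝ) • y₀) r₁ ⊆ Shadow K u →
      ∀ c, c ∈ fib K u y₀ → m ≤ ⟪f, (y₀ : V) + c • u⟫)
    {x : V} (hx : x ∈ closedBall (0 : V) (r₀ / 2)) :
    m - 2 * δ ≤ ⟪f, x⟫ := by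
  set yc : Pl u := (ℝ ∙ u)ᗮ.orthogonalProjectionOnto x with hyc
  set tx := ⟪u, x⟫ with htx
  have hxd : (yc : V) + tx • u = x := fiber_decomp u hu x
  have hxK : x ∈ K := hin (closedBall_subset_closedBall (by linarith) hx)
  have htxf : tx ∈ fib K u yc := by
    show (yc : V) + tx • u ∈ K
    rw [hxd]; exact hxK
  set P := ⟪f, (p : V)⟫ with hP
  set U := ⟪f, u⟫ with hU
  have hU1 : U ≤ 1 := by
    have := real_inner_le_norm f u
    rwa [hf, hu, one_mul] at this
  have hU2 : -1 ≤ U := by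
    have := abs_real_inner_le_norm f u
    rw [hf, hu, one_mul] at this
    exact (abs_le.mp this).1
  have hA' : m ≤ P + t * U := by
    rw [inner_add_right, inner_smul_right] at hA
    exact hA
  have hB' : m ≤ P + b * U := by
    rw [inner_add_right, inner_smul_right] at hB
    exact hB
  have hfx : ⟪f, x⟫ = ⟪f, (yc : V)⟫ + tx * U := by
    rw [← hxd, inner_add_right, inner_smul_right]
  by_cases hycp : yc = p
  · have h1 : tx ∈ Icc b t := by
      rw [← hfib, ← hycp]; exact htxf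
    rw [hfx, hycp]
    have h2 : m ≤ P + tx * U := by
      rcases le_total 0 U with h | h
      · nlinarith [h1.1]
      · nlinarith [h1.2]
    linarith
  -- general case
  have hSc := isCompact_shadow hc u
  have hSconv := convex_shadow hK u
  have hball : closedBall yc (r₀ / 2) ⊆ Shadow K u := by
    intro y hy
    have hyn : ‖yc‖ ≤ r₀ / 2 := by
      have h1 : ‖yc‖ ≤ ‖x‖ := Submodule.norm_orthogonalProjectionOnto_apply_le _ _
      have h2 : ‖x‖ ≤ r₀ / 2 := by simpa using hx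
      linarith
    have hyy : ‖y‖ ≤ r₀ := by
      have h1 : ‖y - yc‖ ≤ r₀ / 2 := by simpa [dist_eq_norm] using hy
      have h2 : ‖y‖ ≤ ‖y - yc‖ + ‖yc‖ := by
        have := norm_add_le (y - yc) yc
        simpa using this
      linarith
    rw [mem_image_iff_fib K u hu]
    refine ⟨0, ?_⟩
    show (y : V) + (0 : ℝ) • u ∈ K
    rw [zero_smul, add_zero]
    apply hin
    simpa using hyy
  have hpS : p ∈ Shadow K u := by
    rw [mem_image_iff_fib K u hu, hfib]
    exact ⟨b, left_mem_Icc.mpr hbt⟩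
  have hycS : yc ∈ Shadow K u := ⟨x, hxK, rfl⟩
  have hv : yc - p ≠ 0 := sub_ne_zero.mpr hycp
  obtain ⟨lam, hlam1, hlamS, hrim⟩ := exists_rim hSc hSconv hv hpS (by simpa using hycS)
  set y₀ := p + lam • (yc - p) with hy₀
  have hlam0 : 0 < lam := by linarith
  set s := 1 / lam with hs
  have hs0 : 0 < s := by positivity
  have hs1 : s ≤ 1 := by
    rw [hs, div_le_one hlam0]
    exact hlam1
  have hyc_eq : yc = (1 - s) • p + s • y₀ := by
    have e1 : s * lam = 1 := by rw [hs]; field_simp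
    rw [hy₀, smul_add, smul_smul, e1, one_smul, ← add_assoc, ← add_smul]
    have : 1 - s + s = 1 := by ring
    rw [this, one_smul]
    abel
  have hmidb := mid_ball_subset hSconv (r := r₀ / 2) (by positivity) hpS hlamS hball hs0 hs1 hyc_eq
  have hmidb' : closedBall ((1 / 2 : ℝ) • p + (1 / 2 : ℝ) • y₀) r₁ ⊆ Shadow K u :=
    (closedBall_subset_closedBall (by linarith)).trans hmidb
  obtain ⟨c, hcf⟩ := (mem_image_iff_fib K u hu y₀).mp hlamS
  have hmid := hX y₀ hlamS hrim hmidb'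
  have htf : t ∈ fib K u p := by rw [hfib]; exact right_mem_Icc.mpr hbt
  have hbf : b ∈ fib K u p := by rw [hfib]; exact left_mem_Icc.mpr hbt
  have hzm := hZ y₀ hlamS hrim hmidb' c hcf
  rw [inner_add_right, inner_smul_right] at hzm
  have htxf' : tx ∈ fib K u ((1 - s) • p + s • y₀) := by
    rw [← hyc_eq]; exact htxf
  have hup : tx - s * c - (1 - s) * t < 2 * δ := by
    by_contra hcon
    push Not at hcon
    have := (rim_fiber_bound hK u htf hbf hcf hmid hs0.le hs1 hcon hδ).1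
    apply this
    convert htxf' using 1
    ring
  have hlo : (1 - s) * b - 2 * δ < tx - s * c := by
    by_contra hcon
    push Not at hcon
    have := (rim_fiber_bound hK u htf hbf hcf hmid hs0.le hs1 (e := (1 - s) * b + s * c - tx)
      (by linarith) hδ).2
    apply this
    convert htxf' using 1
    ring
  have hfy : ⟪f, (yc : V)⟫ = (1 - s) * P + s * ⟪f, (y₀ : V)⟫ := by
    rw [hyc_eq, Submodule.coe_add, Submodule.coe_smul, Submodule.coe_smul, inner_add_right,
      inner_smul_right, inner_smul_right]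
  rw [hfx, hfy]
  have hs' : 0 ≤ 1 - s := by linarith
  have h5 : (1 - s) * m - 2 * δ ≤ (1 - s) * P + (tx - s * c) * U := by
    rcases le_total 0 U with h | h
    · have h6 : ((1 - s) * b - 2 * δ) * U ≤ (tx - s * c) * U :=
        mul_le_mul_of_nonneg_right hlo.le h
      have h7 : (1 - s) * m ≤ (1 - s) * (P + b * U) := mul_le_mul_of_nonneg_left hB' hs'
      nlinarith
    · have h6 : ((1 - s) * t + 2 * δ) * U ≤ (tx - s * c) * U := by
        apply mul_le_mul_of_nonpos_right _ h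
        linarith
      have h7 : (1 - s) * m ≤ (1 - s) * (P + t * U) := mul_le_mul_of_nonneg_left hA' hs'
      nlinarith
  have h8 : s * m ≤ s * (⟪f, (y₀ : V)⟫ + c * U) := mul_le_mul_of_nonneg_left hzm hs0.le
  nlinarith

end Vale.Agent.Lib.P243
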