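import Vale.Agent.Lib.P243.KeyDet

open MeasureTheory Module Set Metric
open scoped ENNReal RealInnerProductSpace

namespace Vale.Agent.Lib.P243

set_option linter.unusedSectionVars false

variable {V : Type*} [NormedAddCommGroup V] [InnerProductSpace ℝ V] [FiniteDimensional ℝ V]
  [MeasurableSpace V] [BorelSpace V]

/-- If a normal `f` at `zf` drops by at most `d` on the chord ends and over the rim, then the
drop `d` is large, because `K` contains a central ball. -/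
theorem d_lower {K : Set V} (hc : IsCompact K) (hK : Convex ℝ K) {r₀ r₁ δ : ℝ} (hδ : 0 ≤ δ)
    (hr₀ : 0 ≤ r₀) (hr₁ : r₁ ≤ r₀ / 4)
    (hin : closedBall 0 r₀ ⊆ K) (u : V) (hu : ‖u‖ = 1) (p : Pl u) {b t : ℝ}
    (hfib : fib K u p = Icc b t) (hbt : b ≤ t) (hX : MidBound K u p r₁ (t - b) δ)
    {f zf : V} (hn : IsNormal K f zf) {d : ℝ}
    (hA : ⟪f, zf⟫ - d ≤ ⟪f, (p : V) + t • u⟫) (hB : ⟪f, zf⟫ - d ≤ ⟪f, (p : V) + b • u⟫)
    (hZ : ∀ y₀ : Pl u, y₀ ∈ Shadow K u → (∀ c : ℝ, 1 < c → p + c • (y₀ - p) ∉ Shadow K u) →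
      closedBall ((1 / 2 : ℝ) • p + (1 / 2 : ℝ) • y₀) r₁ ⊆ Shadow K u →
      ∀ c, c ∈ fib K u y₀ → ⟪f, zf⟫ - d ≤ ⟪f, (y₀ : V) + c • u⟫) :
    3 * r₀ / 2 - 2 * δ ≤ d := by
  have hfn : ‖f‖ = 1 := hn.2.1
  have hx : (-(r₀ / 2)) • f ∈ closedBall (0 : V) (r₀ / 2) := by
    rw [mem_closedBall_zero_iff, norm_smul, hfn, mul_one, Real.norm_eq_abs, abs_neg,
      abs_of_nonneg (by positivity)]
  have h1 := ball_bound hc hK hδ hr₀ hr₁ hin u hu p hfib hbt hX hfn hA hB hZ hx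
  have h2 : ⟪f, (-(r₀ / 2)) • f⟫ = -(r₀ / 2) := by
    rw [inner_smul_right, real_inner_self_eq_norm_sq, hfn]
    ring
  rw [h2] at h1
  have h3 : r₀ ≤ ⟪f, zf⟫ := by
    have h4 : r₀ • f ∈ K := by
      apply hin
      rw [mem_closedBall_zero_iff, norm_smul, hfn, mul_one, Real.norm_eq_abs,
        abs_of_nonneg hr₀]
    have h5 := hn.2.2 _ h4
    rw [inner_smul_right, real_inner_self_eq_norm_sq, hfn] at h5
    linarith
  linarith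


/-- Rim points almost maximize the normals near the chord ends. -/
theorem good_rim {K : Set V} (hc : IsCompact K) (hK : Convex ℝ K) {R₀ κ ρ δ s₀ r₁ : ℝ}
    (hδ : 0 < δ) (hs₀ : 0 < s₀) (hs₁ : s₀ ≤ 1) (hnear : 4 * δ + s₀ * (2 * R₀) < ρ)
    (hout : ∀ x ∈ K, ‖x‖ ≤ R₀) (u : V) (hu : ‖u‖ = 1) (p : Pl u) {b t : ℝ}
    (htf : t ∈ fib K u p) (hbf : b ∈ fib K u p) (hX : MidBound K u p r₁ (t - b) δ)
    (hRegA : Reg K κ ρ ((p : V) + t • u)) (hRegB : Reg K κ ρ ((p : V) + b • u))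
    {fA zA fB zB : V} (hnA : IsNormal K fA zA) (hnB : IsNormal K fB zB)
    (hzA : ‖zA - ((p : V) + t • u)‖ < ρ) (hzB : ‖zB - ((p : V) + b • u)‖ < ρ)
    (y₀ : Pl u) (hy₀ : y₀ ∈ Shadow K u) (hrim : ∀ c : ℝ, 1 < c → p + c • (y₀ - p) ∉ Shadow K u)
    (hdisc : closedBall ((1 / 2 : ℝ) • p + (1 / 2 : ℝ) • y₀) r₁ ⊆ Shadow K u)
    (c : ℝ) (hcf : c ∈ fib K u y₀) :
    ⟪fA, zA⟫ - (4 * δ / s₀ + 2 * (κ * R₀)) ≤ ⟪fA, (y₀ : V) + c • u⟫ ∧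
      ⟪fB, zB⟫ - (4 * δ / s₀ + 2 * (κ * R₀)) ≤ ⟪fB, (y₀ : V) + c • u⟫ := by
  have hnegu : ‖-u‖ = 1 := by rw [norm_neg, hu]
  have hmid := hX y₀ hy₀ hrim hdisc
  have hb1 := rim_fiber_bound hK u htf hbf hcf hmid hs₀.le hs₁ (le_refl (2 * δ)) hδ.le
  have hzK : (y₀ : V) + c • u ∈ K := hcf
  have hAK : (p : V) + t • u ∈ K := htf
  have hBK : (p : V) + b • u ∈ K := hbf
  have hout1 : (1 - s₀) • ((p : V) + t • u) + s₀ • ((y₀ : V) + c • u) + (2 * δ) • u ∉ K := by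
    intro h
    apply hb1.1
    show (((1 - s₀) • p + s₀ • y₀ : Pl u) : V) + ((1 - s₀) * t + s₀ * c + 2 * δ) • u ∈ K
    convert h using 1
    simp only [Submodule.coe_add, Submodule.coe_smul]
    module
  have hout2 : (1 - s₀) • ((p : V) + b • u) + s₀ • ((y₀ : V) + c • u) + (2 * δ) • (-u) ∉ K := by
    intro h
    apply hb1.2
    show (((1 - s₀) • p + s₀ • y₀ : Pl u) : V) + ((1 - s₀) * b + s₀ * c - 2 * δ) • u ∈ K
    convert h using 1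
    simp only [Submodule.coe_add, Submodule.coe_smul]
    module
  have h1 := top_of_out hc hK hAK hzK hu hs₀ hs₁ hδ.le hout1 hRegA hout hnear hnA hzA
  have h2 := top_of_out hc hK hBK hzK hnegu hs₀ hs₁ hδ.le hout2 hRegB hout hnear hnB hzB
  exact ⟨by linarith, by linarith⟩

/-- Width bound on the normal at one end. -/
theorem width_end {K : Set V} (hc : IsCompact K) (hK : Convex ℝ K) {r₀ r₁ δ ε : ℝ} (hδ : 0 ≤ δ)
    (hr₀ : 0 < r₀) (hr₁ : r₁ ≤ r₀ / 4) (hin : closedBall 0 r₀ ⊆ K) (u : V) (hu : ‖u‖ = 1) (p : Pl u)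
    {b t : ℝ} (hfib : fib K u p = Icc b t) (hbt : b ≤ t) (hX : MidBound K u p r₁ (t - b) δ)
    {f zf C D : V} (hn : IsNormal K f zf) (hδr : 2 * δ ≤ r₀ / 2) (hε : ε < r₀ / 2)
    (hCD : (C = (p : V) + t • u ∧ D = (p : V) + b • u) ∨ (C = (p : V) + b • u ∧ D = (p : V) + t • u))
    (hC : ⟪f, zf⟫ - 2 * δ ≤ ⟪f, C⟫)
    (hZ : ∀ y₀ : Pl u, y₀ ∈ Shadow K u → (∀ c : ℝ, 1 < c → p + c • (y₀ - p) ∉ Shadow K u) →
      closedBall ((1 / 2 : ℝ) • p + (1 / 2 : ℝ) • y₀) r₁ ⊆ Shadow K u →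
      ∀ c, c ∈ fib K u y₀ → ⟪f, zf⟫ - ε ≤ ⟪f, (y₀ : V) + c • u⟫) :
    r₀ ≤ ⟪f, zf⟫ - ⟪f, D⟫ := by
  set d := max (2 * δ) (max (⟪f, zf⟫ - ⟪f, D⟫) ε) with hd
  have h1 : 2 * δ ≤ d := le_max_left _ _
  have h2 : ⟪f, zf⟫ - ⟪f, D⟫ ≤ d := (le_max_left _ _).trans (le_max_right _ _)
  have h3 : ε ≤ d := (le_max_right _ _).trans (le_max_right _ _)
  have h4 : ⟪f, zf⟫ - d ≤ ⟪f, C⟫ := by linarith
  have h5 : ⟪f, zf⟫ - d ≤ ⟪f, D⟫ := by linarith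
  have h6 : 3 * r₀ / 2 - 2 * δ ≤ d := by
    apply d_lower hc hK hδ hr₀.le hr₁ hin u hu p hfib hbt hX hn
    · rcases hCD with ⟨rfl, rfl⟩ | ⟨rfl, rfl⟩
      · exact h4
      · exact h5
    · rcases hCD with ⟨rfl, rfl⟩ | ⟨rfl, rfl⟩
      · exact h5
      · exact h4
    · intro y₀ hy₀ hrim hdisc c hcf
      have := hZ y₀ hy₀ hrim hdisc c hcf
      linarith
  by_contra hcon
  push Not at hcon
  have h7 : d < r₀ := by
    apply max_lt (by linarith) (max_lt hcon (by linarith))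
  linarith

/-- The far case: `p` is at distance at least `η` from the rim of the shadow. -/
theorem case_far {K : Set V} (hc : IsCompact K) (hK : Convex ℝ K) {r₀ η r₁ ε : ℝ}
    (hr₀ : 0 < r₀) (hη : 0 < η) (hr₁η : r₁ ≤ η / 2) (hε : ε < r₀ / 2) (u : V) (hu : ‖u‖ = 1)
    (hW : ∃ v : Pl u, v ≠ 0) (p : Pl u) {b t : ℝ} (hfib : fib K u p = Icc b t) (hbt : b < t)
    {fA zA fB zB : V} (hnA : IsNormal K fA zA) (hnB : IsNormal K fB zB)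
    (hpS : p ∈ Shadow K u) (hcase : closedBall p η ⊆ Shadow K u)
    (hgood : ∀ y₀ : Pl u, y₀ ∈ Shadow K u → (∀ c : ℝ, 1 < c → p + c • (y₀ - p) ∉ Shadow K u) →
      closedBall ((1 / 2 : ℝ) • p + (1 / 2 : ℝ) • y₀) r₁ ⊆ Shadow K u →
      ∀ c, c ∈ fib K u y₀ → ⟪fA, zA⟫ - ε ≤ ⟪fA, (y₀ : V) + c • u⟫ ∧
        ⟪fB, zB⟫ - ε ≤ ⟪fB, (y₀ : V) + c • u⟫)
    (hAK : (p : V) + t • u ∈ K) (hBK : (p : V) + b • u ∈ K)
    (hdB : r₀ ≤ ⟪fA, zA⟫ - ⟪fA, (p : V) + b • u⟫) (hdA : r₀ ≤ ⟪fB, zB⟫ - ⟪fB, (p : V) + t • u⟫) :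
    False := by
  have hSc := isCompact_shadow hc u
  have hSconv := convex_shadow hK u
  set A : V := (p : V) + t • u with hAdef
  set B : V := (p : V) + b • u with hBdef
  set MA := ⟪fA, zA⟫ with hMA
  set MB := ⟪fB, zB⟫ with hMB
  obtain ⟨v₀, hv₀⟩ := hW
  have hv₀n : 0 < ‖v₀‖ := norm_pos_iff.mpr hv₀
  set v : Pl u := (η / ‖v₀‖) • v₀ with hv
  have hvn : ‖v‖ = η := by
    rw [hv, norm_smul, Real.norm_of_nonneg (by positivity)]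
    field_simp
  have hvne : v ≠ 0 := by
    intro h
    rw [h, norm_zero] at hvn
    linarith
  have hp1 : p + v ∈ Shadow K u := hcase (by
    rw [mem_closedBall, dist_eq_norm, add_sub_cancel_left, hvn])
  have hp2 : p + (-v) ∈ Shadow K u := hcase (by
    rw [mem_closedBall, dist_eq_norm, add_sub_cancel_left, norm_neg, hvn])
  obtain ⟨l₁, hl₁, hy₁, hrim₁⟩ := exists_rim hSc hSconv hvne hpS hp1
  obtain ⟨l₂, hl₂, hy₂, hrim₂⟩ := exists_rim hSc hSconv (neg_ne_zero.mpr hvne) hpS hp2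
  set y₁ := p + l₁ • v with hy₁def
  set y₂ := p + l₂ • (-v) with hy₂def
  have hdisc : ∀ y : Pl u, y ∈ Shadow K u →
      closedBall ((1 / 2 : ℝ) • p + (1 / 2 : ℝ) • y) r₁ ⊆ Shadow K u := by
    intro y hy
    have h1 := closedBall_comb_subset hSconv hy hcase (μ := 1 / 2) (by norm_num) (by norm_num)
    have h2 : (1 - (1 / 2 : ℝ)) • y + (1 / 2 : ℝ) • p = (1 / 2 : ℝ) • p + (1 / 2 : ℝ) • y := by
      rw [add_comm]
      congr 2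
      norm_num
    rw [h2] at h1
    refine (closedBall_subset_closedBall ?_).trans h1
    linarith
  obtain ⟨c₁, hc₁⟩ := (mem_image_iff_fib K u hu y₁).mp hy₁
  obtain ⟨c₂, hc₂⟩ := (mem_image_iff_fib K u hu y₂).mp hy₂
  have hg₁ := hgood y₁ hy₁ hrim₁ (hdisc y₁ hy₁) c₁ hc₁
  have hg₂ := hgood y₂ hy₂ hrim₂ (hdisc y₂ hy₂) c₂ hc₂
  have hl0 : 0 < l₁ + l₂ := by linarith
  set w₁ := l₂ / (l₁ + l₂) with hw₁
  set w₂ := l₁ / (l₁ + l₂) with hw₂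
  have hw₁0 : 0 ≤ w₁ := by
    apply div_nonneg (by linarith) hl0.le
  have hw₂0 : 0 ≤ w₂ := by
    apply div_nonneg (by linarith) hl0.le
  have hw : w₁ + w₂ = 1 := by
    rw [hw₁, hw₂]; field_simp; ring
  have hyp : w₁ • y₁ + w₂ • y₂ = p := by
    have e1 : w₁ * l₁ = w₂ * l₂ := by
      rw [hw₁, hw₂]; field_simp
    have e2 : w₁ • y₁ + w₂ • y₂ = (w₁ + w₂) • p + (w₁ * l₁ - w₂ * l₂) • v := by
      rw [hy₁def, hy₂def]
      module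
    rw [e2, hw, e1, sub_self, one_smul, zero_smul, add_zero]
  have htc := fib_comb hK u hc₁ hc₂ hw₁0 hw₂0 hw
  rw [hyp, hfib] at htc
  set tc := w₁ * c₁ + w₂ * c₂ with htcdef
  have hcomb : ∀ f : V, ⟪f, (p : V)⟫ + tc * ⟪f, u⟫ =
      w₁ * ⟪f, (y₁ : V) + c₁ • u⟫ + w₂ * ⟪f, (y₂ : V) + c₂ • u⟫ := by
    intro f
    have e1 : (p : V) = w₁ • (y₁ : V) + w₂ • (y₂ : V) := by
      conv_lhs => rw [← hyp]
      simp only [Submodule.coe_add, Submodule.coe_smul]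
    rw [inner_add_right, inner_add_right, inner_smul_right, inner_smul_right, e1,
      inner_add_right, inner_smul_right, inner_smul_right, htcdef]
    ring
  have hAexp : ∀ f : V, ⟪f, A⟫ = ⟪f, (p : V)⟫ + t * ⟪f, u⟫ := by
    intro f
    rw [hAdef, inner_add_right, inner_smul_right]
  have hBexp : ∀ f : V, ⟪f, B⟫ = ⟪f, (p : V)⟫ + b * ⟪f, u⟫ := by
    intro f
    rw [hBdef, inner_add_right, inner_smul_right]
  have hk1 : MA - ε ≤ ⟪fA, (p : V)⟫ + tc * ⟪fA, u⟫ := by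
    rw [hcomb]
    have h1 := mul_le_mul_of_nonneg_left hg₁.1 hw₁0
    have h2 := mul_le_mul_of_nonneg_left hg₂.1 hw₂0
    have h3 : w₁ * (MA - ε) + w₂ * (MA - ε) = MA - ε := by
      rw [← add_mul, hw, one_mul]
    linarith
  have hk2 : MB - ε ≤ ⟪fB, (p : V)⟫ + tc * ⟪fB, u⟫ := by
    rw [hcomb]
    have h1 := mul_le_mul_of_nonneg_left hg₁.2 hw₁0
    have h2 := mul_le_mul_of_nonneg_left hg₂.2 hw₂0
    have h3 : w₁ * (MB - ε) + w₂ * (MB - ε) = MB - ε := by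
      rw [← add_mul, hw, one_mul]
    linarith
  have hAle : ⟪fA, A⟫ ≤ MA := hnA.2.2 A hAK
  have hBle : ⟪fB, B⟫ ≤ MB := hnB.2.2 B hBK
  have hab : 0 < t - b := by linarith
  have ht1 : 0 ≤ t - tc := by linarith [htc.2]
  have ht2 : 0 ≤ tc - b := by linarith [htc.1]
  have hk3 : (t - tc) * r₀ ≤ (t - b) * ε := by
    have e : (t - b) * (⟪fA, (p : V)⟫ + tc * ⟪fA, u⟫) =
        (tc - b) * ⟪fA, A⟫ + (t - tc) * ⟪fA, B⟫ := by
      rw [hAexp, hBexp]; ring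
    have h1 := mul_le_mul_of_nonneg_left hk1 hab.le
    rw [e] at h1
    have h2 := mul_le_mul_of_nonneg_left hAle ht2
    have h3 := mul_le_mul_of_nonneg_left hdB ht1
    linarith
  have hk4 : (tc - b) * r₀ ≤ (t - b) * ε := by
    have e : (t - b) * (⟪fB, (p : V)⟫ + tc * ⟪fB, u⟫) =
        (tc - b) * ⟪fB, A⟫ + (t - tc) * ⟪fB, B⟫ := by
      rw [hAexp, hBexp]; ring
    have h1 := mul_le_mul_of_nonneg_left hk2 hab.le
    rw [e] at h1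
    have h2 := mul_le_mul_of_nonneg_left hBle ht1
    have h3 := mul_le_mul_of_nonneg_left hdA ht2
    linarith
  have hk5 : (t - b) * r₀ ≤ (t - b) * (2 * ε) := by linarith
  have hk6 := le_of_mul_le_mul_left hk5 hab
  linarith

/-- The near case: `p` is near the rim of the shadow, so there is an almost common normal. -/
theorem case_near {K : Set V} (hc : IsCompact K) (hK : Convex ℝ K) {r₀ R₀ κ ρ ζ : ℝ}
    (hζ0 : 0 < ζ) (hζ1 : ζ < 1) (hζρ : 2 * ζ ^ 2 < ρ) (hζr : ζ ^ 4 + 2 * ((κ + 2 * ζ) * R₀) < r₀)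
    (hout : ∀ x ∈ K, ‖x‖ ≤ R₀) (u : V) (hu : ‖u‖ = 1) (p : Pl u) {b t : ℝ}
    (hRegA : Reg K κ ρ ((p : V) + t • u))
    {fA zA : V} (hnA : IsNormal K fA zA) (hzA : ‖zA - ((p : V) + t • u)‖ < ρ)
    (hpS : p ∈ Shadow K u) (hcase : ¬ closedBall p (ζ ^ 4) ⊆ Shadow K u)
    (hAK : (p : V) + t • u ∈ K) (hBK : (p : V) + b • u ∈ K)
    (hdB : r₀ ≤ ⟪fA, zA⟫ - ⟪fA, (p : V) + b • u⟫) : False := by
  have hSc := isCompact_shadow hc u
  have hSconv := convex_shadow hK u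
  set A : V := (p : V) + t • u with hAdef
  set B : V := (p : V) + b • u with hBdef
  set MA := ⟪fA, zA⟫ with hMA
  rw [Set.not_subset] at hcase
  obtain ⟨y₁, hy₁b, hy₁S⟩ := hcase
  obtain ⟨y₂, ψ, hnψ, -, hψeq, hψpos⟩ := exists_normal hSc hSconv hpS hy₁S
  set Mψ := ⟪ψ, y₂⟫ with hMψ
  have hψn : ‖(ψ : V)‖ = 1 := hnψ.2.1
  have hψu : ⟪(ψ : V), u⟫ = 0 := by
    rw [real_inner_comm]
    exact inner_y_u u ψ
  have hKψ : ∀ x ∈ K, ⟪(ψ : V), x⟫ ≤ Mψ := by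
    intro x hx
    have h1 := hnψ.2.2 _ (⟨x, hx, rfl⟩ : (ℝ ∙ u)ᗮ.orthogonalProjectionOnto x ∈ Shadow K u)
    have h2 := fiber_decomp u hu x
    have h3 : ⟪(ψ : V), x⟫ = ⟪ψ, (ℝ ∙ u)ᗮ.orthogonalProjectionOnto x⟫ := by
      conv_lhs => rw [← h2]
      rw [inner_add_right, inner_smul_right, hψu, mul_zero, add_zero]
      rfl
    rw [h3]
    exact h1
  have hψy₁ : Mψ ≤ ⟪ψ, y₁⟫ := by
    have h1 : ⟪ψ, y₁ - y₂⟫ = ‖y₁ - y₂‖ := by
      conv_lhs => rw [hψeq]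
      rw [inner_smul_right, real_inner_self_eq_norm_sq, hnψ.2.1]
      simp
    rw [inner_sub_right] at h1
    linarith [norm_nonneg (y₁ - y₂)]
  have hψp : Mψ - ζ ^ 4 ≤ ⟪(ψ : V), (p : V)⟫ := by
    have h1 : ⟪ψ, y₁ - p⟫ ≤ ‖y₁ - p‖ := hnψ.inner_le_norm _
    have h2 : ‖y₁ - p‖ ≤ ζ ^ 4 := by
      simpa [dist_eq_norm] using hy₁b
    rw [inner_sub_right] at h1
    have h3 : ⟪(ψ : V), (p : V)⟫ = ⟪ψ, p⟫ := rfl
    rw [h3]
    linarith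
  have hψA : ⟪(ψ : V), A⟫ = ⟪(ψ : V), (p : V)⟫ := by
    rw [hAdef, inner_add_right, inner_smul_right, hψu, mul_zero, add_zero]
  have hψB : ⟪(ψ : V), B⟫ = ⟪(ψ : V), (p : V)⟫ := by
    rw [hBdef, inner_add_right, inner_smul_right, hψu, mul_zero, add_zero]
  have hζ2 : 0 < ζ ^ 2 := by positivity
  have hζ42 : ζ ^ 4 < ζ ^ 2 := by
    have h : ζ ^ 2 < 1 := by
      have := mul_lt_mul'' hζ1 hζ1 hζ0.le hζ0.le
      rw [one_mul] at this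
      rwa [sq]
    calc ζ ^ 4 = ζ ^ 2 * ζ ^ 2 := by ring
      _ < 1 * ζ ^ 2 := mul_lt_mul_of_pos_right h hζ2
      _ = ζ ^ 2 := one_mul _
  set x₀ : V := A + ζ ^ 2 • (ψ : V) with hx₀
  have hψx₀ : ⟪(ψ : V), x₀⟫ = ⟪(ψ : V), (p : V)⟫ + ζ ^ 2 := by
    rw [hx₀, inner_add_right, hψA, inner_smul_right, real_inner_self_eq_norm_sq, hψn]
    ring
  have hx₀K : x₀ ∉ K := by
    intro h
    have := hKψ _ h
    linarith
  obtain ⟨z', f', hn', hle', heq', hpos'⟩ := exists_normal hc hK hAK hx₀K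
  have hx₀A : ‖x₀ - A‖ = ζ ^ 2 := by
    rw [hx₀, add_sub_cancel_left, norm_smul, hψn, mul_one, Real.norm_of_nonneg hζ2.le]
  rw [hx₀A] at hle'
  have hz'A : ‖z' - A‖ < ρ := by
    have h3 : z' - A = (x₀ - A) - (x₀ - z') := by abel
    rw [h3]
    refine lt_of_le_of_lt (norm_sub_le _ _) ?_
    rw [hx₀A]
    linarith
  have hff := hRegA _ _ _ _ hnA hn' hzA hz'A
  set n := ‖x₀ - z'‖ with hn
  have hψf : 1 - ζ ^ 2 ≤ ⟪(ψ : V), f'⟫ := by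
    have h1 : ⟪(ψ : V), x₀ - z'⟫ = n * ⟪(ψ : V), f'⟫ := by
      conv_lhs => rw [heq']
      rw [inner_smul_right]
    rw [inner_sub_right, hψx₀] at h1
    have h2 := hKψ z' hn'.1
    have h3 : ζ ^ 2 - ζ ^ 4 ≤ n * ⟪(ψ : V), f'⟫ := by linarith
    have h4 : 0 < ⟪(ψ : V), f'⟫ := by
      by_contra hcon
      push Not at hcon
      have : n * ⟪(ψ : V), f'⟫ ≤ 0 := mul_nonpos_of_nonneg_of_nonpos hpos'.le hcon
      linarith
    have h5 : n * ⟪(ψ : V), f'⟫ ≤ ζ ^ 2 * ⟪(ψ : V), f'⟫ :=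
      mul_le_mul_of_nonneg_right hle' h4.le
    have h6 : ζ ^ 2 * (1 - ζ ^ 2) ≤ ζ ^ 2 * ⟪(ψ : V), f'⟫ := by nlinarith
    exact le_of_mul_le_mul_left h6 hζ2
  have hψf2 : ‖(ψ : V) - f'‖ ≤ 2 * ζ := by
    have h1 : ‖(ψ : V) - f'‖ ^ 2 = 2 - 2 * ⟪(ψ : V), f'⟫ := by
      rw [norm_sub_sq_real, hψn, hn'.2.1]
      ring
    apply (abs_le_of_sq_le_sq' _ (by positivity)).2
    rw [h1]
    nlinarith
  have hκ₁ : ‖(ψ : V) - fA‖ ≤ κ + 2 * ζ := by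
    have h3 : (ψ : V) - fA = ((ψ : V) - f') - (fA - f') := by abel
    rw [h3]
    refine (norm_sub_le _ _).trans ?_
    linarith
  have h7 := inner_sub_le_of_norm (f := (ψ : V)) (f' := fA) (x := zA) hκ₁ (hout zA hnA.1)
  have h8 := inner_sub_le_of_norm (f := fA) (f' := (ψ : V)) (x := B) (κ := κ + 2 * ζ) (R := R₀)
    (by rw [norm_sub_rev]; exact hκ₁) (hout B hBK)
  have h9 := hKψ zA hnA.1
  rw [hψB] at h8
  have : MA - ⟪fA, B⟫ ≤ ζ ^ 4 + 2 * ((κ + 2 * ζ) * R₀) := by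
    linarith
  linarith

theorem key_det {K : Set V} (hc : IsCompact K) (hK : Convex ℝ K) {r₀ R₀ κ ρ δ s₀ ζ r₁ : ℝ}
    (hr₀ : 0 < r₀) (hκ : 0 ≤ κ) (hδ : 0 < δ) (hs₀ : 0 < s₀) (hs₁ : s₀ ≤ 1)
    (hnear : 4 * δ + s₀ * (2 * R₀) < ρ)
    (hε : 4 * δ / s₀ + 2 * (κ * R₀) < r₀ / 2) (hδr : 2 * δ ≤ r₀ / 2)
    (hζ0 : 0 < ζ) (hζ1 : ζ < 1) (hζρ : 2 * ζ ^ 2 < ρ) (hζr : ζ ^ 4 + 2 * ((κ + 2 * ζ) * R₀) < r₀)
    (hr₁4 : r₁ ≤ r₀ / 4) (hr₁η : r₁ ≤ ζ ^ 4 / 2)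
    (hin : closedBall 0 r₀ ⊆ K) (hout : ∀ x ∈ K, ‖x‖ ≤ R₀) (u : V) (hu : ‖u‖ = 1)
    (hW : ∃ v : Pl u, v ≠ 0)
    (p : Pl u) {b t : ℝ} (hfib : fib K u p = Icc b t) (hbt : b < t)
    (hX : MidBound K u p r₁ (t - b) δ)
    (hRegA : Reg K κ ρ ((p : V) + t • u)) (hRegB : Reg K κ ρ ((p : V) + b • u)) : False := by
  have htf : t ∈ fib K u p := by rw [hfib]; exact right_mem_Icc.mpr hbt.le
  have hbf : b ∈ fib K u p := by rw [hfib]; exact left_mem_Icc.mpr hbt.le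
  have hAK : (p : V) + t • u ∈ K := htf
  have hBK : (p : V) + b • u ∈ K := hbf
  have hR₀ : 0 ≤ R₀ := (norm_nonneg _).trans (hout _ hAK)
  have hAout : (p : V) + t • u + δ • u ∉ K := by
    intro h
    have h1 : t + δ ∈ fib K u p := by
      show (p : V) + (t + δ) • u ∈ K
      rw [add_smul, ← add_assoc]
      exact h
    rw [hfib] at h1
    linarith [h1.2]
  have hBout : (p : V) + b • u + δ • (-u) ∉ K := by
    intro h
    have h1 : b - δ ∈ fib K u p := by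
      show (p : V) + (b - δ) • u ∈ K
      rw [sub_smul, sub_eq_add_neg, ← add_assoc, ← smul_neg]
      exact h
    rw [hfib] at h1
    linarith [h1.1]
  have hnegu : ‖-u‖ = 1 := by rw [norm_neg, hu]
  obtain ⟨zA, fA, hnA, hleA, -, -⟩ := exists_normal hc hK hAK hAout
  obtain ⟨zB, fB, hnB, hleB, -, -⟩ := exists_normal hc hK hBK hBout
  have hδρ : 2 * δ < ρ := by
    have : 0 ≤ s₀ * (2 * R₀) := by positivity
    linarith
  have hzA2 : ‖zA - ((p : V) + t • u)‖ ≤ 2 * δ := by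
    rw [add_sub_cancel_left, norm_smul, hu, mul_one, Real.norm_of_nonneg hδ.le] at hleA
    have h3 : zA - ((p : V) + t • u) = δ • u - ((p : V) + t • u + δ • u - zA) := by abel
    rw [h3]
    refine (norm_sub_le _ _).trans ?_
    rw [norm_smul, hu, mul_one, Real.norm_of_nonneg hδ.le]
    linarith
  have hzB2 : ‖zB - ((p : V) + b • u)‖ ≤ 2 * δ := by
    rw [add_sub_cancel_left, norm_smul, hnegu, mul_one, Real.norm_of_nonneg hδ.le] at hleB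
    have h3 : zB - ((p : V) + b • u) = δ • (-u) - ((p : V) + b • u + δ • (-u) - zB) := by abel
    rw [h3]
    refine (norm_sub_le _ _).trans ?_
    rw [norm_smul, hnegu, mul_one, Real.norm_of_nonneg hδ.le]
    linarith
  have hzA : ‖zA - ((p : V) + t • u)‖ < ρ := by linarith
  have hzB : ‖zB - ((p : V) + b • u)‖ < ρ := by linarith
  have hAtop : ⟪fA, zA⟫ - 2 * δ ≤ ⟪fA, (p : V) + t • u⟫ := by
    have := hnA.sub_le (x := (p : V) + t • u)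
    linarith
  have hBtop : ⟪fB, zB⟫ - 2 * δ ≤ ⟪fB, (p : V) + b • u⟫ := by
    have := hnB.sub_le (x := (p : V) + b • u)
    linarith
  have hgood := good_rim hc hK hδ hs₀ hs₁ hnear hout u hu p htf hbf hX hRegA hRegB hnA hnB hzA hzB
  have hdB : r₀ ≤ ⟪fA, zA⟫ - ⟪fA, (p : V) + b • u⟫ :=
    width_end hc hK hδ.le hr₀ hr₁4 hin u hu p hfib hbt.le hX hnA hδr hε (Or.inl ⟨rfl, rfl⟩) hAtop
      (fun y₀ hy₀ hrim hdisc c hcf => (hgood y₀ hy₀ hrim hdisc c hcf).1)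
  have hdA : r₀ ≤ ⟪fB, zB⟫ - ⟪fB, (p : V) + t • u⟫ :=
    width_end hc hK hδ.le hr₀ hr₁4 hin u hu p hfib hbt.le hX hnB hδr hε (Or.inr ⟨rfl, rfl⟩) hBtop
      (fun y₀ hy₀ hrim hdisc c hcf => (hgood y₀ hy₀ hrim hdisc c hcf).2)
  have hpS : p ∈ Shadow K u := by
    rw [mem_image_iff_fib K u hu]
    exact ⟨b, hbf⟩
  have hζ4 : 0 < ζ ^ 4 := by positivity
  by_cases hcase : closedBall p (ζ ^ 4) ⊆ Shadow K u
  · exact case_far hc hK hr₀ hζ4 hr₁η hε u hu hW p hfib hbt hnA hnB hpS hcase hgood hAK hBK hdB hdA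
  · exact case_near hc hK hζ0 hζ1 hζρ hζr hout u hu p hRegA hnA hzA hpS hcase hAK hBK hdB

end Vale.Agent.Lib.P243
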