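import Vale.Agent.Lib.P243.Dual

open MeasureTheory Module Set Metric Filter
open scoped ENNReal RealInnerProductSpace Pointwise Topology

namespace Vale.Agent.Lib.P243

set_option linter.unusedSectionVars false

variable {V : Type*} [NormedAddCommGroup V] [InnerProductSpace ℝ V] [FiniteDimensional ℝ V]
  [MeasurableSpace V] [BorelSpace V]

theorem chord_real {K : Set V} (hc : IsCompact K) (hK : Convex ℝ K) (u : V) (hu : ‖u‖ = 1)
    (hdim : finrank ℝ (Pl u) = 2) (p : Pl u) {b t : ℝ} (hfib : fib K u p = Icc b t) (hbt : b ≤ t) :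
    (t - b) * (volume (Shadow K u)).toReal ≤ 3 * (volume K).toReal := by
  have hKtop : volume K ≠ ⊤ := hc.measure_lt_top.ne
  have hStop : volume (Shadow K u) ≠ ⊤ := (isCompact_shadow hc u).measure_lt_top.ne
  rcases hbt.eq_or_lt with rfl | hlt
  · simp
  have hlen : len K u p = t - b := len_of_Icc hbt hfib
  have ha0 : 0 < t - b := by linarith
  have hpS : p ∈ Shadow K u := by
    rw [mem_image_iff_fib K u hu, hfib]
    exact ⟨b, left_mem_Icc.mpr hbt⟩
  have h := volume_K_ge_cone hc hK u hu hdim hpS (by rw [hlen]; exact ha0)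
  rw [hlen] at h
  set vS := (volume (Shadow K u)).toReal with hvS
  have hvS0 : 0 ≤ vS := ENNReal.toReal_nonneg
  have e1 : volume (Shadow K u) / 3 = ENNReal.ofReal (vS / 3) := by
    rw [ENNReal.ofReal_div_of_pos (by norm_num), hvS, ENNReal.ofReal_toReal hStop]
    simp
  rw [e1, ← ENNReal.ofReal_mul ha0.le, ENNReal.ofReal_le_iff_le_toReal hKtop] at h
  linarith

theorem chord_le_two {K : Set V} {R₀ : ℝ} (hout : ∀ x ∈ K, ‖x‖ ≤ R₀) (u : V) (hu : ‖u‖ = 1)
    (p : Pl u) {b t : ℝ} (hbt : b ≤ t) (htf : t ∈ fib K u p) (hbf : b ∈ fib K u p) :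
    t - b ≤ 2 * R₀ := by
  have hAK : (p : V) + t • u ∈ K := htf
  have hBK : (p : V) + b • u ∈ K := hbf
  have h1 := hout _ hAK
  have h2 := hout _ hBK
  have h4 : (t - b) • u = ((p : V) + t • u) - ((p : V) + b • u) := by
    rw [sub_smul]; abel
  have h5 : ‖(t - b) • u‖ = t - b := by
    rw [norm_smul, hu, mul_one, Real.norm_of_nonneg (by linarith)]
  rw [← h5, h4]
  refine (norm_sub_le _ _).trans ?_
  linarith

/-- A point of a chord within `ρ` of a non-regular end lies in the singular set. -/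
theorem wt_le_of_not_reg {K E : Set V} {κ ρ c t₀ t' : ℝ} (hE : Sing K κ (2 * ρ) ⊆ E) (u : V)
    (hu : ‖u‖ = 1) (p : Pl u) (hreg : ¬ Reg K κ ρ ((p : V) + t₀ • u))
    (hK : (p : V) + t' • u ∈ K) (hclose : |t' - t₀| ≤ ρ) :
    wt E c ((p : V) + t' • u) ≤ ENNReal.ofReal (1 - c) := by
  classical
  unfold Reg at hreg
  push Not at hreg
  obtain ⟨z₁, z₂, f₁, f₂, hn₁, hn₂, hd₁, hd₂, hsep⟩ := hreg
  have hd : ‖((p : V) + t₀ • u) - ((p : V) + t' • u)‖ ≤ ρ := by
    have e1 : ((p : V) + t₀ • u) - ((p : V) + t' • u) = (t₀ - t') • u := by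
      rw [sub_smul]; abel
    rw [e1, norm_smul, hu, mul_one, Real.norm_eq_abs, abs_sub_comm]
    exact hclose
  have hx : (p : V) + t' • u ∈ Sing K κ (2 * ρ) := by
    refine ⟨hK, z₁, z₂, f₁, f₂, hn₁, hn₂, ?_, ?_, hsep⟩
    · have e : z₁ - ((p : V) + t' • u) = (z₁ - ((p : V) + t₀ • u)) + (((p : V) + t₀ • u) - ((p : V) + t' • u)) := by
        abel
      rw [e]
      refine lt_of_le_of_lt (norm_add_le _ _) ?_
      linarith
    · have e : z₂ - ((p : V) + t' • u) = (z₂ - ((p : V) + t₀ • u)) + (((p : V) + t₀ • u) - ((p : V) + t' • u)) := by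
        abel
      rw [e]
      refine lt_of_le_of_lt (norm_add_le _ _) ?_
      linarith
  unfold wt
  rw [if_pos (hE hx)]

/-- The line integral bound for the two-level weight. -/
theorem line_bound {K : Set V} (hc : IsCompact K) (hK : Convex ℝ K)
    {r₀ R₀ κ ρ δ s₀ ζ r₁ τ θ amin : ℝ}
    (hr₀ : 0 < r₀) (hκ : 0 ≤ κ) (hδ : 0 < δ) (hs₀ : 0 < s₀) (hs₁ : s₀ ≤ 1)
    (hnear : 4 * δ + s₀ * (2 * R₀) < ρ)
    (hε : 4 * δ / s₀ + 2 * (κ * R₀) < r₀ / 2) (hδr : 2 * δ ≤ r₀ / 2)
    (hζ0 : 0 < ζ) (hζ1 : ζ < 1) (hζρ : 2 * ζ ^ 2 < ρ) (hζr : ζ ^ 4 + 2 * ((κ + 2 * ζ) * R₀) < r₀)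
    (hr₁0 : 0 < r₁) (hr₁4 : r₁ ≤ r₀ / 4) (hr₁η : r₁ ≤ ζ ^ 4 / 2)
    (hτ0 : 0 < τ) (hτ : τ ≤ r₁ * δ / (16 * R₀))
    (hin : closedBall 0 r₀ ⊆ K) (hout : ∀ x ∈ K, ‖x‖ ≤ R₀) (u : V) (hu : ‖u‖ = 1)
    (hdim : finrank ℝ (Pl u) = 2)
    (hρ : 0 < ρ) (hR₀ : 0 < R₀) (hθ0 : 0 ≤ θ) (hθ1 : θ ≤ 1) (hcc : R₀ * θ / ρ ≤ 1)
    (hvS : 0 < (volume (Shadow K u)).toReal)
    (hamin : amin * (volume (Shadow K u)).toReal ≤ (3 - θ) * (volume K).toReal)
    (ham1 : 2 * δ ≤ amin) (ham2 : ρ ≤ amin)
    (hθ : θ / 3 * (volume K).toReal < δ / 4 * (τ ^ 2 * Real.pi))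
    {E : Set V} (hE : Sing K κ (2 * ρ) ⊆ E) (y : Pl u) :
    ∫⁻ t in fib K u y, wt E (R₀ * θ / ρ) ((y : V) + t • u) ≤
      ENNReal.ofReal ((3 - θ) * (volume K).toReal / (volume (Shadow K u)).toReal) := by
  set c := R₀ * θ / ρ with hcdef
  set vS := (volume (Shadow K u)).toReal with hvSdef
  set vK := (volume K).toReal with hvKdef
  have hc0 : 0 ≤ c := by positivity
  have hvK0 : 0 ≤ vK := ENNReal.toReal_nonneg
  by_cases hne : (fib K u y).Nonempty
  swap
  · rw [Set.not_nonempty_iff_eq_empty] at hne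
    rw [hne]
    simp
  obtain ⟨b, t, hbt, hfib⟩ := fib_eq_Icc hc hK u hu y hne
  have htf : t ∈ fib K u y := by rw [hfib]; exact right_mem_Icc.mpr hbt
  have hbf : b ∈ fib K u y := by rw [hfib]; exact left_mem_Icc.mpr hbt
  rw [hfib]
  by_cases hcase : (t - b) * vS ≤ (3 - θ) * vK
  · calc ∫⁻ t' in Icc b t, wt E c ((y : V) + t' • u)
        ≤ ∫⁻ _t' in Icc b t, 1 := lintegral_mono fun x => wt_le_one hc0 _
      _ = ENNReal.ofReal (t - b) := by
          rw [lintegral_const, Measure.restrict_apply MeasurableSet.univ, univ_inter, one_mul,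
            Real.volume_Icc]
      _ ≤ _ := by
          apply ENNReal.ofReal_le_ofReal
          rw [le_div_iff₀ hvS]
          exact hcase
  · push Not at hcase
    have hamt : amin < t - b := by
      have : amin * vS < (t - b) * vS := lt_of_le_of_lt hamin hcase
      exact lt_of_mul_lt_mul_right this hvS.le
    have hchord := chord_real hc hK u hu hdim y hfib hbt
    have hle2 := chord_le_two hout u hu y hbt htf hbf
    have hfinish : (t - b) - c * ρ ≤ (3 - θ) * vK / vS := by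
      rw [le_div_iff₀ hvS]
      have e1 : c * ρ = R₀ * θ := by
        rw [hcdef]; field_simp
      rw [e1]
      have h1 : (3 - θ) * vK ≤ 2 * R₀ * vS := by
        have : (t - b) * vS ≤ 2 * R₀ * vS := mul_le_mul_of_nonneg_right hle2 hvS.le
        linarith
      have h2 : vK ≤ R₀ * vS := by
        have : 2 * vK ≤ (3 - θ) * vK := mul_le_mul_of_nonneg_right (by linarith) hvK0
        linarith
      have h3 : θ * vK ≤ θ * (R₀ * vS) := mul_le_mul_of_nonneg_left h2 hθ0
      nlinarith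
    have h2δ : 2 * δ ≤ t - b := by linarith
    have hρa : ρ ≤ t - b := by linarith
    by_cases hRA : Reg K κ ρ ((y : V) + t • u)
    · by_cases hRB : Reg K κ ρ ((y : V) + b • u)
      · exact (key_chord hc hK hr₀ hκ hδ hs₀ hs₁ hnear hε hδr hζ0 hζ1 hζρ hζr hr₁0 hr₁4 hr₁η hτ0 hτ
          hin hout u hu hdim y hfib h2δ hcase.le hθ hRA hRB).elim
      · have h := lintegral_two_level (f := fun t' => wt E c ((y : V) + t' • u)) (b := b) (t := t)
          (j₁ := b) (j₂ := b + ρ) (c := c) (le_refl _) (by linarith) (by linarith) hcc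
          (fun x => wt_le_one hc0 _) (by
            intro x hx
            apply wt_le_of_not_reg hE u hu y hRB
            · have : x ∈ fib K u y := by
                rw [hfib]
                exact ⟨hx.1, by linarith [hx.2]⟩
              exact this
            · rw [abs_of_nonneg (by linarith [hx.1])]
              linarith [hx.2])
        refine h.trans (ENNReal.ofReal_le_ofReal ?_)
        have : b + ρ - b = ρ := by ring
        rw [this]
        exact hfinish
    · have h := lintegral_two_level (f := fun t' => wt E c ((y : V) + t' • u)) (b := b) (t := t)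
        (j₁ := t - ρ) (j₂ := t) (c := c) (by linarith) (by linarith) (le_refl _) hcc
        (fun x => wt_le_one hc0 _) (by
          intro x hx
          apply wt_le_of_not_reg hE u hu y hRA
          · have : x ∈ fib K u y := by
              rw [hfib]
              exact ⟨by linarith [hx.1], hx.2⟩
            exact this
          · rw [abs_sub_comm, abs_of_nonneg (by linarith [hx.2])]
            linarith [hx.1])
      refine h.trans (ENNReal.ofReal_le_ofReal ?_)
      have : t - (t - ρ) = ρ := by ring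
      rw [this]
      exact hfinish

end Vale.Agent.Lib.P243
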