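import Vale.Agent.Lib.P243.Normalized

open MeasureTheory Module Set Metric Filter
open scoped ENNReal RealInnerProductSpace Pointwise Topology

namespace Vale.Agent.Lib.P243

set_option linter.unusedSectionVars false

variable {V : Type*} [NormedAddCommGroup V] [InnerProductSpace ℝ V] [FiniteDimensional ℝ V]
  [MeasurableSpace V] [BorelSpace V]

/-- The main inequality for a normalized body, with all parameters free. -/
theorem main_param {ι : Type*} [Fintype ι] {K : Set V} (hdim : finrank ℝ V = 3)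
    (hc : IsCompact K) (hK : Convex ℝ K)
    {r₀ R₀ κ ρ δ s₀ ζ r₁ τ θ T β : ℝ} {N m : ℕ}
    (hr₀ : 0 < r₀) (hR₀ : 0 < R₀) (hκ : 0 ≤ κ) (hδ : 0 < δ) (hs₀ : 0 < s₀) (hs₁ : s₀ ≤ 1)
    (hnear : 4 * δ + s₀ * (2 * R₀) < ρ)
    (hε : 4 * δ / s₀ + 2 * (κ * R₀) < r₀ / 2) (hδr : 2 * δ ≤ r₀ / 2)
    (hζ0 : 0 < ζ) (hζ1 : ζ < 1) (hζρ : 2 * ζ ^ 2 < ρ) (hζr : ζ ^ 4 + 2 * ((κ + 2 * ζ) * R₀) < r₀)
    (hr₁0 : 0 < r₁) (hr₁4 : r₁ ≤ r₀ / 4) (hr₁η : r₁ ≤ ζ ^ 4 / 2)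
    (hτ0 : 0 < τ) (hτ : τ ≤ r₁ * δ / (16 * R₀))
    (hρ : 0 < ρ) (hθ0 : 0 ≤ θ) (hθ1 : θ ≤ 1) (hcc : R₀ * θ / ρ ≤ 1)
    (ham1 : 2 * δ ≤ 8 / 3 * r₀ ^ 3 / R₀ ^ 2) (ham2 : ρ ≤ 8 / 3 * r₀ ^ 3 / R₀ ^ 2)
    (hθ' : θ * (4 / 9 * R₀ ^ 3) < δ / 4 * τ ^ 2)
    (hN : 0 < N) (hm : 0 < m) (hT : 0 < T) (hβ : 0 < β) (hmT : m * T ≤ R₀)
    (hτW : 2 * ρ / r₀ ≤ 1 / (4 * N))
    (hβ' : T * (κ / (2 * R₀)) - 2 * (2 * ρ / r₀) ≥ β * T)
    (hvE : R₀ / ρ * (3 * (8 / (N * m) * (2 / (r₀ * β)) * (4 / 3 * (2 * R₀) ^ 3))) ≤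
      1 / 6 * (4 / 3 * r₀ ^ 3))
    (hin : closedBall 0 r₀ ⊆ K) (hout : ∀ x ∈ K, ‖x‖ ≤ R₀)
    (u : ι → V) (hu : ∀ i, ‖u i‖ = 1) (B : ∀ i, Set (Pl (u i)))
    (hcover : K ⊆ ⋃ i, {x | (ℝ ∙ u i)ᗮ.orthogonalProjectionOnto x ∈ B i}) :
    ENNReal.ofReal (1 / 3 + θ / 18) ≤ ∑ i, volume (B i) / volume (Shadow K (u i)) := by
  classical
  have h0 := nhds_of_ball hr₀ hin
  have hKtop : volume K ≠ ⊤ := hc.measure_lt_top.ne
  set b : OrthonormalBasis (Fin 3) ℝ V := (stdOrthonormalBasis ℝ V).reindex (finCongr hdim) with hb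
  set E : Set V := ⋃ j, Wset K (Dset K (b j) T β) (1 / (4 * N)) with hEdef
  have hEcl : ∀ j, IsClosed (Wset K (Dset K (b j) T β) (1 / (4 * N))) := fun j =>
    isClosed_Wset hc hK h0 (isClosed_Dset hK h0 _ _ _) _
  have hEm : MeasurableSet E := MeasurableSet.iUnion fun j => (hEcl j).measurableSet
  have hEK : E ⊆ K := by
    intro x hx
    obtain ⟨j, hj⟩ := mem_iUnion.mp hx
    exact hj.1
  have hSing : Sing K κ (2 * ρ) ⊆ E :=
    sing_subset hK hr₀ hR₀ (by positivity) hT.le hτW hκ hβ' hin hout b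
  set c := R₀ * θ / ρ with hcdef
  have hc0 : 0 ≤ c := by positivity
  obtain ⟨hvK1, hvK2⟩ := vK_bounds hc hdim hr₀.le hR₀.le hin hout
  set vK := (volume K).toReal with hvK
  have hπ : 0 < Real.pi := Real.pi_pos
  have hvK0 : 0 < vK := lt_of_lt_of_le (by positivity) hvK1
  -- the volume of `E`
  have hvE1 : (volume E).toReal ≤ 3 * (8 / (N * m) * (2 / (r₀ * β)) * (4 / 3 * Real.pi * (2 * R₀) ^ 3)) := by
    have hWtop : ∀ j, volume (Wset K (Dset K (b j) T β) (1 / (4 * N))) ≠ ⊤ := fun j =>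
      ne_top_of_le_ne_top hKtop (measure_mono fun x hx => hx.1)
    have hle : volume E ≤ ∑ j, volume (Wset K (Dset K (b j) T β) (1 / (4 * N))) := by
      calc volume E ≤ ∑' j, volume (Wset K (Dset K (b j) T β) (1 / (4 * N))) := measure_iUnion_le _
        _ = _ := tsum_fintype _
    have hle2 := ENNReal.toReal_mono (ENNReal.sum_ne_top.mpr fun j _ => hWtop j) hle
    rw [ENNReal.toReal_sum fun j _ => hWtop j] at hle2
    refine hle2.trans ?_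
    calc ∑ j, (volume (Wset K (Dset K (b j) T β) (1 / (4 * N)))).toReal
        ≤ ∑ _j : Fin 3, (8 / (N * m) * (2 / (r₀ * β)) * (4 / 3 * Real.pi * (2 * R₀) ^ 3)) := by
          apply Finset.sum_le_sum
          intro j _
          exact volume_W_real hc hK hdim hr₀ hR₀ hin hout (b.orthonormal.1 j) hT hβ hN hm hmT
      _ = _ := by simp
  -- the mass
  have hmass := mass_wt hc hEm hEK hc0 hcc
  have hx : c * (volume E).toReal ≤ θ / 6 * vK := by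
    have h1 : c * (volume E).toReal ≤
        c * (3 * (8 / (N * m) * (2 / (r₀ * β)) * (4 / 3 * Real.pi * (2 * R₀) ^ 3))) :=
      mul_le_mul_of_nonneg_left hvE1 hc0
    have h2 : c * (3 * (8 / (N * m) * (2 / (r₀ * β)) * (4 / 3 * Real.pi * (2 * R₀) ^ 3))) =
        θ * Real.pi * (R₀ / ρ * (3 * (8 / (N * m) * (2 / (r₀ * β)) * (4 / 3 * (2 * R₀) ^ 3)))) := by
      rw [hcdef]; ring
    have h3 : θ * Real.pi * (R₀ / ρ * (3 * (8 / (N * m) * (2 / (r₀ * β)) * (4 / 3 * (2 * R₀) ^ 3)))) ≤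
        θ * Real.pi * (1 / 6 * (4 / 3 * r₀ ^ 3)) :=
      mul_le_mul_of_nonneg_left hvE (by positivity)
    have h4 : θ / 6 * (4 / 3 * Real.pi * r₀ ^ 3) ≤ θ / 6 * vK :=
      mul_le_mul_of_nonneg_left hvK1 (by positivity)
    have h5 : θ * Real.pi * (1 / 6 * (4 / 3 * r₀ ^ 3)) = θ / 6 * (4 / 3 * Real.pi * r₀ ^ 3) := by ring
    linarith
  have hdual := weak_dual hc u hu B hcover (measurable_wt hEm c) (Λ := ENNReal.ofReal ((3 - θ) * vK)) (by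
    intro i y
    have hdP := finrank_pl hdim (hu i)
    obtain ⟨hvS1, hvS2⟩ := vS_bounds hc hdim hr₀.le hR₀.le hin hout (hu i)
    have hvS : 0 < (volume (Shadow K (u i))).toReal := lt_of_lt_of_le (by positivity) hvS1
    have hStop : volume (Shadow K (u i)) ≠ ⊤ := (isCompact_shadow hc (u i)).measure_lt_top.ne
    have hdivS : ENNReal.ofReal ((3 - θ) * vK) / volume (Shadow K (u i)) =
        ENNReal.ofReal ((3 - θ) * vK / (volume (Shadow K (u i))).toReal) := by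
      rw [ENNReal.ofReal_div_of_pos hvS, ENNReal.ofReal_toReal hStop]
    rw [hdivS]
    refine line_bound hc hK (amin := 8 / 3 * r₀ ^ 3 / R₀ ^ 2) hr₀ hκ hδ hs₀ hs₁ hnear hε hδr hζ0 hζ1 hζρ hζr hr₁0 hr₁4 hr₁η hτ0 hτ hin hout
      (u i) (hu i) hdP hρ hR₀ hθ0 hθ1 hcc hvS ?_ ham1 ham2 ?_ hSing y
    · -- `amin`
      have h1 : 8 / 3 * r₀ ^ 3 / R₀ ^ 2 * (volume (Shadow K (u i))).toReal ≤
          8 / 3 * r₀ ^ 3 / R₀ ^ 2 * (R₀ ^ 2 * Real.pi) :=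
        mul_le_mul_of_nonneg_left hvS2 (by positivity)
      have h2 : 8 / 3 * r₀ ^ 3 / R₀ ^ 2 * (R₀ ^ 2 * Real.pi) = 2 * (4 / 3 * Real.pi * r₀ ^ 3) := by
        field_simp
        ring
      have h3 : 2 * vK ≤ (3 - θ) * vK := mul_le_mul_of_nonneg_right (by linarith) hvK0.le
      linarith
    · -- smallness of `θ`
      have h1 : θ / 3 * vK ≤ θ / 3 * (4 / 3 * Real.pi * R₀ ^ 3) :=
        mul_le_mul_of_nonneg_left hvK2 (by positivity)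
      have h2 : θ / 3 * (4 / 3 * Real.pi * R₀ ^ 3) = Real.pi * (θ * (4 / 9 * R₀ ^ 3)) := by ring
      have h3 : Real.pi * (θ * (4 / 9 * R₀ ^ 3)) < Real.pi * (δ / 4 * τ ^ 2) :=
        mul_lt_mul_of_pos_left hθ' hπ
      have h4 : Real.pi * (δ / 4 * τ ^ 2) = δ / 4 * (τ ^ 2 * Real.pi) := by ring
      linarith)
  exact rel_of_dual hvK0 hθ0 hθ1 hx (hmass.trans hdual)

end Vale.Agent.Lib.P243
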