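import Vale.Agent.Lib.P243.Chord

open MeasureTheory Module Set Metric
open scoped ENNReal RealInnerProductSpace

namespace Vale.Agent.Lib.P243

set_option linter.unusedSectionVars false

section generic

variable {F : Type*} [NormedAddCommGroup F] [InnerProductSpace ℝ F]

/-- `f` is a unit outer normal of `K` at `z`. -/
def IsNormal (K : Set F) (f z : F) : Prop := z ∈ K ∧ ‖f‖ = 1 ∧ ∀ x ∈ K, ⟪f, x⟫ ≤ ⟪f, z⟫

/-- Normals of `K` at points within `ρ` of `A` are `κ`-close. -/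
def Reg (K : Set F) (κ ρ : ℝ) (A : F) : Prop :=
  ∀ z₁ z₂ f₁ f₂, IsNormal K f₁ z₁ → IsNormal K f₂ z₂ → ‖z₁ - A‖ < ρ → ‖z₂ - A‖ < ρ → ‖f₁ - f₂‖ < κ

/-- Nearest-point construction of a normal. -/
theorem exists_normal {K : Set F} (hc : IsCompact K) (hK : Convex ℝ K) {x₀ w : F}
    (hw : w ∈ K) (hx : x₀ ∉ K) :
    ∃ z f, IsNormal K f z ∧ ‖x₀ - z‖ ≤ ‖x₀ - w‖ ∧ x₀ - z = ‖x₀ - z‖ • f ∧ 0 < ‖x₀ - z‖ := by
  obtain ⟨z, hz, hmin⟩ := exists_norm_eq_iInf_of_complete_convex ⟨w, hw⟩ hc.isComplete hK x₀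
  have hin := (norm_eq_iInf_iff_real_inner_le_zero hK hz).1 hmin
  have hne : x₀ - z ≠ 0 := by
    intro h
    rw [sub_eq_zero] at h
    exact hx (h ▸ hz)
  have hpos : 0 < ‖x₀ - z‖ := norm_pos_iff.mpr hne
  have hle : ‖x₀ - z‖ ≤ ‖x₀ - w‖ := by
    rw [hmin]
    have hbdd : BddBelow (Set.range fun y : K => ‖x₀ - (y : F)‖) :=
      ⟨0, by rintro _ ⟨y, rfl⟩; exact norm_nonneg _⟩
    exact ciInf_le hbdd (⟨w, hw⟩ : K)
  refine ⟨z, ‖x₀ - z‖⁻¹ • (x₀ - z), ⟨hz, ?_, ?_⟩, hle, ?_, hpos⟩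
  · rw [norm_smul, norm_inv, norm_norm, inv_mul_cancel₀ hpos.ne']
  · intro y hy
    have h1 := hin y hy
    rw [inner_sub_right] at h1
    rw [inner_smul_left, inner_smul_left]
    simp only [conj_trivial]
    have h2 : 0 ≤ ‖x₀ - z‖⁻¹ := by positivity
    nlinarith [mul_le_mul_of_nonneg_left (sub_nonpos.mp h1) h2]
  · rw [smul_smul, mul_inv_cancel₀ hpos.ne', one_smul]
  
theorem IsNormal.inner_le_norm {K : Set F} {f z : F} (h : IsNormal K f z) (x : F) :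
    ⟪f, x⟫ ≤ ‖x‖ := by
  have := real_inner_le_norm f x
  rwa [h.2.1, one_mul] at this

/-- A point of `K` within `d` of the contact point almost maximizes the normal. -/
theorem IsNormal.sub_le {K : Set F} {f z x : F} (h : IsNormal K f z) :
    ⟪f, z⟫ - ⟪f, x⟫ ≤ ‖z - x‖ := by
  rw [← inner_sub_right]
  exact h.inner_le_norm _

/-- Comparing the support values of close normals. -/
theorem IsNormal.support_le {K : Set F} {f f' z z' : F} {κ R : ℝ} (h : IsNormal K f z)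
    (h' : IsNormal K f' z') (hκ : ‖f - f'‖ ≤ κ) (hR : ∀ x ∈ K, ‖x‖ ≤ R) :
    ⟪f, z⟫ ≤ ⟪f', z'⟫ + κ * R := by
  have h1 := h'.2.2 z h.1
  have h2 : ⟪f - f', z⟫ ≤ κ * R := by
    calc ⟪f - f', z⟫ ≤ ‖f - f'‖ * ‖z‖ := real_inner_le_norm _ _
      _ ≤ κ * R := by
        apply mul_le_mul hκ (hR z h.1) (norm_nonneg _) ((norm_nonneg _).trans hκ)
  rw [inner_sub_left] at h2
  linarith

theorem inner_sub_le_of_norm {f f' x : F} {κ R : ℝ} (hκ : ‖f - f'‖ ≤ κ) (hR : ‖x‖ ≤ R) :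
    ⟪f', x⟫ - ⟪f, x⟫ ≤ κ * R := by
  have h2 : ⟪f' - f, x⟫ ≤ κ * R := by
    calc ⟪f' - f, x⟫ ≤ ‖f' - f‖ * ‖x‖ := real_inner_le_norm _ _
      _ ≤ κ * R := by
        rw [norm_sub_rev]
        apply mul_le_mul hκ hR (norm_nonneg _) ((norm_nonneg _).trans hκ)
  rwa [inner_sub_left] at h2

/-- If a point of the segment `[A,z]` pushed by `2δ` along a unit vector leaves `K`, there is a
normal near `A` that is almost maximized at `z`. -/
theorem near_top {K : Set F} (hc : IsCompact K) (hK : Convex ℝ K) {A z w : F} (hA : A ∈ K)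
    (hz : z ∈ K) (hw : ‖w‖ = 1) {s δ : ℝ} (hs0 : 0 < s) (hs1 : s ≤ 1) (hδ : 0 ≤ δ)
    (hout : (1 - s) • A + s • z + (2 * δ) • w ∉ K) :
    ∃ z₀ f, IsNormal K f z₀ ∧ ‖z₀ - A‖ ≤ 4 * δ + s * ‖z - A‖ ∧ ⟪f, z₀⟫ - ⟪f, z⟫ ≤ 4 * δ / s := by
  set As := (1 - s) • A + s • z with hAs
  have hAsK : As ∈ K := hK hA hz (by linarith) hs0.le (by ring)
  obtain ⟨z₀, f, hn, hle, -, -⟩ := exists_normal hc hK hAsK hout
  have h1 : ‖As + (2 * δ) • w - As‖ = 2 * δ := by
    rw [add_sub_cancel_left, norm_smul, hw, mul_one, Real.norm_of_nonneg (by positivity)]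
  rw [h1] at hle
  have h2 : ‖z₀ - As‖ ≤ 4 * δ := by
    have h3 : z₀ - As = (2 * δ) • w - (As + (2 * δ) • w - z₀) := by abel
    rw [h3]
    refine (norm_sub_le _ _).trans ?_
    rw [norm_smul, hw, mul_one, Real.norm_of_nonneg (by positivity)]
    linarith
  have h4 : As - A = s • (z - A) := by
    rw [hAs]
    module
  refine ⟨z₀, f, hn, ?_, ?_⟩
  · have h5 : z₀ - A = (z₀ - As) + s • (z - A) := by
      rw [← h4]; abel
    rw [h5]
    refine (norm_add_le _ _).trans ?_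
    rw [norm_smul, Real.norm_of_nonneg hs0.le]
    linarith
  · have h6 : ⟪f, z₀⟫ - ⟪f, As⟫ ≤ ‖z₀ - As‖ := hn.sub_le
    have h7 : ⟪f, As⟫ = (1 - s) * ⟪f, A⟫ + s * ⟪f, z⟫ := by
      rw [hAs, inner_add_right, inner_smul_right, inner_smul_right]
    have h8 : ⟪f, A⟫ ≤ ⟪f, z₀⟫ := hn.2.2 A hA
    rw [le_div_iff₀ hs0]
    have h9 : (1 - s) * ⟪f, A⟫ ≤ (1 - s) * ⟪f, z₀⟫ :=
      mul_le_mul_of_nonneg_left h8 (by linarith)
    nlinarith

/-- The regularity consequence of `near_top`. -/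
theorem top_of_out {K : Set F} (hc : IsCompact K) (hK : Convex ℝ K) {A z w fA zA : F} (hA : A ∈ K)
    (hz : z ∈ K) (hw : ‖w‖ = 1) {s δ κ ρ R : ℝ} (hs0 : 0 < s) (hs1 : s ≤ 1) (hδ : 0 ≤ δ)
    (hout : (1 - s) • A + s • z + (2 * δ) • w ∉ K) (hreg : Reg K κ ρ A) (hR : ∀ x ∈ K, ‖x‖ ≤ R)
    (hnear : 4 * δ + s * (2 * R) < ρ) (hn : IsNormal K fA zA) (hzA : ‖zA - A‖ < ρ) :
    ⟪fA, zA⟫ - ⟪fA, z⟫ ≤ 4 * δ / s + 2 * (κ * R) := by
  obtain ⟨z₀, f, hn₀, h1, h2⟩ := near_top hc hK hA hz hw hs0 hs1 hδ hout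
  have hRnn : 0 ≤ R := (norm_nonneg _).trans (hR A hA)
  have h3 : ‖z - A‖ ≤ 2 * R := by
    refine (norm_sub_le _ _).trans ?_
    linarith [hR z hz, hR A hA]
  have h4 : ‖z₀ - A‖ < ρ := by
    have : s * ‖z - A‖ ≤ s * (2 * R) := mul_le_mul_of_nonneg_left h3 hs0.le
    linarith
  have h5 := hreg _ _ _ _ hn hn₀ hzA h4
  have h6 := hn.support_le hn₀ h5.le hR
  have h7 := inner_sub_le_of_norm (f := fA) (f' := f) (x := z) (κ := κ) (R := R)
    (by rw [norm_sub_rev]; rw [norm_sub_rev]; exact h5.le) (hR z hz)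
  linarith

/-- A convex set containing a ball and a point contains smaller balls on the segment between. -/
theorem closedBall_comb_subset {S : Set F} (hS : Convex ℝ S) {q c : F} {r μ : ℝ}
    (hq : q ∈ S) (hb : closedBall c r ⊆ S) (hμ0 : 0 < μ) (hμ1 : μ ≤ 1) :
    closedBall ((1 - μ) • q + μ • c) (μ * r) ⊆ S := by
  intro y hy
  have h1 : y = (1 - μ) • q + μ • (c + μ⁻¹ • (y - ((1 - μ) • q + μ • c))) := by
    rw [smul_add, smul_smul, mul_inv_cancel₀ hμ0.ne', one_smul]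
    abel
  rw [h1]
  apply hS hq (hb ?_) (by linarith) hμ0.le (by ring)
  rw [mem_closedBall_iff_norm] at hy ⊢
  rw [add_sub_cancel_left, norm_smul, norm_inv, Real.norm_of_nonneg hμ0.le]
  rwa [inv_mul_le_iff₀ hμ0]

/-- The midpoint of a segment through the centre of a ball in a convex set has a ball around it. -/
theorem mid_ball_subset {S : Set F} (hS : Convex ℝ S) {p y₀ c : F} {r s : ℝ} (hr : 0 ≤ r)
    (hp : p ∈ S) (hy₀ : y₀ ∈ S) (hb : closedBall c r ⊆ S) (hs0 : 0 < s) (hs1 : s ≤ 1)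
    (hc : c = (1 - s) • p + s • y₀) :
    closedBall ((1 / 2 : ℝ) • p + (1 / 2 : ℝ) • y₀) (r / 2) ⊆ S := by
  rcases le_total (1 / 2) s with h | h
  · -- `s ≥ 1/2`
    set μ := 1 / (2 * s) with hμ
    have hμ0 : 0 < μ := by positivity
    have hμ1 : μ ≤ 1 := by
      rw [hμ, div_le_one (by positivity)]
      linarith
    have hμ2 : 1 / 2 ≤ μ := by
      rw [hμ, div_le_div_iff₀ (by norm_num) (by positivity)]
      linarith
    have h1 := closedBall_comb_subset hS hp hb hμ0 hμ1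
    have h2 : (1 - μ) • p + μ • c = (1 / 2 : ℝ) • p + (1 / 2 : ℝ) • y₀ := by
      rw [hc, smul_add, smul_smul, smul_smul, ← add_assoc, ← add_smul]
      have e1 : 1 - μ + μ * (1 - s) = 1 / 2 := by
        rw [hμ]; field_simp; ring
      have e2 : μ * s = 1 / 2 := by
        rw [hμ]; field_simp
      rw [e1, e2]
    rw [h2] at h1
    refine (closedBall_subset_closedBall ?_).trans h1
    nlinarith
  · -- `s ≤ 1/2`
    have hs' : 0 < 1 - s := by linarith
    set μ := 1 / (2 * (1 - s)) with hμ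
    have hμ0 : 0 < μ := by positivity
    have hμ1 : μ ≤ 1 := by
      rw [hμ, div_le_one (by positivity)]
      linarith
    have hμ2 : 1 / 2 ≤ μ := by
      rw [hμ, div_le_div_iff₀ (by norm_num) (by positivity)]
      linarith
    have h1 := closedBall_comb_subset hS hy₀ hb hμ0 hμ1
    have h2 : (1 - μ) • y₀ + μ • c = (1 / 2 : ℝ) • p + (1 / 2 : ℝ) • y₀ := by
      rw [hc, smul_add, smul_smul, smul_smul, add_comm ((μ * (1 - s)) • p), ← add_assoc, ← add_smul,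
        add_comm]
      have e1 : 1 - μ + μ * s = 1 / 2 := by
        have e3 : μ * (1 - s) = 1 / 2 := by
          rw [hμ]; field_simp
        linarith
      have e2 : μ * (1 - s) = 1 / 2 := by
        rw [hμ]; field_simp
      rw [e1, e2]
    rw [h2] at h1
    refine (closedBall_subset_closedBall ?_).trans h1
    nlinarith

/-- Rim points along a ray. -/
theorem exists_rim {S : Set F} (hSc : IsCompact S) (hS : Convex ℝ S) {p v : F} (hv : v ≠ 0)
    (hp : p ∈ S) (hpv : p + v ∈ S) :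
    ∃ lam : ℝ, 1 ≤ lam ∧ p + lam • v ∈ S ∧
      ∀ c : ℝ, 1 < c → p + c • ((p + lam • v) - p) ∉ S := by
  have hvn : 0 < ‖v‖ := norm_pos_iff.mpr hv
  obtain ⟨C, hC⟩ := hSc.isBounded.exists_norm_le
  set T : Set ℝ := (fun l : ℝ => p + l • v) ⁻¹' S ∩ Icc 1 ((C + ‖p‖) / ‖v‖ + 1) with hT
  have hTc : IsCompact T := by
    apply IsCompact.inter_left isCompact_Icc
    apply hSc.isClosed.preimage
    fun_prop
  have hT1 : (1 : ℝ) ∈ T := by
    refine ⟨by simpa using hpv, le_refl _, ?_⟩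
    have : 0 ≤ (C + ‖p‖) / ‖v‖ := by
      apply div_nonneg _ hvn.le
      linarith [(norm_nonneg _).trans (hC p hp), norm_nonneg p]
    linarith
  obtain ⟨lam, hlam, hmax⟩ := hTc.exists_isGreatest ⟨1, hT1⟩
  have hlam1 : 1 ≤ lam := hlam.2.1
  refine ⟨lam, hlam1, hlam.1, ?_⟩
  intro c hc hmem
  have h1 : p + c • ((p + lam • v) - p) = p + (c * lam) • v := by
    rw [add_sub_cancel_left, smul_smul]
  rw [h1] at hmem
  have h2 : c * lam ∈ T := by
    refine ⟨hmem, by nlinarith, ?_⟩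
    have h3 : ‖(c * lam) • v‖ ≤ C + ‖p‖ := by
      have : (c * lam) • v = (p + (c * lam) • v) - p := by abel
      rw [this]
      refine (norm_sub_le _ _).trans ?_
      linarith [hC _ hmem]
    rw [norm_smul, Real.norm_of_nonneg (by nlinarith)] at h3
    have h4 : c * lam ≤ (C + ‖p‖) / ‖v‖ := by
      rwa [le_div_iff₀ hvn]
    linarith
  have := hmax h2
  nlinarith

end generic

end Vale.Agent.Lib.P243
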