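import Mathlib

open Matrix Set Metric
open scoped ENNReal

namespace Vale.Agent.Lib.P243

/-- Euclidean three-space (local name). -/
abbrev EE : Type := EuclideanSpace ℝ (Fin 3)

/-- The matrix of edge vectors of a simplex. -/
noncomputable def Mat (v : Fin 4 → EE) : Matrix (Fin 3) (Fin 3) ℝ :=
  Matrix.of fun a b => v b.succ a - v 0 a

theorem continuous_det_mat : Continuous fun v : Fin 4 → EE => |(Mat v).det| := by
  apply continuous_abs.comp
  apply Continuous.matrix_det
  apply continuous_matrix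
  intro a b
  show Continuous fun v : Fin 4 → EE => v b.succ a - v 0 a
  fun_prop

theorem exists_max_det {K : Set EE} (hc : IsCompact K) (hne : (interior K).Nonempty) :
    ∃ v : Fin 4 → EE, (∀ i, v i ∈ K) ∧ (Mat v).det ≠ 0 ∧
      ∀ w : Fin 4 → EE, (∀ i, w i ∈ K) → |(Mat w).det| ≤ |(Mat v).det| := by
  obtain ⟨x₀, hx₀⟩ := hne
  obtain ⟨r, hr, hball⟩ := Metric.nhds_basis_closedBall.mem_iff.mp (mem_interior_iff_mem_nhds.mp hx₀)
  have hS : IsCompact (Set.pi Set.univ fun _ : Fin 4 => K) := isCompact_univ_pi fun _ => hc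
  have hSne : (Set.pi Set.univ fun _ : Fin 4 => K).Nonempty :=
    ⟨fun _ => x₀, fun _ _ => hball (mem_closedBall_self hr.le)⟩
  obtain ⟨v, hv, hmax⟩ := hS.exists_isMaxOn hSne continuous_det_mat.continuousOn
  refine ⟨v, fun i => hv i (mem_univ _), ?_, fun w hw => hmax (fun i _ => hw i)⟩
  -- nonvanishing
  set w : Fin 4 → EE := Fin.cons x₀ (fun j => x₀ + r • EuclideanSpace.single j (1 : ℝ)) with hw
  have hwK : ∀ i, w i ∈ K := by
    intro i
    refine Fin.cases ?_ (fun j => ?_) i
    · exact hball (mem_closedBall_self hr.le)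
    · apply hball
      rw [hw, Fin.cons_succ, mem_closedBall, dist_eq_norm, add_sub_cancel_left, norm_smul,
        EuclideanSpace.norm_single, Real.norm_of_nonneg hr.le]
      simp
  have hMw : Mat w = r • (1 : Matrix (Fin 3) (Fin 3) ℝ) := by
    ext a b
    simp only [Mat, Matrix.of_apply, hw, Fin.cons_succ, Fin.cons_zero]
    simp only [PiLp.add_apply, PiLp.smul_apply, smul_eq_mul, Matrix.smul_apply, Matrix.one_apply]
    by_cases h : a = b
    · subst h; simp
    · have h' : ¬ b = a := fun e => h e.symm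
      simp [h, EuclideanSpace.single_apply, h']
  have hdet : (Mat w).det = r ^ 3 := by
    rw [hMw, Matrix.det_smul]
    simp
  intro h0
  have h1 : |(Mat w).det| ≤ |(Mat v).det| := hmax (fun i _ => hwK i)
  rw [h0, abs_zero, hdet] at h1
  have h2 : 0 < |r ^ 3| := abs_pos.mpr (pow_pos hr 3).ne'
  linarith

theorem cramer_bound {K : Set EE} {v : Fin 4 → EE} 
    (hmax : ∀ w : Fin 4 → EE, (∀ i, w i ∈ K) → |(Mat w).det| ≤ |(Mat v).det|)
    (hv : ∀ i, v i ∈ K) {x : EE} (hx : x ∈ K) (i : Fin 3) :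
    |cramer (Mat v) (WithLp.ofLp (x - v 0)) i| ≤ |(Mat v).det| := by
  have h1 : (Mat v).updateCol i (WithLp.ofLp (x - v 0)) = Mat (Function.update v i.succ x) := by
    ext a b
    by_cases hb : b = i
    · subst hb
      simp [Mat, Function.update_of_ne (Fin.succ_ne_zero b).symm]
    · have : b.succ ≠ i.succ := fun e => hb (Fin.succ_injective _ e)
      simp [Mat, hb, Function.update_of_ne this,
        Function.update_of_ne (Fin.succ_ne_zero i).symm]
  rw [cramer_apply, h1]
  apply hmax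
  intro j
  by_cases hj : j = i.succ
  · subst hj
    simpa using hx
  · rw [Function.update_of_ne hj]
    exact hv j

/-- The normalization of a convex body: an affine image contains the ball of radius `1/5` about
the origin and is contained in the ball of radius `9/4`. -/
theorem exists_normalization {K : Set EE} (hc : IsCompact K) (hK : Convex ℝ K)
    (hne : (interior K).Nonempty) :
    ∃ (A : EE ≃L[ℝ] EE) (t : EE), closedBall 0 (1 / 5) ⊆ (fun x => A x + t) '' K ∧
      ∀ x ∈ K, ‖A x + t‖ ≤ 9 / 4 := by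
  obtain ⟨v, hv, hdet, hmax⟩ := exists_max_det hc hne
  set M := Mat v with hM
  have hu : IsUnit M.det := isUnit_iff_ne_zero.mpr hdet
  set G : EE →L[ℝ] EE := toEuclideanCLM (𝕜 := ℝ) M with hG
  set H : EE →L[ℝ] EE := toEuclideanCLM (𝕜 := ℝ) M⁻¹ with hH
  have hHG : ∀ x, H (G x) = x := by
    intro x
    apply PiLp.ext
    intro a
    simp only [hG, hH, Matrix.ofLp_toEuclideanCLM, Matrix.mulVec_mulVec, Matrix.nonsing_inv_mul _ hu,
      Matrix.one_mulVec]
  have hGH : ∀ x, G (H x) = x := by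
    intro x
    apply PiLp.ext
    intro a
    simp only [hG, hH, Matrix.ofLp_toEuclideanCLM, Matrix.mulVec_mulVec, Matrix.mul_nonsing_inv _ hu,
      Matrix.one_mulVec]
  set A : EE ≃L[ℝ] EE := ContinuousLinearEquiv.equivOfInverse H G hGH hHG with hA
  have hAapp : ∀ x, A x = H x := fun x => rfl
  set c : EE := WithLp.toLp 2 (fun _ => (1 / 5 : ℝ)) with hc'
  refine ⟨A, -(A (v 0)) - c, ?_, ?_⟩
  · -- the ball is inside
    intro y hy
    have hy' : ‖y‖ ≤ 1 / 5 := by simpa using hy
    set w : EE := y + c with hw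
    have hcoord : ∀ a, |y a| ≤ 1 / 5 := by
      intro a
      have := PiLp.norm_apply_le y a
      rw [Real.norm_eq_abs] at this
      linarith
    have hsq : y 0 ^ 2 + y 1 ^ 2 + y 2 ^ 2 ≤ 1 / 25 := by
      have h1 := EuclideanSpace.real_norm_sq_eq y
      rw [Fin.sum_univ_three] at h1
      rw [← h1]
      have : 0 ≤ ‖y‖ := norm_nonneg _
      nlinarith
    have hsum : y 0 + y 1 + y 2 ≤ 2 / 5 := by
      nlinarith [sq_nonneg (y 0 - y 1), sq_nonneg (y 1 - y 2), sq_nonneg (y 0 - y 2)]
    have hwa : ∀ a, w a = y a + 1 / 5 := fun a => by simp [hw, hc']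
    have hw0 : ∀ a, 0 ≤ w a := by
      intro a
      rw [hwa]
      have := (abs_le.mp (hcoord a)).1
      linarith
    have hwsum : w 0 + w 1 + w 2 ≤ 1 := by
      rw [hwa, hwa, hwa]
      linarith
    set W : Fin 4 → ℝ := Fin.cons (1 - (w 0 + w 1 + w 2)) (fun b => w b) with hWdef
    have hW0 : ∀ i, 0 ≤ W i := by
      intro i
      refine Fin.cases ?_ (fun j => ?_) i
      · simp only [hWdef, Fin.cons_zero]; linarith
      · simp only [hWdef, Fin.cons_succ]; exact hw0 j
    have hW1 : ∑ i, W i = 1 := by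
      rw [Fin.sum_univ_succ, Fin.sum_univ_three]
      simp only [hWdef, Fin.cons_zero, Fin.cons_succ]
      ring
    have hmem := hK.sum_mem (t := Finset.univ) (w := W) (z := v) (fun i _ => hW0 i) hW1
      (fun i _ => hv i)
    have hGw : v 0 + G w = ∑ i, W i • v i := by
      apply PiLp.ext
      intro a
      have h1 : (G w) a = (M *ᵥ WithLp.ofLp w) a :=
        congrFun (Matrix.ofLp_toEuclideanCLM (𝕜 := ℝ) M w) a
      simp only [PiLp.add_apply, h1, WithLp.ofLp_sum, Finset.sum_apply, PiLp.smul_apply, smul_eq_mul]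
      rw [Fin.sum_univ_succ, Fin.sum_univ_three]
      simp only [Matrix.mulVec, dotProduct, Fin.sum_univ_three, hM, Mat, Matrix.of_apply, hWdef,
        Fin.cons_zero, Fin.cons_succ]
      ring
    refine ⟨v 0 + G w, by rw [hGw]; exact hmem, ?_⟩
    show A (v 0 + G w) + (-(A (v 0)) - c) = y
    rw [map_add, hAapp (G w), hHG, hw]
    abel
  · -- the image is bounded
    intro x hx
    have hval : A x + (-(A (v 0)) - c) = H (x - v 0) - c := by
      rw [map_sub, ← hAapp, ← hAapp]
      abel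
    rw [hval]
    have hcoord : ∀ a, |(H (x - v 0)) a| ≤ 1 := by
      intro a
      have h1 : (H (x - v 0)) a = (M⁻¹ *ᵥ WithLp.ofLp (x - v 0)) a :=
        congrFun (Matrix.ofLp_toEuclideanCLM (𝕜 := ℝ) M⁻¹ (x - v 0)) a
      have h2 : M⁻¹ *ᵥ WithLp.ofLp (x - v 0) = (M.det)⁻¹ • cramer M (WithLp.ofLp (x - v 0)) := by
        rw [Matrix.inv_def, Matrix.smul_mulVec, Matrix.cramer_eq_adjugate_mulVec, Ring.inverse_eq_inv']
      rw [h1, h2, Pi.smul_apply, smul_eq_mul, abs_mul, abs_inv]
      have h3 := cramer_bound hmax hv hx a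
      rw [← hM] at h3
      have h4 : 0 < |M.det| := abs_pos.mpr hdet
      rw [inv_mul_le_iff₀ h4, mul_one]
      exact h3
    set z := H (x - v 0) - c with hz
    have hza : ∀ a, |z a| ≤ 6 / 5 := by
      intro a
      have h1 : z a = (H (x - v 0)) a - 1 / 5 := by simp [hz, hc']
      rw [h1]
      have h2 := abs_le.mp (hcoord a)
      rw [abs_le]
      constructor <;> linarith [h2.1, h2.2]
    have hsq : ‖z‖ ^ 2 ≤ (9 / 4) ^ 2 := by
      rw [EuclideanSpace.real_norm_sq_eq, Fin.sum_univ_three]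
      have h0 := abs_le.mp (hza 0)
      have h1 := abs_le.mp (hza 1)
      have h2 := abs_le.mp (hza 2)
      have e0 : z 0 ^ 2 ≤ (6 / 5) ^ 2 := sq_le_sq' h0.1 h0.2
      have e1 : z 1 ^ 2 ≤ (6 / 5) ^ 2 := sq_le_sq' h1.1 h1.2
      have e2 : z 2 ^ 2 ≤ (6 / 5) ^ 2 := sq_le_sq' h2.1 h2.2
      norm_num at e0 e1 e2 ⊢
      linarith
    exact (abs_le_of_sq_le_sq' hsq (by norm_num)).2

end Vale.Agent.Lib.P243
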