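import Vale.Agent.Lib.P243.Line

open MeasureTheory Module Set Metric Filter
open scoped ENNReal RealInnerProductSpace Pointwise Topology

namespace Vale.Agent.Lib.P243

set_option linter.unusedSectionVars false

variable {V : Type*} [NormedAddCommGroup V] [InnerProductSpace ℝ V] [FiniteDimensional ℝ V]
  [MeasurableSpace V] [BorelSpace V]

theorem volume_ball3 (hdim : finrank ℝ V = 3) (x : V) {r : ℝ} (hr : 0 ≤ r) :
    volume (closedBall x r) = ENNReal.ofReal (4 / 3 * Real.pi * r ^ 3) := by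
  rw [InnerProductSpace.volume_closedBall_of_dim_odd (k := 1) (by omega) x r, hdim,
    ← ENNReal.ofReal_pow hr, ← ENNReal.ofReal_mul (by positivity)]
  congr 1
  have : (Nat.doubleFactorial 3 : ℝ) = 3 := by norm_num [Nat.doubleFactorial]
  rw [this]
  ring

theorem finrank_pl (hdim : finrank ℝ V = 3) {u : V} (hu : ‖u‖ = 1) : finrank ℝ (Pl u) = 2 := by
  have h1 := Submodule.finrank_add_finrank_orthogonal (ℝ ∙ u)
  have hne : u ≠ 0 := by
    intro h
    rw [h, norm_zero] at hu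
    exact zero_ne_one hu
  rw [finrank_span_singleton hne, hdim] at h1
  show finrank ℝ ((ℝ ∙ u)ᗮ : Submodule ℝ V) = 2
  omega

/-- Bounds on the volume of a normalized body. -/
theorem vK_bounds {K : Set V} (hc : IsCompact K) (hdim : finrank ℝ V = 3) {r₀ R₀ : ℝ}
    (hr₀ : 0 ≤ r₀) (hR₀ : 0 ≤ R₀) (hin : closedBall 0 r₀ ⊆ K) (hout : ∀ x ∈ K, ‖x‖ ≤ R₀) :
    4 / 3 * Real.pi * r₀ ^ 3 ≤ (volume K).toReal ∧ (volume K).toReal ≤ 4 / 3 * Real.pi * R₀ ^ 3 := by
  have hKtop : volume K ≠ ⊤ := hc.measure_lt_top.ne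
  constructor
  · have h := measure_mono (μ := volume) hin
    rw [volume_ball3 hdim _ hr₀, ENNReal.ofReal_le_iff_le_toReal hKtop] at h
    exact h
  · have hsub : K ⊆ closedBall 0 R₀ := fun x hx => by
      rw [mem_closedBall_zero_iff]; exact hout x hx
    have h := measure_mono (μ := volume) hsub
    rw [volume_ball3 hdim _ hR₀] at h
    exact ENNReal.toReal_le_of_le_ofReal (by positivity) h

/-- Bounds on the area of the shadow of a normalized body. -/
theorem vS_bounds {K : Set V} (hc : IsCompact K) (hdim : finrank ℝ V = 3) {r₀ R₀ : ℝ}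
    (hr₀ : 0 ≤ r₀) (hR₀ : 0 ≤ R₀) (hin : closedBall 0 r₀ ⊆ K) (hout : ∀ x ∈ K, ‖x‖ ≤ R₀)
    {u : V} (hu : ‖u‖ = 1) :
    r₀ ^ 2 * Real.pi ≤ (volume (Shadow K u)).toReal ∧
      (volume (Shadow K u)).toReal ≤ R₀ ^ 2 * Real.pi := by
  have hd := finrank_pl hdim hu
  have hStop : volume (Shadow K u) ≠ ⊤ := (isCompact_shadow hc u).measure_lt_top.ne
  constructor
  · have hsub : closedBall (0 : Pl u) r₀ ⊆ Shadow K u := by
      intro y hy
      rw [mem_image_iff_fib K u hu]
      refine ⟨0, ?_⟩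
      show (y : V) + (0 : ℝ) • u ∈ K
      rw [zero_smul, add_zero]
      apply hin
      rw [mem_closedBall_zero_iff] at hy ⊢
      exact hy
    have h := measure_mono (μ := volume) hsub
    rw [volume_disc hd _ hr₀, ENNReal.ofReal_le_iff_le_toReal hStop] at h
    exact h
  · have hsub : Shadow K u ⊆ closedBall (0 : Pl u) R₀ := by
      rintro _ ⟨x, hx, rfl⟩
      rw [mem_closedBall_zero_iff]
      exact (Submodule.norm_orthogonalProjectionOnto_apply_le _ _).trans (hout x hx)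
    have h := measure_mono (μ := volume) hsub
    rw [volume_disc hd _ hR₀] at h
    exact ENNReal.toReal_le_of_le_ofReal (by positivity) h

/-- The mass of the two-level weight. -/
theorem mass_wt {K E : Set V} (hc : IsCompact K) (hEm : MeasurableSet E) (hEK : E ⊆ K) {c : ℝ}
    (hc0 : 0 ≤ c) (hc1 : c ≤ 1) :
    ENNReal.ofReal ((volume K).toReal - c * (volume E).toReal) ≤ ∫⁻ x in K, wt E c x := by
  classical
  have hKtop : volume K ≠ ⊤ := hc.measure_lt_top.ne
  have hEtop : volume E ≠ ⊤ := ne_top_of_le_ne_top hKtop (measure_mono hEK)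
  rw [← lintegral_inter_add_diff _ K hEm, inter_eq_right.mpr hEK]
  have h1 : ∫⁻ x in E, wt E c x = ENNReal.ofReal (1 - c) * volume E := by
    rw [setLIntegral_congr_fun (g := fun _ => ENNReal.ofReal (1 - c)) hEm (fun x hx => by
      simp only [wt]; rw [if_pos hx]), lintegral_const, Measure.restrict_apply MeasurableSet.univ,
      univ_inter]
  have h2 : ∫⁻ x in K \ E, wt E c x = volume (K \ E) := by
    have hm : MeasurableSet (K \ E) := hc.measurableSet.diff hEm
    rw [setLIntegral_congr_fun (g := fun _ => (1 : ℝ≥0∞)) hm (fun x hx => by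
      simp only [wt]; rw [if_neg hx.2]), lintegral_const, Measure.restrict_apply MeasurableSet.univ,
      univ_inter, one_mul]
  rw [h1, h2, measure_diff hEK hEm.nullMeasurableSet hEtop]
  have e1 : volume K = ENNReal.ofReal (volume K).toReal := (ENNReal.ofReal_toReal hKtop).symm
  have e2 : volume E = ENNReal.ofReal (volume E).toReal := (ENNReal.ofReal_toReal hEtop).symm
  have h3 : (volume E).toReal ≤ (volume K).toReal := ENNReal.toReal_mono hKtop (measure_mono hEK)
  rw [e1, e2, ENNReal.toReal_ofReal ENNReal.toReal_nonneg, ENNReal.toReal_ofReal ENNReal.toReal_nonneg,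
    ← ENNReal.ofReal_sub _ ENNReal.toReal_nonneg, ← ENNReal.ofReal_mul (by linarith),
    ← ENNReal.ofReal_add (mul_nonneg (by linarith) ENNReal.toReal_nonneg) (by linarith)]
  apply ENNReal.ofReal_le_ofReal
  nlinarith

/-- Turning the weak duality inequality into a lower bound on the relative area. -/
theorem rel_of_dual {R : ℝ≥0∞} {vK θ x : ℝ} (hvK : 0 < vK) (hθ0 : 0 ≤ θ) (hθ1 : θ ≤ 1)
    (hx : x ≤ θ / 6 * vK)
    (h : ENNReal.ofReal (vK - x) ≤ R * ENNReal.ofReal ((3 - θ) * vK)) :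
    ENNReal.ofReal (1 / 3 + θ / 18) ≤ R := by
  by_cases hRtop : R = ⊤
  · rw [hRtop]; exact le_top
  rw [ENNReal.ofReal_le_iff_le_toReal hRtop]
  have hΛ : 0 ≤ (3 - θ) * vK := mul_nonneg (by linarith) hvK.le
  have h1 : R * ENNReal.ofReal ((3 - θ) * vK) ≠ ⊤ := ENNReal.mul_ne_top hRtop ENNReal.ofReal_ne_top
  have h2 := (ENNReal.ofReal_le_iff_le_toReal h1).mp h
  rw [ENNReal.toReal_mul, ENNReal.toReal_ofReal hΛ] at h2
  set r := R.toReal with hr
  have hpos : 0 < (3 - θ) * vK := mul_pos (by linarith) hvK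
  have h3 : (1 / 3 + θ / 18) * ((3 - θ) * vK) ≤ r * ((3 - θ) * vK) := by
    have h4 : (1 / 3 + θ / 18) * ((3 - θ) * vK) ≤ vK - θ / 6 * vK := by
      have : (1 / 3 + θ / 18) * (3 - θ) = 1 - θ / 6 - θ ^ 2 / 18 := by ring
      have h5 : (1 / 3 + θ / 18) * ((3 - θ) * vK) = (1 - θ / 6 - θ ^ 2 / 18) * vK := by
        rw [← this]; ring
      rw [h5]
      have : 0 ≤ θ ^ 2 / 18 * vK := by positivity
      nlinarith
    linarith
  exact le_of_mul_le_mul_right h3 hpos

/-- The volume of the three exceptional sets. -/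
theorem volume_W_real {K : Set V} (hc : IsCompact K) (hK : Convex ℝ K) (hdim : finrank ℝ V = 3)
    {r₀ R₀ : ℝ} (hr₀ : 0 < r₀) (hR₀ : 0 < R₀) (hin : closedBall 0 r₀ ⊆ K)
    (hout : ∀ x ∈ K, ‖x‖ ≤ R₀) {e : V} (he : ‖e‖ = 1) {T β : ℝ} (hT : 0 < T) (hβ : 0 < β)
    {N m : ℕ} (hN : 0 < N) (hm : 0 < m) (hmT : m * T ≤ R₀) :
    (volume (Wset K (Dset K e T β) (1 / (4 * N)))).toReal ≤
      8 / (N * m) * (2 / (r₀ * β)) * (4 / 3 * Real.pi * (2 * R₀) ^ 3) := by
  have h0 := nhds_of_ball hr₀ hin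
  set D := Dset K e T β with hD
  have hDc : IsClosed D := isClosed_Dset hK h0 e T β
  set W := Wset K D (1 / (4 * N)) with hW
  have hNr : (0 : ℝ) < N := by exact_mod_cast hN
  have hmr : (0 : ℝ) < m := by exact_mod_cast hm
  have h1 := volume_Wset_le hc hK h0 hDc hdim hout hN
  have h2 := volume_Dset_le hK hr₀ hin he hT hβ m (R := R₀)
  set Q := D ∩ closedBall 0 R₀ with hQ
  have hQtop : volume Q ≠ ⊤ :=
    ne_top_of_le_ne_top (isCompact_closedBall (0 : V) R₀).measure_lt_top.ne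
      (measure_mono inter_subset_right)
  have hWc : IsCompact W :=
    hc.of_isClosed_subset (isClosed_Wset hc hK h0 hDc _) (fun x hx => hx.1)
  have hWtop : volume W ≠ ⊤ := hWc.measure_lt_top.ne
  have h3 : volume (closedBall (0 : V) (R₀ + m * T)) ≤ ENNReal.ofReal (4 / 3 * Real.pi * (2 * R₀) ^ 3) := by
    rw [← volume_ball3 hdim (0 : V) (by positivity)]
    apply measure_mono
    apply closedBall_subset_closedBall
    linarith
  have h4 : (m : ℝ≥0∞) * volume Q ≤
      ENNReal.ofReal (2 / (r₀ * β)) * ENNReal.ofReal (4 / 3 * Real.pi * (2 * R₀) ^ 3) :=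
    h2.trans (by gcongr)
  -- convert to reals
  have hN' : (N : ℝ≥0∞) = ENNReal.ofReal N := by simp
  have hm' : (m : ℝ≥0∞) = ENNReal.ofReal m := by simp
  have eW : volume W = ENNReal.ofReal (volume W).toReal := (ENNReal.ofReal_toReal hWtop).symm
  have eQ : volume Q = ENNReal.ofReal (volume Q).toReal := (ENNReal.ofReal_toReal hQtop).symm
  have hvW : 0 ≤ (volume W).toReal := ENNReal.toReal_nonneg
  have hvQ : 0 ≤ (volume Q).toReal := ENNReal.toReal_nonneg
  rw [hN', eW, eQ, ← ENNReal.ofReal_mul (by norm_num), ← ENNReal.ofReal_mul hNr.le] at h1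
  rw [hm', eQ, ← ENNReal.ofReal_mul hmr.le, ← ENNReal.ofReal_mul (by positivity)] at h4
  have h5 := (ENNReal.ofReal_le_ofReal_iff hvQ).mp h1
  have h6 := (ENNReal.ofReal_le_ofReal_iff (by positivity)).mp h4
  set vW := (volume W).toReal
  set vQ := (volume Q).toReal
  set B := 2 / (r₀ * β) * (4 / 3 * Real.pi * (2 * R₀) ^ 3) with hB
  have hB0 : 0 ≤ B := by positivity
  have h7 : (N : ℝ) * (1 / 8 * vW) * m ≤ B := by
    calc (N : ℝ) * (1 / 8 * vW) * m ≤ vQ * m := mul_le_mul_of_nonneg_right h5 hmr.le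
      _ = m * vQ := mul_comm _ _
      _ ≤ B := h6
  have e : 8 / ((N : ℝ) * m) * (2 / (r₀ * β)) * (4 / 3 * Real.pi * (2 * R₀) ^ 3) = 8 / (N * m) * B := by
    rw [hB]; ring
  rw [e, div_mul_eq_mul_div, le_div_iff₀ (by positivity)]
  nlinarith

end Vale.Agent.Lib.P243
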