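import Vale.Agent.Lib.P243.Chord

open MeasureTheory Module Set
open scoped ENNReal RealInnerProductSpace Pointwise

namespace Vale.Agent.Lib.P243

set_option linter.unusedSectionVars false

variable {W : Type*} [NormedAddCommGroup W] [InnerProductSpace ℝ W] [FiniteDimensional ℝ W]
  [MeasurableSpace W] [BorelSpace W]

/-- `S + [-w,w] e`. -/
def segSum (S : Set W) (e : W) (w : ℝ) : Set W :=
  (fun p : W × ℝ => p.1 + p.2 • e) '' (S ×ˢ Icc (-w) w)

theorem isCompact_segSum {S : Set W} (hS : IsCompact S) (e : W) (w : ℝ) : IsCompact (segSum S e w) := by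
  apply (hS.prod isCompact_Icc).image
  fun_prop

/-- Sweeping a convex set with all chords in direction `e` of length at most `2ρ` along a
segment of half-length `w` multiplies its volume by at least `1 + w/ρ`. -/
theorem volume_segSum_ge {S : Set W} (hSc : IsCompact S) (hS : Convex ℝ S) (e : W) (he : ‖e‖ = 1)
    {ρ w : ℝ} (hρ : 0 < ρ) (hw : 0 ≤ w)
    (hch : ∀ (z : W) (s₁ s₂ : ℝ), z + s₁ • e ∈ S → z + s₂ • e ∈ S → s₂ - s₁ ≤ 2 * ρ) :
    ENNReal.ofReal (1 + w / ρ) * volume S ≤ volume (segSum S e w) := by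
  have hT := isCompact_segSum hSc e w
  rw [volume_fiber e he hSc.measurableSet, volume_fiber e he hT.measurableSet,
    ← lintegral_const_mul' _ _ ENNReal.ofReal_ne_top]
  apply lintegral_mono
  intro z
  beta_reduce
  by_cases hne : (fib S e z).Nonempty
  · obtain ⟨a, b, hab, h⟩ := fib_eq_Icc hSc hS e he z hne
    have h1 : {t : ℝ | (z : W) + t • e ∈ S} = Icc a b := h
    rw [h1, Real.volume_Icc]
    have hsub : Icc (a - w) (b + w) ⊆ {t : ℝ | (z : W) + t • e ∈ segSum S e w} := by
      intro t ht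
      -- choose a point of `[a,b]` within `w` of `t`
      set s := max a (min b t) with hs
      have hs1 : s ∈ Icc a b := ⟨le_max_left _ _, max_le hab (min_le_left _ _)⟩
      have hzs : (z : W) + s • e ∈ S := by
        have : s ∈ fib S e z := by rw [h]; exact hs1
        exact this
      refine ⟨((z : W) + s • e, t - s), ⟨hzs, ?_, ?_⟩, ?_⟩
      · simp only [hs]
        rcases le_total t b with h2 | h2
        · rw [min_eq_right h2]
          rcases le_total a t with h3 | h3
          · rw [max_eq_right h3]; linarith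
          · rw [max_eq_left h3]; linarith [ht.1]
        · rw [min_eq_left h2, max_eq_right hab]; linarith
      · simp only [hs]
        rcases le_total t b with h2 | h2
        · rw [min_eq_right h2]
          rcases le_total a t with h3 | h3
          · rw [max_eq_right h3]; linarith
          · rw [max_eq_left h3]; linarith
        · rw [min_eq_left h2, max_eq_right hab]; linarith [ht.2]
      · simp only [sub_smul]
        abel
    refine le_trans ?_ (measure_mono hsub)
    rw [Real.volume_Icc, ← ENNReal.ofReal_mul (by positivity)]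
    apply ENNReal.ofReal_le_ofReal
    have hle : b - a ≤ 2 * ρ := by
      have h3 : (z : W) + a • e ∈ S := by
        have : a ∈ fib S e z := by rw [h]; exact left_mem_Icc.mpr hab
        exact this
      have h4 : (z : W) + b • e ∈ S := by
        have : b ∈ fib S e z := by rw [h]; exact right_mem_Icc.mpr hab
        exact this
      exact hch _ _ _ h3 h4
    have hba : 0 ≤ b - a := sub_nonneg.mpr hab
    have : (b - a) * (w / ρ) ≤ 2 * w := by
      calc (b - a) * (w / ρ) ≤ (2 * ρ) * (w / ρ) := by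
            apply mul_le_mul_of_nonneg_right hle (by positivity)
        _ = 2 * w := by field_simp
    nlinarith
  · have h0 : {t : ℝ | (z : W) + t • e ∈ S} = ∅ := by
      rw [Set.not_nonempty_iff_eq_empty] at hne
      exact hne
    rw [h0]
    simp

/-- The set `p [-y,y] + (1-p) S`. -/
def setAp (S : Set W) (y : W) (p : ℝ) : Set W :=
  (fun q : ℝ × W => p • (q.1 • y) + (1 - p) • q.2) '' (Icc (-1 : ℝ) 1 ×ˢ S)

theorem volume_setAp_ge {S : Set W} (hSc : IsCompact S) (hS : Convex ℝ S)
    (hsym : ∀ x ∈ S, -x ∈ S) (hdim : finrank ℝ W = 2) {ω y : W} {r p : ℝ}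
    (hωS : ω ∈ S) (hy : y = r • ω) (hr0 : 0 ≤ r)
    (hbd : ∀ c : ℝ, 1 < c → c • ω ∉ S) (hp : p ∈ Icc (0 : ℝ) 1) :
    ENNReal.ofReal ((1 - p) ^ 2 + p * (1 - p) * r) * volume S ≤ volume (setAp S y p) := by
  have hq0 : 0 ≤ 1 - p := by linarith [hp.2]
  rcases hq0.eq_or_lt with hq | hq
  · -- `p = 1`
    have : (1 - p) ^ 2 + p * (1 - p) * r = 0 := by rw [← hq]; ring
    rw [this]
    simp
  have hvolq : ∀ A : Set W, volume ((1 - p) • A) = ENNReal.ofReal ((1 - p) ^ 2) * volume A := by
    intro A
    rw [Measure.addHaar_smul, hdim, abs_of_pos (by positivity)]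
  rcases hr0.eq_or_lt with hr | hr
  · -- `r = 0`, so `y = 0`
    have hy0 : y = 0 := by rw [hy, ← hr, zero_smul]
    have hsub : (1 - p) • S ⊆ setAp S y p := by
      rintro _ ⟨x, hx, rfl⟩
      refine ⟨(0, x), ⟨by simp, hx⟩, ?_⟩
      simp [hy0]
    refine le_trans ?_ (measure_mono hsub)
    rw [hvolq, ← hr]
    simp
  -- `r > 0`
  have hω0 : ω ≠ 0 := by
    intro h0
    apply hbd 2 (by norm_num)
    rw [h0, smul_zero]
    rw [h0] at hωS
    exact hωS
  set ρ := ‖ω‖ with hρdef
  have hρ : 0 < ρ := norm_pos_iff.mpr hω0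
  set e : W := ρ⁻¹ • ω with hedef
  have he : ‖e‖ = 1 := by
    rw [hedef, norm_smul, norm_inv, norm_norm, inv_mul_cancel₀ hρ.ne']
  have hωe : ω = ρ • e := by
    rw [hedef, smul_smul, mul_inv_cancel₀ hρ.ne', one_smul]
  have hch : ∀ (z : W) (s₁ s₂ : ℝ), z + s₁ • e ∈ S → z + s₂ • e ∈ S → s₂ - s₁ ≤ 2 * ρ := by
    intro z s₁ s₂ h₁ h₂
    by_contra hcon
    push Not at hcon
    have hmid := hS h₂ (hsym _ h₁) (a := 1 / 2) (b := 1 / 2) (by norm_num) (by norm_num) (by norm_num)
    have heq : (1 / 2 : ℝ) • (z + s₂ • e) + (1 / 2 : ℝ) • -(z + s₁ • e) =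
        ((s₂ - s₁) / (2 * ρ)) • ω := by
      have h1 : ((s₂ - s₁) / (2 * ρ)) • ω = (1 / 2 * (s₂ - s₁)) • e := by
        rw [hedef, smul_smul]
        congr 1
        field_simp
      rw [h1, mul_smul, sub_smul, smul_add, smul_neg, smul_add, smul_sub]
      abel
    rw [heq] at hmid
    exact hbd _ (by rwa [one_lt_div (by positivity)]) hmid
  set w : ℝ := p / (1 - p) * (r * ρ) with hwdef
  have hw : 0 ≤ w := by
    have := hp.1
    positivity
  have hT := volume_segSum_ge hSc hS e he hρ hw hch
  have hsub : (1 - p) • segSum S e w ⊆ setAp S y p := by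
    rintro _ ⟨_, ⟨⟨x, s⟩, ⟨hx, hs⟩, rfl⟩, rfl⟩
    simp only at hx hs ⊢
    rcases hp.1.eq_or_lt with hp0 | hp0
    · -- `p = 0`, `w = 0`, `s = 0`
      have hw0 : w = 0 := by rw [hwdef, ← hp0]; simp
      have hs0 : s = 0 := by
        rw [hw0] at hs
        simpa using le_antisymm hs.2 (by simpa using hs.1)
      refine ⟨(0, x), ⟨by simp, hx⟩, ?_⟩
      simp [hs0, ← hp0]
    · have hD : 0 < p * (r * ρ) := by positivity
      have hτ1 : (1 - p) * s / (p * (r * ρ)) ∈ Icc (-1 : ℝ) 1 := by
        have hsle : (1 - p) * s ≤ p * (r * ρ) := by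
          have := hs.2
          rw [hwdef] at this
          calc (1 - p) * s ≤ (1 - p) * (p / (1 - p) * (r * ρ)) := mul_le_mul_of_nonneg_left this hq0
            _ = p * (r * ρ) := by field_simp
        have hsge : -(p * (r * ρ)) ≤ (1 - p) * s := by
          have := hs.1
          rw [hwdef] at this
          calc -(p * (r * ρ)) = (1 - p) * (-(p / (1 - p) * (r * ρ))) := by field_simp
            _ ≤ (1 - p) * s := mul_le_mul_of_nonneg_left this hq0
        constructor
        · rw [le_div_iff₀ hD]; linarith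
        · rw [div_le_iff₀ hD]; linarith
      refine ⟨((1 - p) * s / (p * (r * ρ)), x), ⟨hτ1, hx⟩, ?_⟩
      simp only [hy, hωe]
      have h1 : p • (((1 - p) * s / (p * (r * ρ))) • r • ρ • e) = ((1 - p) * s) • e := by
        simp only [smul_smul]
        congr 1
        field_simp
      rw [h1, smul_add, mul_smul, add_comm]
  refine le_trans ?_ (measure_mono hsub)
  rw [hvolq]
  calc ENNReal.ofReal ((1 - p) ^ 2 + p * (1 - p) * r) * volume S
      = ENNReal.ofReal ((1 - p) ^ 2) * (ENNReal.ofReal (1 + w / ρ) * volume S) := by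
        rw [← mul_assoc, ← ENNReal.ofReal_mul (by positivity)]
        congr 2
        rw [hwdef]
        field_simp
    _ ≤ ENNReal.ofReal ((1 - p) ^ 2) * volume (segSum S e w) := by gcongr

end Vale.Agent.Lib.P243
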