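import Vale.Agent.Lib.P243.Level

open MeasureTheory Module Set Filter
open scoped ENNReal RealInnerProductSpace Pointwise Topology

namespace Vale.Agent.Lib.P243

set_option linter.unusedSectionVars false

variable {V : Type*} [NormedAddCommGroup V] [InnerProductSpace ℝ V] [FiniteDimensional ℝ V]
  [MeasurableSpace V] [BorelSpace V]

theorem lintegral_conv_bound {g : ℝ → ℝ} {A B α β : ℝ} (hAB : A ≤ B)
    (hg : ConvexOn ℝ (Icc A B) g) (hA : g A ≤ α) (hB : g B ≤ β) (hα : 0 ≤ α) (hβ : 0 ≤ β) :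
    ∫⁻ t in Icc A B, ENNReal.ofReal (1 + 2 * g t) ≤ ENNReal.ofReal ((B - A) * (1 + α + β)) := by
  rcases hAB.eq_or_lt with rfl | hlt
  · simp
  have hpos : 0 < B - A := sub_pos.mpr hlt
  set c₁ : ℝ := 2 * (β - α) / (B - A) with hc₁
  set c₀ : ℝ := 1 + 2 * (B * α - A * β) / (B - A) with hc₀
  have hL : ∀ t ∈ Icc A B, 1 + 2 * g t ≤ c₀ + c₁ * t := by
    intro t ht
    have h1 : t = ((B - t) / (B - A)) • A + ((t - A) / (B - A)) • B := by
      simp only [smul_eq_mul]
      field_simp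
      ring
    have h2 := hg.2 (left_mem_Icc.mpr hAB) (right_mem_Icc.mpr hAB)
      (show 0 ≤ (B - t) / (B - A) from div_nonneg (by linarith [ht.2]) hpos.le)
      (show 0 ≤ (t - A) / (B - A) from div_nonneg (by linarith [ht.1]) hpos.le)
      (by field_simp; ring)
    rw [← h1] at h2
    simp only [smul_eq_mul] at h2
    have h3 : (B - t) / (B - A) * g A ≤ (B - t) / (B - A) * α :=
      mul_le_mul_of_nonneg_left hA (div_nonneg (by linarith [ht.2]) hpos.le)
    have h4 : (t - A) / (B - A) * g B ≤ (t - A) / (B - A) * β :=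
      mul_le_mul_of_nonneg_left hB (div_nonneg (by linarith [ht.1]) hpos.le)
    have h5 : c₀ + c₁ * t = 1 + 2 * ((B - t) / (B - A) * α + (t - A) / (B - A) * β) := by
      rw [hc₀, hc₁]
      field_simp
      ring
    rw [h5]
    linarith
  have hL0 : ∀ t ∈ Icc A B, 0 ≤ c₀ + c₁ * t := by
    intro t ht
    have h5 : c₀ + c₁ * t = 1 + 2 * ((B - t) / (B - A) * α + (t - A) / (B - A) * β) := by
      rw [hc₀, hc₁]
      field_simp
      ring
    rw [h5]
    have h6 : 0 ≤ (B - t) / (B - A) * α := mul_nonneg (div_nonneg (by linarith [ht.2]) hpos.le) hα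
    have h7 : 0 ≤ (t - A) / (B - A) * β := mul_nonneg (div_nonneg (by linarith [ht.1]) hpos.le) hβ
    linarith
  have hcont : Continuous (fun t : ℝ => c₀ + c₁ * t) := by fun_prop
  calc ∫⁻ t in Icc A B, ENNReal.ofReal (1 + 2 * g t)
      ≤ ∫⁻ t in Icc A B, ENNReal.ofReal (c₀ + c₁ * t) := by
        apply setLIntegral_mono' measurableSet_Icc
        intro t ht
        exact ENNReal.ofReal_le_ofReal (hL t ht)
    _ = ENNReal.ofReal (∫ t in A..B, (c₀ + c₁ * t)) := lintegral_Icc_ofReal hcont hlt.le hL0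
    _ = ENNReal.ofReal ((B - A) * (1 + α + β)) := by
        congr 1
        rw [intervalIntegral.integral_add (by apply Continuous.intervalIntegrable; fun_prop)
          (by apply Continuous.intervalIntegrable; fun_prop),
          intervalIntegral.integral_const_mul, integral_id]
        simp only [intervalIntegral.integral_const, smul_eq_mul, hc₀, hc₁]
        field_simp
        ring

/-- The density `1 + 2 N` on the body. -/
noncomputable def dens (K : Set V) (x : V) : ℝ≥0∞ := ENNReal.ofReal (1 + 2 * gauge K x)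

theorem gauge_convex_line {K : Set V} (hK : Convex ℝ K) (h0 : K ∈ 𝓝 (0 : V)) (y u : V) (s : Set ℝ)
    (hs : Convex ℝ s) : ConvexOn ℝ s (fun t : ℝ => gauge K (y + t • u)) := by
  refine ⟨hs, ?_⟩
  intro t₁ _ t₂ _ a b ha hb hab
  simp only [smul_eq_mul]
  rw [comb_aux _ _ _ _ _ _ hab]
  refine le_trans (gauge_add_le hK (absorbent_nhds_zero h0) _ _) ?_
  rw [gauge_smul_of_nonneg ha, gauge_smul_of_nonneg hb]
  simp

/-- The fibre integral of the density over a chord at gauge `r`. -/
theorem fiber_integral_le {K : Set V} (hKc : IsCompact K) (hK : Convex ℝ K) (h0 : K ∈ 𝓝 (0 : V))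
    (u : V) (hu : ‖u‖ = 1) {y ω : Pl u} {r : ℝ} {x₀ : V} (hy : y = r • ω) (hr0 : 0 ≤ r) (hr1 : r ≤ 1)
    (hx₀ : x₀ ∈ K) (hω : (ℝ ∙ u)ᗮ.orthogonalProjectionOnto x₀ = ω)
    (hne : (fib K u y).Nonempty) :
    ∫⁻ t in fib K u y, ENNReal.ofReal (1 + 2 * gauge K ((y : V) + t • u)) ≤
      ENNReal.ofReal (len K u y * (2 + r)) := by
  obtain ⟨t₁, t₂, ht, e⟩ := fib_eq_Icc hKc hK u hu y hne
  -- the special point on the chord
  have hKz : (0 : V) ∈ K := mem_of_mem_nhds h0
  set ts := r * ⟪u, x₀⟫ with hts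
  have hpt : (y : V) + ts • u = r • x₀ := by
    have := fiber_decomp u hu x₀
    rw [hω] at this
    rw [hy, Submodule.coe_smul, hts, mul_smul, ← smul_add, this]
  have hmem : r • x₀ ∈ K := by
    have := hK hx₀ hKz (a := r) (b := 1 - r) hr0 (by linarith) (by ring)
    simpa using this
  have hts_mem : ts ∈ Icc t₁ t₂ := by
    rw [← e]
    show (y : V) + ts • u ∈ K
    rw [hpt]
    exact hmem
  have hgts : gauge K ((y : V) + ts • u) ≤ r := by
    rw [hpt, gauge_smul_of_nonneg hr0]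
    have := gauge_le_one_of_mem hx₀
    simp only [smul_eq_mul]
    nlinarith
  have hg1 : gauge K ((y : V) + t₁ • u) ≤ 1 := by
    apply gauge_le_one_of_mem
    have : t₁ ∈ fib K u y := by rw [e]; exact left_mem_Icc.mpr ht
    exact this
  have hg2 : gauge K ((y : V) + t₂ • u) ≤ 1 := by
    apply gauge_le_one_of_mem
    have : t₂ ∈ fib K u y := by rw [e]; exact right_mem_Icc.mpr ht
    exact this
  have hsub : Icc t₁ t₂ ⊆ Icc t₁ ts ∪ Icc ts t₂ := by
    intro t ht'
    rcases le_total t ts with h | h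
    · exact Or.inl ⟨ht'.1, h⟩
    · exact Or.inr ⟨h, ht'.2⟩
  rw [e, len_of_Icc ht e]
  have hA := lintegral_conv_bound (g := fun t : ℝ => gauge K ((y : V) + t • u)) hts_mem.1
    (gauge_convex_line hK h0 _ _ _ (convex_Icc _ _)) hg1 hgts zero_le_one hr0
  have hB := lintegral_conv_bound (g := fun t : ℝ => gauge K ((y : V) + t • u)) hts_mem.2
    (gauge_convex_line hK h0 _ _ _ (convex_Icc _ _)) hgts hg2 hr0 zero_le_one
  calc ∫⁻ t in Icc t₁ t₂, ENNReal.ofReal (1 + 2 * gauge K ((y : V) + t • u))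
      ≤ ∫⁻ t in Icc t₁ ts ∪ Icc ts t₂, ENNReal.ofReal (1 + 2 * gauge K ((y : V) + t • u)) :=
        lintegral_mono_set hsub
    _ ≤ (∫⁻ t in Icc t₁ ts, ENNReal.ofReal (1 + 2 * gauge K ((y : V) + t • u))) +
        (∫⁻ t in Icc ts t₂, ENNReal.ofReal (1 + 2 * gauge K ((y : V) + t • u))) :=
        lintegral_union_le _ _ _
    _ ≤ ENNReal.ofReal ((ts - t₁) * (1 + 1 + r)) + ENNReal.ofReal ((t₂ - ts) * (1 + r + 1)) :=
        add_le_add hA hB
    _ = ENNReal.ofReal ((t₂ - t₁) * (2 + r)) := by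
        rw [← ENNReal.ofReal_add]
        · congr 1; ring
        · apply mul_nonneg (by linarith [hts_mem.1]) (by linarith)
        · apply mul_nonneg (by linarith [hts_mem.2]) (by linarith)

section boundary

variable {W : Type*} [NormedAddCommGroup W] [InnerProductSpace ℝ W] [FiniteDimensional ℝ W]

theorem exists_boundary_rep {S : Set W} (hSc : IsCompact S) (hS : Convex ℝ S) (h0 : S ∈ 𝓝 (0 : W))
    (hnt : ∃ v : W, v ≠ 0) (y : W) (hy : y ∈ S) :
    ∃ (r : ℝ) (ω : W), 0 ≤ r ∧ r ≤ 1 ∧ ω ∈ S ∧ y = r • ω ∧ ∀ c : ℝ, 1 < c → c • ω ∉ S := by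
  have hbdd : Bornology.IsVonNBounded ℝ S := NormedSpace.isVonNBounded_iff ℝ |>.mpr hSc.isBounded
  have key : ∀ v : W, v ≠ 0 → ∃ ω : W, ω ∈ S ∧ v = gauge S v • ω ∧ 0 < gauge S v ∧
      ∀ c : ℝ, 1 < c → c • ω ∉ S := by
    intro v hv
    have hpos : 0 < gauge S v := gauge_pos (absorbent_nhds_zero h0) hbdd |>.mpr hv
    refine ⟨(gauge S v)⁻¹ • v, ?_, ?_, hpos, ?_⟩
    · have h1 : gauge S ((gauge S v)⁻¹ • v) ≤ 1 := by
        rw [gauge_smul_of_nonneg (inv_nonneg.mpr hpos.le), smul_eq_mul, inv_mul_cancel₀ hpos.ne']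
      have h2 := (gauge_le_one_iff_mem_closure hS h0).mp h1
      rwa [hSc.isClosed.closure_eq] at h2
    · rw [smul_smul, mul_inv_cancel₀ hpos.ne', one_smul]
    · intro c hc hmem
      have h3 := gauge_le_one_of_mem hmem
      rw [gauge_smul_of_nonneg (by linarith), gauge_smul_of_nonneg (inv_nonneg.mpr hpos.le)] at h3
      simp only [smul_eq_mul] at h3
      rw [inv_mul_cancel₀ hpos.ne', mul_one] at h3
      linarith
  by_cases hy0 : y = 0
  · obtain ⟨v, hv⟩ := hnt
    obtain ⟨ω, hω, _, _, hb⟩ := key v hv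
    exact ⟨0, ω, le_refl _, zero_le_one, hω, by simp [hy0], hb⟩
  · obtain ⟨ω, hω, he, hp, hb⟩ := key y hy0
    exact ⟨gauge S y, ω, hp.le, gauge_le_one_of_mem hy, hω, he, hb⟩

end boundary

theorem measurable_dens {K : Set V} (hK : Convex ℝ K) (h0 : K ∈ 𝓝 (0 : V)) : Measurable (dens K) := by
  have hc : Continuous (gauge K) := continuous_gauge hK h0
  unfold dens
  apply ENNReal.measurable_ofReal.comp
  fun_prop

theorem proj_surjective (u : V) : Function.Surjective ((ℝ ∙ u)ᗮ.orthogonalProjectionOnto) := by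
  intro y
  exact ⟨y, Submodule.orthogonalProjectionOnto_mem_subspace_eq_self y⟩

theorem image_mem_nhds {K : Set V} (h0 : K ∈ 𝓝 (0 : V)) (u : V) :
    ((ℝ ∙ u)ᗮ.orthogonalProjectionOnto '' K) ∈ 𝓝 (0 : Pl u) := by
  have hopen := ((ℝ ∙ u)ᗮ.orthogonalProjectionOnto).isOpenMap (proj_surjective u)
  have := hopen.image_mem_nhds h0
  simpa using this

/-- Per-cylinder bound of the density mass. -/
theorem cyl_bound {K : Set V} (hKc : IsCompact K) (hK : Convex ℝ K) (hs : ∀ x ∈ K, -x ∈ K)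
    (h0 : K ∈ 𝓝 (0 : V)) (u : V) (hu : ‖u‖ = 1) (hdim : finrank ℝ (Pl u) = 2)
    {B' : Set (Pl u)} (hB' : MeasurableSet B') :
    ∫⁻ x in K ∩ (ℝ ∙ u)ᗮ.orthogonalProjectionOnto ⁻¹' B', dens K x ≤
      volume B' * (6 * volume K / volume ((ℝ ∙ u)ᗮ.orthogonalProjectionOnto '' K)) := by
  set S : Set (Pl u) := (ℝ ∙ u)ᗮ.orthogonalProjectionOnto '' K with hSdef
  have hSc : IsCompact S := hKc.image (ContinuousLinearMap.continuous _)
  have hSconv : Convex ℝ S := hK.linear_image (ContinuousLinearMap.toLinearMap _)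
  have hS0 : S ∈ 𝓝 (0 : Pl u) := image_mem_nhds h0 u
  have hSpos : volume S ≠ 0 := (Measure.measure_pos_of_mem_nhds _ hS0).ne'
  have hStop : volume S ≠ ⊤ := hSc.measure_lt_top.ne
  have hnt : ∃ v : Pl u, v ≠ 0 := by
    have : Nontrivial (Pl u) := by
      apply Module.nontrivial_of_finrank_pos (R := ℝ)
      omega
    exact exists_ne 0
  have hmeasA : MeasurableSet (K ∩ (ℝ ∙ u)ᗮ.orthogonalProjectionOnto ⁻¹' B') :=
    hKc.measurableSet.inter ((ContinuousLinearMap.continuous _).measurable hB')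
  set C := 6 * volume K / volume S with hCdef
  have hinner : ∀ y : Pl u, (∫⁻ t : ℝ, (K ∩ (ℝ ∙ u)ᗮ.orthogonalProjectionOnto ⁻¹' B').indicator (dens K) ((y : V) + t • u)) ≤
      B'.indicator (fun _ => C) y := by
    intro y
    by_cases hyB : y ∈ B'
    · rw [Set.indicator_of_mem hyB]
      have hEq : (fun t : ℝ => (K ∩ (ℝ ∙ u)ᗮ.orthogonalProjectionOnto ⁻¹' B').indicator (dens K) ((y : V) + t • u)) =
          (fib K u y).indicator (fun t => ENNReal.ofReal (1 + 2 * gauge K ((y : V) + t • u))) := by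
        funext t
        by_cases ht : (y : V) + t • u ∈ K
        · have h1 : (y : V) + t • u ∈ K ∩ (ℝ ∙ u)ᗮ.orthogonalProjectionOnto ⁻¹' B' :=
            ⟨ht, by
              show (ℝ ∙ u)ᗮ.orthogonalProjectionOnto ((y : V) + t • u) ∈ B'
              rw [proj_fiber]; exact hyB⟩
          have h2 : t ∈ fib K u y := ht
          rw [Set.indicator_of_mem h1, Set.indicator_of_mem h2]
          rfl
        · have h1 : (y : V) + t • u ∉ K ∩ (ℝ ∙ u)ᗮ.orthogonalProjectionOnto ⁻¹' B' := fun h => ht h.1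
          have h2 : t ∉ fib K u y := ht
          rw [Set.indicator_of_notMem h1, Set.indicator_of_notMem h2]
      rw [hEq, lintegral_indicator (isCompact_fib hKc u hu y).measurableSet]
      by_cases hne : (fib K u y).Nonempty
      · have hyS : y ∈ S := (mem_image_iff_fib K u hu y).mpr hne
        obtain ⟨r, ω, hr0, hr1, hωS, hyω, hbd⟩ := exists_boundary_rep hSc hSconv hS0 hnt y hyS
        obtain ⟨x₀, hx₀, hxω⟩ := hωS
        have h1 := fiber_integral_le hKc hK h0 u hu hyω hr0 hr1 hx₀ hxω hne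
        have h2 := volume_K_ge hKc hK hs u hu hdim hyω hr0 ⟨x₀, hx₀, hxω⟩ hyS hbd
        rw [hCdef, ENNReal.le_div_iff_mul_le (Or.inl hSpos) (Or.inl hStop)]
        calc (∫⁻ t in fib K u y, ENNReal.ofReal (1 + 2 * gauge K ((y : V) + t • u))) * volume S
            ≤ ENNReal.ofReal (len K u y * (2 + r)) * volume S := by gcongr
          _ = 6 * (ENNReal.ofReal (len K u y * (1 / 3 + r / 6)) * volume S) := by
              rw [← mul_assoc]
              congr 1
              have h6 : (6 : ℝ≥0∞) = ENNReal.ofReal 6 := by simp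
              rw [h6, ← ENNReal.ofReal_mul (by norm_num)]
              congr 1
              ring
          _ ≤ 6 * volume K := by gcongr
      · rw [Set.not_nonempty_iff_eq_empty] at hne
        rw [hne]
        simp
    · rw [Set.indicator_of_notMem hyB]
      have hEq : (fun t : ℝ => (K ∩ (ℝ ∙ u)ᗮ.orthogonalProjectionOnto ⁻¹' B').indicator (dens K) ((y : V) + t • u)) = fun _ => 0 := by
        funext t
        apply Set.indicator_of_notMem
        intro h
        have := h.2
        simp only [mem_preimage] at this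
        rw [proj_fiber] at this
        exact hyB this
      rw [hEq]
      simp
  rw [← lintegral_indicator hmeasA, lintegral_fiber u hu _
    ((measurable_dens hK h0).indicator hmeasA)]
  calc _ ≤ ∫⁻ y : Pl u, B'.indicator (fun _ => C) y := lintegral_mono hinner
    _ = C * volume B' := by
        rw [lintegral_indicator_const hB']
    _ = volume B' * C := mul_comm _ _

end Vale.Agent.Lib.P243
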