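import Vale.Agent.Lib.P243.Symm

open MeasureTheory Module Set Filter
open scoped ENNReal RealInnerProductSpace Pointwise Topology

namespace Vale.Agent.Lib.P243

set_option linter.unusedSectionVars false

variable {V : Type*} [NormedAddCommGroup V] [InnerProductSpace ℝ V] [FiniteDimensional ℝ V]
  [MeasurableSpace V] [BorelSpace V]

theorem integral_one_sub_cube : ∫ t in (0 : ℝ)..1, (1 - t ^ 3) = 3 / 4 := by
  rw [intervalIntegral.integral_sub (by apply Continuous.intervalIntegrable; fun_prop)
    (by apply Continuous.intervalIntegrable; fun_prop), integral_pow]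
  simp
  norm_num

/-- The mass of the gauge over the body is three quarters of its volume. -/
theorem lintegral_gauge_ge {K : Set V} (hKc : IsCompact K) (hK : Convex ℝ K) (h0 : K ∈ 𝓝 (0 : V))
    (hdim : finrank ℝ V = 3) :
    ENNReal.ofReal (3 / 4) * volume K ≤ ∫⁻ x in K, ENNReal.ofReal (gauge K x) := by
  have hc : Continuous (gauge K) := continuous_gauge hK h0
  have hKm : MeasurableSet K := hKc.measurableSet
  have hKtop : volume K ≠ ⊤ := hKc.measure_lt_top.ne
  rw [lintegral_eq_lintegral_meas_lt (volume.restrict K)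
    (Filter.Eventually.of_forall (fun x => gauge_nonneg x)) hc.aemeasurable]
  have hlev : ∀ t ∈ Ioo (0 : ℝ) 1, ENNReal.ofReal (1 - t ^ 3) * volume K ≤
      (volume.restrict K) {a | t < gauge K a} := by
    intro t ht
    have hmeas : MeasurableSet {a | t < gauge K a} := (isOpen_lt continuous_const hc).measurableSet
    rw [Measure.restrict_apply hmeas]
    have hsmul : t • K ⊆ K := by
      rintro _ ⟨x, hx, rfl⟩
      have := hK hx (mem_of_mem_nhds h0) (a := t) (b := 1 - t) ht.1.le (by linarith [ht.2]) (by ring)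
      simpa using this
    have hvol : volume (t • K) = ENNReal.ofReal (t ^ 3) * volume K := by
      rw [Measure.addHaar_smul, hdim, abs_of_pos (by have := ht.1; positivity)]
    have hsubs : K \ (t • K) ⊆ {a | t < gauge K a} ∩ K := by
      intro x hx
      refine ⟨?_, hx.1⟩
      by_contra hcon
      simp only [mem_ofPred_eq, not_lt] at hcon
      apply hx.2
      have h1 : gauge K (t⁻¹ • x) ≤ 1 := by
        rw [gauge_smul_of_nonneg (inv_nonneg.mpr ht.1.le), smul_eq_mul,
          inv_mul_le_iff₀ ht.1, mul_one]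
        exact hcon
      have h2 := (gauge_le_one_iff_mem_closure hK h0).mp h1
      rw [hKc.isClosed.closure_eq] at h2
      refine ⟨t⁻¹ • x, h2, ?_⟩
      simp only [smul_smul, mul_inv_cancel₀ ht.1.ne', one_smul]
    refine le_trans ?_ (measure_mono hsubs)
    have hTm : MeasurableSet (t • K) := (hKc.smul t).measurableSet
    have hdiff := measure_sdiff_add_inter (μ := volume) K hTm
    have hinter : K ∩ (t • K) = t • K := inter_eq_right.mpr hsmul
    rw [hinter] at hdiff
    have hfin : volume (t • K) ≠ ⊤ := (hKc.smul t).measure_lt_top.ne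
    apply (ENNReal.add_le_add_iff_right hfin).mp
    rw [hdiff, hvol, ← add_mul, ← ENNReal.ofReal_add (by nlinarith [ht.1, ht.2, pow_le_one₀ (n := 3) ht.1.le ht.2.le]) (by have := ht.1; positivity)]
    simp
  calc ENNReal.ofReal (3 / 4) * volume K
      = (∫⁻ t in Icc (0 : ℝ) 1, ENNReal.ofReal (1 - t ^ 3)) * volume K := by
        rw [lintegral_Icc_ofReal (by fun_prop) zero_le_one, integral_one_sub_cube]
        intro t ht
        have := pow_le_one₀ (n := 3) ht.1 ht.2
        linarith
    _ = ∫⁻ t in Ioo (0 : ℝ) 1, ENNReal.ofReal (1 - t ^ 3) * volume K := by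
        rw [← setLIntegral_congr (Ioo_ae_eq_Icc (a := (0 : ℝ)) (b := 1)),
          lintegral_mul_const _ (by fun_prop)]
    _ ≤ ∫⁻ t in Ioo (0 : ℝ) 1, (volume.restrict K) {a | t < gauge K a} :=
        setLIntegral_mono' measurableSet_Ioo hlev
    _ ≤ ∫⁻ t in Ioi (0 : ℝ), (volume.restrict K) {a | t < gauge K a} :=
        lintegral_mono_set Ioo_subset_Ioi_self

theorem mass_ge {K : Set V} (hKc : IsCompact K) (hK : Convex ℝ K) (h0 : K ∈ 𝓝 (0 : V))
    (hdim : finrank ℝ V = 3) :
    (5 / 2 : ℝ≥0∞) * volume K ≤ ∫⁻ x in K, dens K x := by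
  have hc : Continuous (gauge K) := continuous_gauge hK h0
  have h1 : ∀ x, dens K x = 1 + 2 * ENNReal.ofReal (gauge K x) := by
    intro x
    unfold dens
    rw [ENNReal.ofReal_add (by norm_num) (by have := gauge_nonneg (s := K) x; positivity),
      ENNReal.ofReal_mul (by norm_num)]
    simp
  simp_rw [h1]
  rw [lintegral_add_left (by fun_prop), lintegral_const_mul _ (by fun_prop)]
  simp only [lintegral_const, Measure.restrict_apply, MeasurableSet.univ, univ_inter, one_mul]
  have h2 := lintegral_gauge_ge hKc hK h0 hdim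
  have h3 : (5 / 2 : ℝ≥0∞) * volume K = volume K + 2 * (ENNReal.ofReal (3 / 4) * volume K) := by
    have e1 : (5 / 2 : ℝ≥0∞) = 1 + 2 * ENNReal.ofReal (3 / 4) := by
      have e2 : (5 / 2 : ℝ≥0∞) = ENNReal.ofReal (5 / 2) := by
        rw [ENNReal.ofReal_div_of_pos (by norm_num)]
        simp
      have e3 : (1 : ℝ≥0∞) + 2 * ENNReal.ofReal (3 / 4) = ENNReal.ofReal (1 + 2 * (3 / 4)) := by
        rw [ENNReal.ofReal_add (by norm_num) (by norm_num), ENNReal.ofReal_mul (by norm_num)]
        simp
      rw [e2, e3]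
      norm_num
    rw [e1, add_mul, one_mul, mul_assoc]
  rw [h3]
  gcongr

/-- Main theorem for origin-symmetric bodies: the directionwise relative area of every cylinder
covering is at least `5/12`. -/
theorem symm_main {ι : Type*} [Fintype ι] {K : Set V} (hKc : IsCompact K) (hK : Convex ℝ K)
    (hint : (interior K).Nonempty) (hs : ∀ x ∈ K, -x ∈ K) (hdim : finrank ℝ V = 3)
    (u : ι → V) (hu : ∀ i, ‖u i‖ = 1) (B : ∀ i, Set (Pl (u i)))
    (hcover : K ⊆ ⋃ i, {x | (ℝ ∙ u i)ᗮ.orthogonalProjectionOnto x ∈ B i}) :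
    (5 / 12 : ℝ≥0∞) ≤ ∑ i, volume (B i) / volume ((ℝ ∙ u i)ᗮ.orthogonalProjectionOnto '' K) := by
  classical
  have h0 : K ∈ 𝓝 (0 : V) := by
    obtain ⟨x, hx⟩ := hint
    have hx' : -x ∈ interior K := by
      have hopen : IsOpen ((fun z : V => -z) ⁻¹' interior K) := isOpen_interior.preimage continuous_neg
      have hsub : (fun z : V => -z) ⁻¹' interior K ⊆ K := by
        intro z hz
        have := hs _ (interior_subset hz)
        simpa using this
      have hm : -x ∈ (fun z : V => -z) ⁻¹' interior K := by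
        simpa using hx
      exact interior_maximal hsub hopen hm
    have hz : (0 : V) ∈ interior K := by
      have h1 := hK.interior hx hx' (a := 1 / 2) (b := 1 / 2) (by norm_num) (by norm_num) (by norm_num)
      have h2 : (1 / 2 : ℝ) • x + (1 / 2 : ℝ) • (-x) = 0 := by
        rw [smul_neg, add_neg_cancel]
      rwa [h2] at h1
    exact mem_interior_iff_mem_nhds.mp hz
  have hdimP : ∀ i, finrank ℝ (Pl (u i)) = 2 := by
    intro i
    have h1 := Submodule.finrank_add_finrank_orthogonal (ℝ ∙ u i)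
    have hne : u i ≠ 0 := by
      intro h
      have := hu i
      rw [h, norm_zero] at this
      exact zero_ne_one this
    rw [finrank_span_singleton hne, hdim] at h1
    show finrank ℝ ((ℝ ∙ u i)ᗮ : Submodule ℝ V) = 2
    omega
  set vK := volume K with hvK
  have hvKtop : vK ≠ ⊤ := hKc.measure_lt_top.ne
  have hvK0 : vK ≠ 0 := (Measure.measure_pos_of_mem_nhds _ h0).ne'
  set R := ∑ i, volume (B i) / volume ((ℝ ∙ u i)ᗮ.orthogonalProjectionOnto '' K) with hR
  have hcov' : K ⊆ ⋃ i, K ∩ (ℝ ∙ u i)ᗮ.orthogonalProjectionOnto ⁻¹' (toMeasurable volume (B i)) := by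
    intro x hx
    obtain ⟨i, hi⟩ := mem_iUnion.mp (hcover hx)
    exact mem_iUnion.mpr ⟨i, hx, subset_toMeasurable _ _ hi⟩
  have hmain : (5 / 2 : ℝ≥0∞) * vK ≤ R * (6 * vK) := by
    calc (5 / 2 : ℝ≥0∞) * vK ≤ ∫⁻ x in K, dens K x := mass_ge hKc hK h0 hdim
      _ ≤ ∫⁻ x in ⋃ i, K ∩ (ℝ ∙ u i)ᗮ.orthogonalProjectionOnto ⁻¹' (toMeasurable volume (B i)), dens K x :=
          lintegral_mono_set hcov'
      _ ≤ ∑' i, ∫⁻ x in K ∩ (ℝ ∙ u i)ᗮ.orthogonalProjectionOnto ⁻¹' (toMeasurable volume (B i)), dens K x :=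
          lintegral_iUnion_le _ _
      _ = ∑ i, ∫⁻ x in K ∩ (ℝ ∙ u i)ᗮ.orthogonalProjectionOnto ⁻¹' (toMeasurable volume (B i)), dens K x :=
          tsum_fintype _
      _ ≤ ∑ i, volume (toMeasurable volume (B i)) * (6 * vK / volume ((ℝ ∙ u i)ᗮ.orthogonalProjectionOnto '' K)) := by
          apply Finset.sum_le_sum
          intro i _
          exact cyl_bound hKc hK hs h0 (u i) (hu i) (hdimP i) (measurableSet_toMeasurable _ _)
      _ = R * (6 * vK) := by
          rw [hR, Finset.sum_mul]
          apply Finset.sum_congr rfl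
          intro i _
          rw [measure_toMeasurable]
          simp only [div_eq_mul_inv]
          ring
  by_cases hRtop : R = ⊤
  · rw [hRtop]; exact le_top
  have hmain2 : (5 / 2 : ℝ≥0∞) ≤ R * 6 := by
    have h3 : (5 / 2 : ℝ≥0∞) * vK ≤ (R * 6) * vK := by
      rw [mul_assoc]; exact hmain
    exact (ENNReal.mul_le_mul_iff_left hvK0 hvKtop).mp h3
  rw [ENNReal.div_le_iff (by norm_num) (by norm_num)]
  calc (5 : ℝ≥0∞) = 2 * (5 / 2) := (ENNReal.mul_div_cancel (by norm_num) (by norm_num)).symm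
    _ ≤ 2 * (R * 6) := by gcongr
    _ = R * 12 := by
        rw [show (12 : ℝ≥0∞) = 2 * 6 by norm_num]
        ring

end Vale.Agent.Lib.P243
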