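import Vale.Agent.Lib.P243.MainParam

open MeasureTheory Module Set Metric Filter
open scoped ENNReal RealInnerProductSpace Pointwise Topology NNReal

namespace Vale.Agent.Lib.P243

set_option linter.unusedSectionVars false

variable {V : Type*} [NormedAddCommGroup V] [InnerProductSpace ℝ V] [FiniteDimensional ℝ V]
  [MeasurableSpace V] [BorelSpace V]

/-- A continuous linear equivalence scales all volumes by one positive finite factor. -/
theorem exists_scale {E F : Type*} [NormedAddCommGroup E] [InnerProductSpace ℝ E]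
    [FiniteDimensional ℝ E] [MeasurableSpace E] [BorelSpace E]
    [NormedAddCommGroup F] [InnerProductSpace ℝ F]
    [FiniteDimensional ℝ F] [MeasurableSpace F] [BorelSpace F] (L : E ≃L[ℝ] F) :
    ∃ κ : ℝ≥0∞, κ ≠ 0 ∧ κ ≠ ⊤ ∧ ∀ X : Set E, volume (L '' X) = κ * volume X := by
  set μ : Measure E := Measure.map L.symm (volume : Measure F) with hμ
  have hH : μ.IsAddHaarMeasure := L.symm.isAddHaarMeasure_map _
  obtain ⟨c, hc⟩ : ∃ c : ℝ≥0, μ = c • (volume : Measure E) :=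
    ⟨_, Measure.isAddLeftInvariant_eq_smul μ volume⟩
  have key : ∀ X : Set E, volume (L '' X) = μ X := by
    intro X
    have h1 := (L.symm.toHomeomorph.toMeasurableEquiv).map_apply (μ := (volume : Measure F)) X
    have h2 : (⇑L.symm.toHomeomorph.toMeasurableEquiv ⁻¹' X) = L '' X := by
      ext y
      constructor
      · intro hy
        exact ⟨L.symm y, hy, by simp⟩
      · rintro ⟨x, hx, rfl⟩
        show L.symm (L x) ∈ X
        simpa using hx
    rw [h2] at h1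
    rw [← h1]
    rfl
  refine ⟨c, ?_, ENNReal.coe_ne_top, ?_⟩
  · intro h0
    have hc0 : c = 0 := by exact_mod_cast h0
    have h1 : μ = 0 := by rw [hc, hc0, zero_smul]
    have h2 : 0 < μ Set.univ := isOpen_univ.measure_pos μ univ_nonempty
    rw [h1] at h2
    simp at h2
  · intro X
    rw [key, hc]
    rfl

theorem proj_eq_zero_iff {u : V} (hu : ‖u‖ = 1) {x : V} :
    (ℝ ∙ u)ᗮ.orthogonalProjectionOnto x = 0 ↔ x = ⟪u, x⟫ • u := by
  have h := fiber_decomp u hu x
  constructor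
  · intro h0
    rw [h0] at h
    simpa using h.symm
  · intro h1
    rw [h1]
    have := proj_fiber u (0 : Pl u) ⟪u, x⟫
    simpa using this

/-- The transfer of one direction under a linear map plus a translation. -/
theorem dir_transfer (hdim : finrank ℝ V = 3) (A : V ≃L[ℝ] V) (t : V) {u : V} (hu : ‖u‖ = 1) :
    ∃ (u' : V) (_ : ‖u'‖ = 1) (φ : Pl u → Pl u') (κ : ℝ≥0∞), κ ≠ 0 ∧ κ ≠ ⊤ ∧
      (∀ X : Set (Pl u), volume (φ '' X) = κ * volume X) ∧
      ∀ x, (ℝ ∙ u')ᗮ.orthogonalProjectionOnto (A x + t) = φ ((ℝ ∙ u)ᗮ.orthogonalProjectionOnto x) := by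
  have hune : u ≠ 0 := by
    intro h
    rw [h, norm_zero] at hu
    exact zero_ne_one hu
  have hAu : A u ≠ 0 := by
    intro h
    exact hune (by simpa using h)
  have hn : 0 < ‖A u‖ := norm_pos_iff.mpr hAu
  set u' : V := ‖A u‖⁻¹ • A u with hu'def
  have hu' : ‖u'‖ = 1 := by
    rw [hu'def, norm_smul, norm_inv, norm_norm, inv_mul_cancel₀ hn.ne']
  have hAuu' : A u = ‖A u‖ • u' := by
    rw [hu'def, smul_smul, mul_inv_cancel₀ hn.ne', one_smul]
  set π' := (ℝ ∙ u')ᗮ.orthogonalProjectionOnto with hπ'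
  set f : Pl u →ₗ[ℝ] Pl u' := π'.toLinearMap ∘ₗ (A : V →ₗ[ℝ] V) ∘ₗ (Pl u).subtype with hf
  have hfapp : ∀ y : Pl u, f y = π' (A (y : V)) := fun y => rfl
  have hinj : Function.Injective f := by
    rw [← LinearMap.ker_eq_bot, LinearMap.ker_eq_bot']
    intro y hy
    rw [hfapp] at hy
    have h1 := (proj_eq_zero_iff hu').mp hy
    set s := ⟪u', A (y : V)⟫ with hs
    have h2 : A (y : V) = A ((s * ‖A u‖⁻¹) • u) := by
      rw [map_smul, h1, hAuu']
      rw [← hAuu', mul_smul, hu'def]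
    have h3 : (y : V) = (s * ‖A u‖⁻¹) • u := A.injective h2
    have h4 : ⟪u, (y : V)⟫ = 0 := inner_y_u u y
    rw [h3, inner_smul_right, real_inner_self_eq_norm_sq, hu] at h4
    have h5 : s * ‖A u‖⁻¹ = 0 := by simpa using h4
    apply Subtype.ext
    show (y : V) = 0
    rw [h3, h5, zero_smul]
  have hfin : finrank ℝ (Pl u) = finrank ℝ (Pl u') := by
    rw [finrank_pl hdim hu, finrank_pl hdim hu']
  set L : Pl u ≃L[ℝ] Pl u' := (LinearMap.linearEquivOfInjective f hinj hfin).toContinuousLinearEquiv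
    with hL
  have hLapp : ∀ y : Pl u, L y = f y := fun y => rfl
  obtain ⟨κ, hκ0, hκt, hκ⟩ := exists_scale L
  refine ⟨u', hu', fun y => L y + π' t, κ, hκ0, hκt, ?_, ?_⟩
  · intro X
    have h1 : (fun y => L y + π' t) '' X = (fun z => z + π' t) '' (L '' X) := by
      rw [Set.image_image]
    rw [h1, Set.image_add_right, measure_preimage_add_right, hκ]
  · intro x
    have h0 : π' u' = 0 := by
      apply (proj_eq_zero_iff hu').mpr
      rw [real_inner_self_eq_norm_sq, hu']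
      simp
    have h1 : x = ((ℝ ∙ u)ᗮ.orthogonalProjectionOnto x : V) + ⟪u, x⟫ • u :=
      (fiber_decomp u hu x).symm
    have h2 : π' (A x) = π' (A ((ℝ ∙ u)ᗮ.orthogonalProjectionOnto x : V)) := by
      conv_lhs => rw [h1]
      rw [map_add, map_add, map_smul, map_smul, hAuu', map_smul, h0]
      simp
    show π' (A x + t) = L ((ℝ ∙ u)ᗮ.orthogonalProjectionOnto x) + π' t
    rw [map_add, h2, hLapp, hfapp]

/-- The relative area is invariant under affine maps. -/
theorem rel_transfer {ι : Type*} [Fintype ι] {K : Set V} (hdim : finrank ℝ V = 3) (A : V ≃L[ℝ] V)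
    (t : V) {c : ℝ≥0∞}
    (hmain : ∀ (u' : ι → V) (_ : ∀ i, ‖u' i‖ = 1) (B' : ∀ i, Set (Pl (u' i))),
      ((fun x => A x + t) '' K ⊆ ⋃ i, {x | (ℝ ∙ u' i)ᗮ.orthogonalProjectionOnto x ∈ B' i}) →
      c ≤ ∑ i, volume (B' i) / volume (Shadow ((fun x => A x + t) '' K) (u' i)))
    (u : ι → V) (hu : ∀ i, ‖u i‖ = 1) (B : ∀ i, Set (Pl (u i)))
    (hcover : K ⊆ ⋃ i, {x | (ℝ ∙ u i)ᗮ.orthogonalProjectionOnto x ∈ B i}) :
    c ≤ ∑ i, volume (B i) / volume (Shadow K (u i)) := by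
  choose u' hu' φ κ hκ0 hκt hκ hπ using fun i => dir_transfer hdim A t (hu i)
  have h := hmain u' hu' (fun i => φ i '' B i) (by
    rintro _ ⟨x, hx, rfl⟩
    obtain ⟨i, hi⟩ := mem_iUnion.mp (hcover hx)
    refine mem_iUnion.mpr ⟨i, ?_⟩
    show (ℝ ∙ u' i)ᗮ.orthogonalProjectionOnto (A x + t) ∈ φ i '' B i
    rw [hπ]
    exact ⟨_, hi, rfl⟩)
  refine h.trans (le_of_eq ?_)
  apply Finset.sum_congr rfl
  intro i _
  have hS : Shadow ((fun x => A x + t) '' K) (u' i) = φ i '' Shadow K (u i) := by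
    ext y
    constructor
    · rintro ⟨_, ⟨x, hx, rfl⟩, rfl⟩
      exact ⟨_, ⟨x, hx, rfl⟩, (hπ i x).symm⟩
    · rintro ⟨_, ⟨x, hx, rfl⟩, rfl⟩
      exact ⟨_, ⟨x, hx, rfl⟩, hπ i x⟩
  rw [hS, hκ, hκ, ENNReal.mul_div_mul_left _ _ (hκ0 i) (hκt i)]

end Vale.Agent.Lib.P243
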