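import Vale.Agent.Lib.P243.Transfer
import Vale.Agent.Lib.P243.NormalizeE3
import Vale.Agent.Lib.P243.Defs

open MeasureTheory Module Set Metric Filter
open scoped ENNReal RealInnerProductSpace Pointwise Topology

namespace Vale.Agent.Lib.P243

set_option linter.unusedSectionVars false

variable {V : Type*} [NormedAddCommGroup V] [InnerProductSpace ℝ V] [FiniteDimensional ℝ V]
  [MeasurableSpace V] [BorelSpace V]

/-- The main inequality for a body between the balls of radii `1/5` and `9/4`. -/
theorem normalized_numeric {ι : Type*} [Fintype ι] {K : Set V} (hdim : finrank ℝ V = 3)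
    (hc : IsCompact K) (hK : Convex ℝ K)
    (hin : closedBall 0 (1 / 5) ⊆ K) (hout : ∀ x ∈ K, ‖x‖ ≤ 9 / 4)
    (u : ι → V) (hu : ∀ i, ‖u i‖ = 1) (B : ∀ i, Set (Pl (u i)))
    (hcover : K ⊆ ⋃ i, {x | (ℝ ∙ u i)ᗮ.orthogonalProjectionOnto x ∈ B i}) :
    ENNReal.ofReal (1 / 3 + 1 / 10 ^ 134) ≤ ∑ i, volume (B i) / volume (Shadow K (u i)) := by
  have hm : (((3000000000000 : ℕ) : ℝ)) = 3000000000000 := by norm_num
  have hN : (((1080000000000000 : ℕ) : ℝ)) = 1080000000000000 := by norm_num
  have h := main_param (r₀ := 1 / 5) (R₀ := 9 / 4) (κ := 1 / 180)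
    (ρ := 1 / 43200000000000000) (δ := 1 / 43200000000000000 / 800)
    (s₀ := 1 / 43200000000000000 / 5) (ζ := 3 / 10 ^ 9) (r₁ := (3 / 10 ^ 9) ^ 4 / 2)
    (τ := (3 / 10 ^ 9) ^ 4 / 2 * (1 / 43200000000000000 / 800) / 36)
    (θ := (1 / 43200000000000000 / 800) * ((3 / 10 ^ 9) ^ 4 / 2 * (1 / 43200000000000000 / 800) / 36) ^ 2 / 21)
    (T := 9 / 4 / 3000000000000) (β := 1 / 1620) (N := 1080000000000000) (m := 3000000000000)
    hdim hc hK (by norm_num) (by norm_num) (by norm_num) (by norm_num) (by norm_num) (by norm_num)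
    (by norm_num) (by norm_num) (by norm_num) (by norm_num) (by norm_num) (by norm_num)
    (by norm_num) (by norm_num) (by norm_num) (by norm_num) (by norm_num) (by norm_num)
    (by norm_num) (by norm_num) (by norm_num) (by norm_num) (by norm_num) (by norm_num)
    (by norm_num) (by norm_num) (by norm_num) (by norm_num) (by norm_num) (by rw [hm]; norm_num)
    (by rw [hN]; norm_num) (by norm_num) (by rw [hm, hN]; norm_num) hin hout u hu B hcover
  refine le_trans (ENNReal.ofReal_le_ofReal ?_) h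
  norm_num

theorem convex_affine_image {K : Set EE} (hK : Convex ℝ K) (A : EE ≃L[ℝ] EE) (t : EE) :
    Convex ℝ ((fun x => A x + t) '' K) := by
  rintro _ ⟨x, hx, rfl⟩ _ ⟨y, hy, rfl⟩ a b ha hb hab
  refine ⟨a • x + b • y, hK hx hy ha hb hab, ?_⟩
  have e : t = (a + b) • t := by rw [hab, one_smul]
  simp only [map_add, map_smul]
  nth_rewrite 1 [e]
  rw [add_smul, smul_add, smul_add]
  abel

/-- Universal improvement of the volume bound: every body and every cover. -/
theorem universal_rel {ι : Type} [Fintype ι] {K : Set E3} (hK : IsBody K) {u : ι → E3}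
    {B : ι → Set E3} (h : Covers K u B) :
    ENNReal.ofReal (1 / 3 + 1 / 10 ^ 134) ≤ relArea K u B := by
  obtain ⟨A, t, hball, hbd⟩ := exists_normalization hK.1 hK.2.1 hK.2.2
  have hdim : finrank ℝ E3 = 3 := by simp
  have := rel_transfer (V := E3) (K := K) hdim A t (c := ENNReal.ofReal (1 / 3 + 1 / 10 ^ 134))
    (fun u' hu' B' hcov => normalized_numeric hdim (hK.1.image (by fun_prop))
      (convex_affine_image hK.2.1 A t) hball
      (by
        rintro _ ⟨x, hx, rfl⟩
        exact hbd x hx) u' hu' B' hcov)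
    u h.1 (fun i => {y : (ℝ ∙ u i)ᗮ | (y : E3) ∈ B i}) (cover_translate h)
  refine this.trans (le_of_eq ?_)
  refine Finset.sum_congr rfl fun i _ => ?_
  rw [area, area, subspaceArea, subspaceArea, preimage_shadow (h.1 i)]

end Vale.Agent.Lib.P243
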